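import Vale.Agent.P161.Prod

/-!
# An Efron–Stein type inequality on the infinite product
-/

namespace Vale.Agent.P161

open MeasureTheory

open Classical in
/-- take the coordinates in `S` from `x`, the others from `y` -/
noncomputable def mix {ι : Type*} (S : Set ι) (x y : ι → I01) : ι → I01 :=
  fun k => if k ∈ S then x k else y k

variable {ι : Type*}

lemma mix_mem {S : Set ι} {k : ι} (h : k ∈ S) (x y : ι → I01) : mix S x y k = x k := by
  unfold mix; rw [if_pos h]

lemma mix_notMem {S : Set ι} {k : ι} (h : k ∉ S) (x y : ι → I01) : mix S x y k = y k := by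
  unfold mix; rw [if_neg h]

lemma measurable_mix (S : Set ι) : Measurable fun p : (ι → I01) × (ι → I01) => mix S p.1 p.2 := by
  rw [measurable_pi_iff]
  intro k
  by_cases h : k ∈ S
  · simp only [mix_mem h]; fun_prop
  · simp only [mix_notMem h]; fun_prop

lemma mp_mix (S : Set ι) :
    MeasurePreserving (fun p : (ι → I01) × (ι → I01) => mix S p.1 p.2)
      ((lamI ι).prod (lamI ι)) (lamI ι) where
  measurable := measurable_mix S
  map_eq := by
    classical
    conv_rhs => unfold lamI
    refine Measure.eq_infinitePi _ fun s t ht => ?_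
    rw [Measure.map_apply (measurable_mix S)
      (.pi (Finset.countable_toSet _) fun _ _ => ht _)]
    have e : (fun p : (ι → I01) × (ι → I01) => mix S p.1 p.2) ⁻¹' ((s : Set ι).pi t)
        = (((s.filter (· ∈ S) : Finset ι) : Set ι).pi t) ×ˢ
          (((s.filter (· ∉ S) : Finset ι) : Set ι).pi t) := by
      ext p
      simp only [Set.mem_preimage, Set.mem_pi, Finset.mem_coe, Set.mem_prod, Finset.mem_filter]
      constructor
      · intro h
        refine ⟨fun i hi => ?_, fun i hi => ?_⟩
        · have := h i hi.1
          rwa [mix_mem hi.2] at this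
        · have := h i hi.1
          rwa [mix_notMem hi.2] at this
      · rintro ⟨h1, h2⟩ i hi
        by_cases hiS : i ∈ S
        · rw [mix_mem hiS]; exact h1 i ⟨hi, hiS⟩
        · rw [mix_notMem hiS]; exact h2 i ⟨hi, hiS⟩
    rw [e, Measure.prod_prod]
    unfold lamI
    rw [Measure.infinitePi_pi _ (fun i _ => ht i), Measure.infinitePi_pi _ (fun i _ => ht i),
      Finset.prod_filter_mul_prod_filter_not]

lemma mix_insert_upd [DecidableEq ι] {S : Set ι} {k : ι} (x y : ι → I01) (t : I01) :
    mix (insert k S) (Function.update x k t) y = Function.update (mix S x y) k t := by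
  funext j
  by_cases hj : j = k
  · subst hj
    rw [mix_mem (Set.mem_insert _ _), Function.update_self, Function.update_self]
  · rw [Function.update_of_ne hj]
    by_cases hjS : j ∈ S
    · rw [mix_mem (Set.mem_insert_of_mem _ hjS), Function.update_of_ne hj, mix_mem hjS]
    · rw [mix_notMem (by simp [hj, hjS]), mix_notMem hjS]

lemma mix_upd_right [DecidableEq ι] {S : Set ι} {k : ι} (hk : k ∉ S) (x y : ι → I01) (t : I01) :
    mix S x (Function.update y k t) = Function.update (mix S x y) k t := by
  funext j
  by_cases hj : j = k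
  · subst hj
    rw [mix_notMem hk, Function.update_self, Function.update_self]
  · rw [Function.update_of_ne hj]
    by_cases hjS : j ∈ S
    · rw [mix_mem hjS, mix_mem hjS]
    · rw [mix_notMem hjS, mix_notMem hjS, Function.update_of_ne hj]

lemma mix_upd_left [DecidableEq ι] {S : Set ι} {k : ι} (hk : k ∉ S) (x y : ι → I01) (t : I01) :
    mix S (Function.update x k t) y = mix S x y := by
  funext j
  by_cases hjS : j ∈ S
  · have : j ≠ k := fun h => hk (h ▸ hjS)
    rw [mix_mem hjS, mix_mem hjS, Function.update_of_ne this]
  · rw [mix_notMem hjS, mix_notMem hjS]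

lemma cov_le {a b : I01 → ℝ} (ha : Measurable a) (hb : Measurable b) {B L : ℝ}
    (haB : ∀ t, |a t| ≤ B) (hbB : ∀ t, |b t| ≤ B) (haL : ∀ t s, |a t - a s| ≤ L)
    (hbL : ∀ t s, |b t - b s| ≤ L) :
    (∫ t, a t * b t) - (∫ t, a t) * (∫ t, b t) ≤ L ^ 2 := by
  have ia := integrable_of_bdd (μ := (volume : Measure I01)) ha haB
  have ib := integrable_of_bdd (μ := (volume : Measure I01)) hb hbB
  have iab : Integrable (fun t => a t * b t) (volume : Measure I01) := by
    apply integrable_of_bdd (ha.mul hb) (B := B * B)
    intro t
    simp only [Pi.mul_apply, abs_mul]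
    exact mul_le_mul (haB t) (hbB t) (abs_nonneg _) ((abs_nonneg _).trans (haB t))
  have hma : ∀ t, |a t - ∫ s, a s| ≤ L := by
    intro t
    have : a t - ∫ s, a s = ∫ s, (a t - a s) := by
      rw [integral_sub (integrable_const _) ia]; simp
    rw [this]
    refine (abs_integral_le_integral_abs).trans ?_
    have := integral_mono (μ := (volume : Measure I01)) (f := fun s => |a t - a s|)
      (g := fun _ => L) (((integrable_const _).sub ia).abs) (integrable_const _) (haL t)
    simpa using this
  have hmb : ∀ t, |b t - ∫ s, b s| ≤ L := by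
    intro t
    have : b t - ∫ s, b s = ∫ s, (b t - b s) := by
      rw [integral_sub (integrable_const _) ib]; simp
    rw [this]
    refine (abs_integral_le_integral_abs).trans ?_
    have := integral_mono (μ := (volume : Measure I01)) (f := fun s => |b t - b s|)
      (g := fun _ => L) (((integrable_const _).sub ib).abs) (integrable_const _) (hbL t)
    simpa using this
  set α := ∫ s, a s
  set β := ∫ s, b s
  have e : (∫ t, a t * b t) - α * β = ∫ t, (a t - α) * (b t - β) := by
    have : ∀ t, (a t - α) * (b t - β) = a t * b t - (β * a t + α * b t) + α * β := by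
      intro t; ring
    simp only [this]
    have i1 : Integrable (fun t => β * a t + α * b t) (volume : Measure I01) :=
      (ia.const_mul β).add (ib.const_mul α)
    have i2 : Integrable (fun t => a t * b t - (β * a t + α * b t)) (volume : Measure I01) :=
      iab.sub i1
    rw [integral_add i2 (integrable_const _), integral_sub iab i1,
      integral_add (ia.const_mul β) (ib.const_mul α), integral_const_mul, integral_const_mul]
    have hc : ∫ _t : I01, α * β = α * β := by simp
    rw [hc]
    ring
  rw [e]
  have h2 : ∫ t, (a t - α) * (b t - β) ≤ ∫ _t : I01, L ^ 2 := by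
    apply integral_mono _ (integrable_const _)
    · intro t
      have h3 : |(a t - α) * (b t - β)| ≤ L * L := by
        rw [abs_mul]
        exact mul_le_mul (hma t) (hmb t) (abs_nonneg _) ((abs_nonneg _).trans (hma t))
      calc (a t - α) * (b t - β) ≤ |(a t - α) * (b t - β)| := le_abs_self _
        _ ≤ L * L := h3
        _ = L ^ 2 := by ring
    · apply integrable_of_bdd ((ha.sub measurable_const).mul (hb.sub measurable_const))
        (B := L * L)
      intro t
      simp only [Pi.mul_apply, Pi.sub_apply, abs_mul]
      exact mul_le_mul (hma t) (hmb t) (abs_nonneg _) ((abs_nonneg _).trans (hma t))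
  simpa using h2

/-- conditional expectation of `f` given the coordinates in `S` -/
noncomputable def gS (f : (ι → I01) → ℝ) (S : Set ι) (x : ι → I01) : ℝ :=
  ∫ y, f (mix S x y) ∂(lamI ι)

section

variable {f : (ι → I01) → ℝ} (hf : Measurable f)

include hf

lemma measurable_fmix (S : Set ι) (x : ι → I01) : Measurable fun y => f (mix S x y) :=
  hf.comp ((measurable_mix S).comp (measurable_const.prodMk measurable_id))

lemma measurable_gS (S : Set ι) : Measurable (gS f S) := by
  have : StronglyMeasurable fun p : (ι → I01) × (ι → I01) => f (mix S p.1 p.2) :=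
    (hf.comp (measurable_mix S)).stronglyMeasurable
  exact this.integral_prod_right'.measurable

variable {B : ℝ} (hB : ∀ x, |f x| ≤ B)

include hB

lemma integrable_fmix (S : Set ι) (x : ι → I01) :
    Integrable (fun y => f (mix S x y)) (lamI ι) :=
  integrable_of_bdd (measurable_fmix hf S x) (B := B) (fun y => hB _)

omit hf in
lemma abs_gS_le (S : Set ι) (x : ι → I01) : |gS f S x| ≤ B := by
  unfold gS
  have h := norm_integral_le_of_norm_le_const (μ := lamI ι) (f := fun y => f (mix S x y)) (C := B)
    (Filter.Eventually.of_forall fun _ => hB _)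
  simpa using h

omit hf hB in
lemma gS_upd [DecidableEq ι] {S : Set ι} {k : ι} (hk : k ∉ S) (x : ι → I01) (t : I01) :
    gS f S (Function.update x k t) = gS f S x := by
  unfold gS
  simp only [mix_upd_left hk]

lemma gS_insert [DecidableEq ι] {S : Set ι} {k : ι} (hk : k ∉ S) (x : ι → I01) :
    gS f S x = ∫ t : I01, gS f (insert k S) (Function.update x k t) := by
  unfold gS
  rw [integral_upd k _ (measurable_fmix hf S x) (B := B) (fun y => hB _)]
  simp only [mix_upd_right hk, mix_insert_upd]
  rw [integral_integral_swap]
  apply integrable_of_bdd (B := B) _ (fun y => hB _)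
  have h1 : Measurable fun y : (ι → I01) × I01 => mix S x y.1 :=
    (measurable_mix S).comp (measurable_const.prodMk measurable_fst)
  have h2 : Measurable fun y : (ι → I01) × I01 => Function.update (mix S x y.1) k y.2 :=
    (measurable_upd k).comp (h1.prodMk measurable_snd)
  exact hf.comp h2

lemma integral_gS_step [DecidableEq ι] {S : Set ι} {k : ι} (hk : k ∉ S) {L : ℝ}
    (hL : ∀ x t, |f x - f (Function.update x k t)| ≤ L) :
    ∫ x, f x * gS f (insert k S) x ∂(lamI ι) - ∫ x, f x * gS f S x ∂(lamI ι) ≤ L ^ 2 := by
  have hB0 : 0 ≤ B := (abs_nonneg _).trans (hB fun _ => 0)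
  have mg := measurable_gS hf
  have bg := abs_gS_le (f := f) hB
  have hbd : ∀ (S : Set ι) (x : ι → I01), |f x * gS f S x| ≤ B * B := by
    intro S x
    rw [abs_mul]
    exact mul_le_mul (hB x) (bg S x) (abs_nonneg _) hB0
  have hupd : ∀ z : ι → I01, Measurable fun t : I01 => Function.update z k t := fun z =>
    (measurable_upd k).comp (measurable_const.prodMk measurable_id)
  have e1 : ∫ x, f x * gS f (insert k S) x ∂(lamI ι)
      = ∫ x, (∫ t : I01, f (Function.update x k t) * gS f (insert k S) (Function.update x k t))
        ∂(lamI ι) :=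
    integral_upd k (fun x => f x * gS f (insert k S) x) (hf.mul (mg _)) (hbd _)
  have e2 : ∫ x, f x * gS f S x ∂(lamI ι)
      = ∫ x, ((∫ t : I01, f (Function.update x k t))
          * ∫ t : I01, gS f (insert k S) (Function.update x k t)) ∂(lamI ι) := by
    rw [integral_upd k (fun x => f x * gS f S x) (hf.mul (mg _)) (hbd _)]
    congr 1
    funext x
    simp only [gS_upd hk]
    rw [integral_mul_const, gS_insert hf hB hk]
  have i1 : Integrable (fun x => ∫ t : I01, f (Function.update x k t)
      * gS f (insert k S) (Function.update x k t)) (lamI ι) := by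
    have hm : Measurable fun p : (ι → I01) × I01 => f (Function.update p.1 k p.2)
        * gS f (insert k S) (Function.update p.1 k p.2) :=
      (hf.comp (measurable_upd k)).mul ((mg _).comp (measurable_upd k))
    exact (integrable_of_bdd (μ := (lamI ι).prod (volume : Measure I01)) hm
      (fun p => hbd _ _)).integral_prod_left
  have i2 : Integrable (fun x => (∫ t : I01, f (Function.update x k t))
          * ∫ t : I01, gS f (insert k S) (Function.update x k t)) (lamI ι) := by
    have hm : Measurable fun p : (ι → I01) × I01 => f (Function.update p.1 k p.2) *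
        gS f S p.1 :=
      (hf.comp (measurable_upd k)).mul ((mg _).comp measurable_fst)
    have h3 := (integrable_of_bdd (μ := (lamI ι).prod (volume : Measure I01)) hm
      (B := B * B) (fun p => by
        rw [abs_mul]
        exact mul_le_mul (hB _) (bg S _) (abs_nonneg _) hB0)).integral_prod_left
    refine h3.congr (Filter.Eventually.of_forall fun x => ?_)
    simp only
    rw [integral_mul_const, gS_insert hf hB hk]
  rw [e1, e2, ← integral_sub i1 i2]
  have h4 : ∫ x, ((∫ t : I01, f (Function.update x k t)
      * gS f (insert k S) (Function.update x k t)) - (∫ t : I01, f (Function.update x k t))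
          * ∫ t : I01, gS f (insert k S) (Function.update x k t)) ∂(lamI ι)
      ≤ ∫ _x : ι → I01, L ^ 2 ∂(lamI ι) := by
    apply integral_mono (i1.sub i2) (integrable_const _)
    intro x
    have hfL : ∀ (z : ι → I01) (t s : I01),
        |f (Function.update z k t) - f (Function.update z k s)| ≤ L := by
      intro z t s
      have := hL (Function.update z k t) s
      rwa [Function.update_idem] at this
    apply cov_le (B := B) (hf.comp (hupd x)) ((mg _).comp (hupd x)) (fun t => hB _)
      (fun t => bg _ _) (fun t s => hfL x t s)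
    intro t s
    simp only [Function.comp_apply]
    unfold gS
    rw [← integral_sub (integrable_fmix hf hB _ _) (integrable_fmix hf hB _ _)]
    simp only [mix_insert_upd]
    have h := norm_integral_le_of_norm_le_const (μ := lamI ι)
      (f := fun y => f (Function.update (mix S x y) k t) - f (Function.update (mix S x y) k s))
      (C := L) (Filter.Eventually.of_forall fun y => hfL _ t s)
    simpa using h
  simpa using h4

/-- Efron–Stein: resampling all the coordinates outside `S`. -/
theorem efron [DecidableEq ι] (A : Finset ι)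
    (hA : ∀ x y, (∀ k ∈ A, x k = y k) → f x = f y)
    (L : ι → ℝ) (hL : ∀ k ∈ A, ∀ x t, |f x - f (Function.update x k t)| ≤ L k) (S : Set ι)
    [DecidablePred (· ∈ S)] :
    ∫ p : (ι → I01) × (ι → I01), (f p.1 - f (mix S p.1 p.2)) ^ 2 ∂((lamI ι).prod (lamI ι))
      ≤ 2 * ∑ k ∈ A with k ∉ S, L k ^ 2 := by
  have hB0 : 0 ≤ B := (abs_nonneg _).trans (hB fun _ => 0)
  have mg := measurable_gS hf
  have bg := abs_gS_le (f := f) hB
  -- chain
  have chain : ∀ E : Finset ι, E ⊆ A.filter (· ∉ S) →
      ∫ x, f x * gS f (S ∪ E) x ∂(lamI ι) - ∫ x, f x * gS f S x ∂(lamI ι)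
        ≤ ∑ k ∈ E, L k ^ 2 := by
    intro E
    induction E using Finset.induction_on with
    | empty => intro _; simp
    | insert k E hk ih =>
      intro hE
      have hkE : k ∈ A.filter (· ∉ S) := hE (Finset.mem_insert_self _ _)
      have hE' : E ⊆ A.filter (· ∉ S) := fun j hj => hE (Finset.mem_insert_of_mem hj)
      rw [Finset.mem_filter] at hkE
      have h1 := ih hE'
      have hkSE : k ∉ S ∪ (E : Set ι) := by
        simp [hkE.2, hk]
      have h2 := integral_gS_step hf hB hkSE (hL k hkE.1)
      rw [Finset.sum_insert hk, Finset.coe_insert, Set.union_insert]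
      linarith
  have hS := chain _ subset_rfl
  have hall : ∀ x, gS f (S ∪ (A.filter (· ∉ S) : Finset ι)) x = f x := by
    intro x
    unfold gS
    have : ∀ y, f (mix (S ∪ ((A.filter (· ∉ S) : Finset ι) : Set ι)) x y) = f x := by
      intro y
      apply hA
      intro k hk
      apply mix_mem
      by_cases hkS : k ∈ S
      · exact Or.inl hkS
      · right; simp [hk, hkS]
    simp only [this]
    simp
  simp only [hall] at hS
  have hm1 : Measurable fun p : (ι → I01) × (ι → I01) => f p.1 := hf.comp measurable_fst
  have hm2 : Measurable fun p : (ι → I01) × (ι → I01) => f (mix S p.1 p.2) :=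
    hf.comp (measurable_mix S)
  have i1 : Integrable (fun p : (ι → I01) × (ι → I01) => f p.1 * f p.1)
      ((lamI ι).prod (lamI ι)) := by
    apply integrable_of_bdd (hm1.mul hm1) (B := B * B)
    intro p
    simp only [Pi.mul_apply, abs_mul]
    exact mul_le_mul (hB _) (hB _) (abs_nonneg _) hB0
  have i2 : Integrable (fun p : (ι → I01) × (ι → I01) => f p.1 * f (mix S p.1 p.2))
      ((lamI ι).prod (lamI ι)) := by
    apply integrable_of_bdd (hm1.mul hm2) (B := B * B)
    intro p
    simp only [Pi.mul_apply, abs_mul]
    exact mul_le_mul (hB _) (hB _) (abs_nonneg _) hB0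
  have i3 : Integrable (fun p : (ι → I01) × (ι → I01) => f (mix S p.1 p.2) * f (mix S p.1 p.2))
      ((lamI ι).prod (lamI ι)) := by
    apply integrable_of_bdd (hm2.mul hm2) (B := B * B)
    intro p
    simp only [Pi.mul_apply, abs_mul]
    exact mul_le_mul (hB _) (hB _) (abs_nonneg _) hB0
  have e1 : ∫ p : (ι → I01) × (ι → I01), f p.1 * f p.1 ∂((lamI ι).prod (lamI ι))
      = ∫ x, f x * f x ∂(lamI ι) := by
    rw [integral_prod _ i1]
    simp
  have e2 : ∫ p : (ι → I01) × (ι → I01), f p.1 * f (mix S p.1 p.2) ∂((lamI ι).prod (lamI ι))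
      = ∫ x, f x * gS f S x ∂(lamI ι) := by
    rw [integral_prod _ i2]
    simp only [integral_const_mul]
    rfl
  have e3 : ∫ p : (ι → I01) × (ι → I01), f (mix S p.1 p.2) * f (mix S p.1 p.2)
      ∂((lamI ι).prod (lamI ι)) = ∫ x, f x * f x ∂(lamI ι) := by
    have hm3 : Measurable fun x => f x * f x := hf.mul hf
    conv_rhs => rw [← (mp_mix S).map_eq]
    rw [integral_map (measurable_mix S).aemeasurable hm3.aestronglyMeasurable]
  have expand : ∀ p : (ι → I01) × (ι → I01), (f p.1 - f (mix S p.1 p.2)) ^ 2
      = f p.1 * f p.1 - 2 * (f p.1 * f (mix S p.1 p.2))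
        + f (mix S p.1 p.2) * f (mix S p.1 p.2) := by
    intro p; ring
  simp only [expand]
  have i12 : Integrable (fun p : (ι → I01) × (ι → I01) =>
      f p.1 * f p.1 - 2 * (f p.1 * f (mix S p.1 p.2))) ((lamI ι).prod (lamI ι)) :=
    i1.sub (i2.const_mul 2)
  rw [integral_add i12 i3, integral_sub i1 (i2.const_mul 2), integral_const_mul, e1, e2, e3]
  linarith

end

end Vale.Agent.P161
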