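import Vale.Agent.P161.Exact
import Vale.Agent.P161.Efron

/-!
# Comparison of the samplers of two nested finite sets
-/

namespace Vale.Agent.P161

open MeasureTheory

/-- standing assumptions -/
structure Good {V : Type*} (μ : Measure (V → Bool)) (δ : ℝ) (K E : V → V → ℝ) (C : ℝ) :
    Prop where
  h0 : 0 ≤ δ
  h1 : δ ≤ 1 / 2
  hK : ∀ v w, 0 ≤ K v w
  hE : ∀ v w, 0 ≤ E v w
  hE1 : ∀ v, 1 ≤ E v v
  hC : 0 ≤ C
  hKE : ∀ (S : Finset V) (v u : V), ∑ w ∈ S, K v w * E w u ≤ C * E v u
  hinf : InfBound μ K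
  hδ : 16 * δ ^ 2 * C ≤ 1

variable {V : Type*} {μ : Measure (V → Bool)} [IsProbabilityMeasure μ] {δ : ℝ}
  {K E : V → V → ℝ} {C : ℝ}

lemma Ps_congr (hg : Good μ δ K E C) {κ : V × ℕ → ℝ} (hκ : ∀ k l, κ k < κ l → k.2 ≤ l.2)
    {A : Finset (V × ℕ)} {y y' : V × ℕ → I01} (h : ∀ k ∈ A, y k = y' k) {l : V × ℕ} (hl : l ∈ A) :
    Ps μ δ κ A y l = Ps μ δ κ A y' l := by
  have h2 := Ps_lip hg.h0 hg.h1 hg.hK hg.hE hg.hE1 hg.hC hg.hKE hg.hinf hg.hδ hκ A y y' l hl
  have h3 : ∑ k ∈ A, Lc E l k * |(y k : ℝ) - y' k| = 0 := by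
    apply Finset.sum_eq_zero
    intro k hk
    rw [h k hk]; simp
  rw [h3] at h2
  apply Subtype.ext
  have := abs_nonpos_iff.1 h2
  linarith

omit [IsProbabilityMeasure μ] in
lemma Th_congr {κ : V × ℕ → ℝ} {A : Finset (V × ℕ)} {x x' : V × ℕ → I01}
    (h : ∀ k ∈ A, x k = x' k) {l : V × ℕ} (hl : l ∈ A) :
    Th μ δ κ A x l = Th μ δ κ A x' l := by
  rw [Th_mem hl, Th_mem hl, h l hl, pm_congr μ δ l.1 fun k hk => h k (pre_subset κ A l hk)]

lemma prob_PA (h0 : 0 ≤ δ) (h1 : δ ≤ 1 / 2) {κ : V × ℕ → ℝ} (hκ : Function.Injective κ)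
    (A : Finset (V × ℕ)) : IsProbabilityMeasure (PA μ δ A) := by
  rw [← (mp_Ps (μ := μ) h0 h1 hκ A).map_eq]
  exact Measure.isProbabilityMeasure_map (measurable_Ps μ δ κ A).aemeasurable

lemma abs_sub_le_one (a b : I01) : |(a : ℝ) - b| ≤ 1 := by
  rw [abs_le]; constructor <;> linarith [a.2.1, a.2.2, b.2.1, b.2.2]

lemma sq_sub_le_one (a b : I01) : |((a : ℝ) - b) ^ 2| ≤ 1 := by
  rw [abs_pow]
  exact pow_le_one₀ (abs_nonneg _) (abs_sub_le_one a b)

/-- the comparison estimate -/
theorem compare (hg : Good μ δ K E C) {κ : V × ℕ → ℝ} (hinj : Function.Injective κ)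
    (hκ : ∀ k l, κ k < κ l → k.2 ≤ l.2) {A A' W : Finset (V × ℕ)} (hA : A ⊆ A') (hW : W ⊆ A)
    {l : V × ℕ} (hl : l ∈ A) [DecidableEq (V × ℕ)] :
    ∫ y, ((Ps μ δ κ A y l : ℝ) - Ps μ δ κ A' y l) ^ 2 ∂(lam V)
      ≤ 12 * ∑ k ∈ A \ W, Lc E l k ^ 2 + W.card * ∑ k ∈ W, Lc E l k ^ 2 *
          (ee μ δ k.1 (pre κ A' k) - ee μ δ k.1 (pre κ A k)) := by
  have h0 := hg.h0
  have h1 := hg.h1
  have hLnn := Lc_nonneg hg.hE l
  -- notation
  set f : (V × ℕ → I01) → ℝ := fun y => (Ps μ δ κ A y l : ℝ) with hf_def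
  have hfm : Measurable f := by
    have := (measurable_pi_apply (X := fun _ : V × ℕ => I01) l).comp (measurable_Ps μ δ κ A)
    exact measurable_subtype_coe.comp this
  have hfm' : Measurable fun y => (Ps μ δ κ A' y l : ℝ) := by
    have := (measurable_pi_apply (X := fun _ : V × ℕ => I01) l).comp (measurable_Ps μ δ κ A')
    exact measurable_subtype_coe.comp this
  have hfb : ∀ y, |f y| ≤ 1 := by
    intro y
    rw [abs_le]; constructor <;> simp only [hf_def]
    · linarith [(Ps μ δ κ A y l).2.1]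
    · exact (Ps μ δ κ A y l).2.2
  have hfcongr : ∀ y y', (∀ k ∈ A, y k = y' k) → f y = f y' := by
    intro y y' h
    simp only [hf_def, Ps_congr hg hκ h hl]
  have hflip := fun y y' =>
    Ps_lip hg.h0 hg.h1 hg.hK hg.hE hg.hE1 hg.hC hg.hKE hg.hinf hg.hδ hκ A y y' l hl
  have hmT' := measurable_Th μ δ κ A'
  have hmT := measurable_Th μ δ κ A
  have hmp' := mp_Th (μ := μ) h0 h1 hinj A'
  have hmp := mp_Th (μ := μ) h0 h1 hinj A
  have hprob := prob_PA (μ := μ) h0 h1 hinj A'
  have hprobA := prob_PA (μ := μ) h0 h1 hinj A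
  -- the averaged Efron-Stein functional
  set a : (V × ℕ → I01) × (V × ℕ → I01) → ℝ := fun p => (f p.1 - f (mix (W : Set (V × ℕ)) p.1 p.2)) ^ 2
    with ha_def
  have ham : Measurable a :=
    ((hfm.comp measurable_fst).sub (hfm.comp (measurable_mix _))).pow_const 2
  have hab : ∀ p, |a p| ≤ 1 := fun p => sq_sub_le_one _ _
  have ha0 : ∀ p, 0 ≤ a p := fun p => sq_nonneg _
  set abar : (V × ℕ → I01) → ℝ := fun y => ∫ z, a (y, z) ∂(lam V) with habar_def
  have habm : Measurable abar := by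
    have : StronglyMeasurable a := ham.stronglyMeasurable
    exact this.integral_prod_right'.measurable
  have hslice : ∀ y, Measurable fun z => a (y, z) := fun y => ham.comp (by fun_prop)
  have habb : ∀ y, |abar y| ≤ 1 := by
    intro y
    have h := norm_integral_le_of_norm_le_const (μ := lam V) (f := fun z => a (y, z)) (C := 1)
      (Filter.Eventually.of_forall fun _ => hab _)
    simpa using h
  have hef : ∫ y, abar y ∂(lam V) ≤ 2 * ∑ k ∈ A \ W, Lc E l k ^ 2 := by
    have h2 := efron hfm hfb A hfcongr (Lc E l) (by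
      intro k hk x t
      refine (hflip x (Function.update x k t)).trans ?_
      rw [Finset.sum_eq_single_of_mem k hk]
      · have := abs_sub_le_one (x k) (Function.update x k t k)
        nlinarith [hLnn k]
      · intro j _ hj
        rw [Function.update_of_ne hj]; simp) (W : Set (V × ℕ))
    have e : (A.filter fun k => k ∉ (W : Set (V × ℕ))) = A \ W := by
      ext k; simp
    rw [e] at h2
    have h3 : ∫ p : (V × ℕ → I01) × (V × ℕ → I01), a p ∂((lam V).prod (lam V))
        = ∫ y, abar y ∂(lam V) := by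
      rw [integral_prod _ (integrable_of_bdd ham hab)]
    rw [← h3]
    exact h2
  -- pointwise bound
  set M : (V × ℕ → I01) → ℝ := fun x => W.card * ∑ k ∈ W, Lc E l k ^ 2 *
      (pm μ δ (pre κ A' k) k.1 x - pm μ δ (pre κ A k) k.1 x) ^ 2 with hM_def
  have hpt : ∀ x, (f (Th μ δ κ A' x) - f (Th μ δ κ A x)) ^ 2
      ≤ 3 * (abar (Th μ δ κ A' x) + abar (Th μ δ κ A x)) + M x := by
    intro x
    set u := Th μ δ κ A' x with hu
    set w := Th μ δ κ A x with hw
    have hstep : ∀ z, (f u - f w) ^ 2 ≤ 3 * (a (u, z) + a (w, z)) + M x := by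
      intro z
      have hmid : |f (mix (W : Set (V × ℕ)) u z) - f (mix (W : Set (V × ℕ)) w z)|
          ≤ ∑ k ∈ W, Lc E l k * (|δ| / 4 *
            |pm μ δ (pre κ A' k) k.1 x - pm μ δ (pre κ A k) k.1 x|) := by
        refine (hflip _ _).trans ?_
        rw [← Finset.sum_sdiff hW]
        have z1 : ∑ k ∈ A \ W, Lc E l k * |((mix (W : Set (V × ℕ)) u z k : I01) : ℝ)
            - (mix (W : Set (V × ℕ)) w z k : I01)| = 0 := by
          apply Finset.sum_eq_zero
          intro k hk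
          have hkW : k ∉ (W : Set (V × ℕ)) := by simpa using (Finset.mem_sdiff.1 hk).2
          rw [mix_notMem hkW, mix_notMem hkW]; simp
        rw [z1, zero_add]
        apply Finset.sum_le_sum
        intro k hk
        apply mul_le_mul_of_nonneg_left _ (hLnn k)
        have hkW : k ∈ (W : Set (V × ℕ)) := by simpa using hk
        rw [mix_mem hkW, mix_mem hkW, hu, hw, Th_mem (hA (hW hk)), Th_mem (hW hk)]
        exact Fc_lip ((abs_dpm_le h0 h1 _ _ _).trans (by norm_num))
          ((abs_dpm_le h0 h1 _ _ _).trans (by norm_num)) _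
      have hmid2 : 3 * (f (mix (W : Set (V × ℕ)) u z) - f (mix (W : Set (V × ℕ)) w z)) ^ 2
          ≤ M x := by
        have hd : |δ| / 4 ≤ 1 / 8 := by rw [abs_of_nonneg h0]; linarith
        have h3 : |f (mix (W : Set (V × ℕ)) u z) - f (mix (W : Set (V × ℕ)) w z)|
          ≤ ∑ k ∈ W, Lc E l k * (1 / 8 *
            |pm μ δ (pre κ A' k) k.1 x - pm μ δ (pre κ A k) k.1 x|) := by
          refine hmid.trans (Finset.sum_le_sum fun k _ => ?_)
          apply mul_le_mul_of_nonneg_left _ (hLnn k)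
          exact mul_le_mul_of_nonneg_right hd (abs_nonneg _)
        have h4 : (f (mix (W : Set (V × ℕ)) u z) - f (mix (W : Set (V × ℕ)) w z)) ^ 2
            ≤ (∑ k ∈ W, Lc E l k * (1 / 8 *
            |pm μ δ (pre κ A' k) k.1 x - pm μ δ (pre κ A k) k.1 x|)) ^ 2 := by
          rw [← sq_abs]
          exact pow_le_pow_left₀ (abs_nonneg _) h3 2
        have h5 := sq_sum_le_card_mul_sum_sq (s := W) (f := fun k => Lc E l k * (1 / 8 *
            |pm μ δ (pre κ A' k) k.1 x - pm μ δ (pre κ A k) k.1 x|))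
        have h6 : ∀ k, (Lc E l k * (1 / 8 *
            |pm μ δ (pre κ A' k) k.1 x - pm μ δ (pre κ A k) k.1 x|)) ^ 2
            = 1 / 64 * (Lc E l k ^ 2 *
              (pm μ δ (pre κ A' k) k.1 x - pm μ δ (pre κ A k) k.1 x) ^ 2) := by
          intro k
          rw [mul_pow, mul_pow, sq_abs]; ring
        simp only [h6] at h5
        rw [← Finset.mul_sum] at h5
        have h7 : 0 ≤ ∑ k ∈ W, Lc E l k ^ 2 *
              (pm μ δ (pre κ A' k) k.1 x - pm μ δ (pre κ A k) k.1 x) ^ 2 :=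
          Finset.sum_nonneg fun k _ => by positivity
        have h8 : 0 ≤ (W.card : ℝ) * ∑ k ∈ W, Lc E l k ^ 2 *
              (pm μ δ (pre κ A' k) k.1 x - pm μ δ (pre κ A k) k.1 x) ^ 2 := by positivity
        simp only [hM_def]
        nlinarith
      have h9 : ∀ p q r s : ℝ, (p - s) ^ 2 ≤ 3 * ((p - q) ^ 2 + (s - r) ^ 2) + 3 * (q - r) ^ 2 := by
        intro p q r s
        nlinarith [sq_nonneg ((p - q) - (q - r)), sq_nonneg ((p - q) + (s - r)),
          sq_nonneg ((q - r) + (s - r))]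
      have h10 := h9 (f u) (f (mix (W : Set (V × ℕ)) u z)) (f (mix (W : Set (V × ℕ)) w z)) (f w)
      simp only [ha_def]
      linarith
    have i1 : Integrable (fun z => a (u, z)) (lam V) := integrable_of_bdd (hslice u) (fun z => hab _)
    have i2 : Integrable (fun z => a (w, z)) (lam V) := integrable_of_bdd (hslice w) (fun z => hab _)
    have i3 : Integrable (fun z => 3 * (a (u, z) + a (w, z)) + M x) (lam V) :=
      ((i1.add i2).const_mul 3).add (integrable_const _)
    have h11 := integral_mono (μ := lam V) (f := fun _ => (f u - f w) ^ 2) (integrable_const _) i3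
      hstep
    have h12 : ∫ z, (3 * (a (u, z) + a (w, z)) + M x) ∂(lam V)
        = 3 * (abar u + abar w) + M x := by
      have i4 : Integrable (fun z => 3 * (a (u, z) + a (w, z))) (lam V) := (i1.add i2).const_mul 3
      have hMc : ∫ _z : V × ℕ → I01, M x ∂(lam V) = M x := by simp
      rw [integral_add i4 (integrable_const _), integral_const_mul, integral_add i1 i2, hMc]
    rw [h12] at h11
    simpa using h11
  -- change of variables
  have hMm : Measurable M := by
    apply Measurable.const_mul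
    refine Finset.measurable_fun_sum _ fun k _ => ?_
    apply Measurable.const_mul
    exact ((measurable_pm μ δ (pre κ A' k) k.1).sub (measurable_pm μ δ (pre κ A k) k.1)).pow_const 2
  have hsq : ∀ (k : V × ℕ) (x : V × ℕ → I01),
      |(pm μ δ (pre κ A' k) k.1 x - pm μ δ (pre κ A k) k.1 x) ^ 2| ≤ 4 := by
    intro k x
    have a1 := abs_le.1 (abs_pm_le (μ := μ) h0 h1 (pre κ A k) k.1 x)
    have a2 := abs_le.1 (abs_pm_le (μ := μ) h0 h1 (pre κ A' k) k.1 x)
    rw [abs_of_nonneg (sq_nonneg _)]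
    nlinarith [a1.1, a1.2, a2.1, a2.2]
  have hsqm : ∀ k : V × ℕ, Measurable fun x =>
      (pm μ δ (pre κ A' k) k.1 x - pm μ δ (pre κ A k) k.1 x) ^ 2 := fun k =>
    ((measurable_pm μ δ (pre κ A' k) k.1).sub (measurable_pm μ δ (pre κ A k) k.1)).pow_const 2
  have iM : Integrable M (PA μ δ A') := by
    simp only [hM_def]
    apply Integrable.const_mul
    refine integrable_finsetSum _ fun k _ => ?_
    apply Integrable.const_mul
    exact integrable_of_bdd (hsqm k) (hsq k)
  have hMint : ∫ x, M x ∂(PA μ δ A') = W.card * ∑ k ∈ W, Lc E l k ^ 2 *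
          (ee μ δ k.1 (pre κ A' k) - ee μ δ k.1 (pre κ A k)) := by
    simp only [hM_def]
    rw [integral_const_mul, integral_finsetSum]
    · congr 1
      apply Finset.sum_congr rfl
      intro k _
      rw [integral_const_mul, integral_PA h0 h1]
      congr 1
      apply integral_pm_diff h0 h1 k.1 _ (pre_subset κ A' k)
      intro j hj
      rw [mem_pre] at *
      exact ⟨hA hj.1, hj.2⟩
    · intro k _
      apply Integrable.const_mul
      exact integrable_of_bdd (hsqm k) (hsq k)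
  have hT' : ∫ x, abar (Th μ δ κ A' x) ∂(PA μ δ A') = ∫ y, abar y ∂(lam V) := by
    conv_rhs => rw [← hmp'.map_eq]
    rw [integral_map hmT'.aemeasurable habm.aestronglyMeasurable]
  have hT : ∫ x, abar (Th μ δ κ A x) ∂(PA μ δ A') = ∫ y, abar y ∂(lam V) := by
    conv_rhs => rw [← hmp.map_eq]
    rw [integral_map hmT.aemeasurable habm.aestronglyMeasurable, integral_PA h0 h1,
      integral_PA h0 h1]
    apply integral_Z_subset h0 h1 hA (habm.comp hmT) (D := 1) (fun x => habb _)
    intro x x' hxx'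
    have hagree : ∀ k ∈ A, Th μ δ κ A x k = Th μ δ κ A x' k := fun k hk =>
      Th_congr (fun j hj => hxx' j (Or.inl hj)) hk
    simp only [habar_def, ha_def, Function.comp_apply]
    congr 1
    funext z
    rw [hfcongr _ _ hagree, hfcongr (mix (W : Set (V × ℕ)) (Th μ δ κ A x) z)
      (mix (W : Set (V × ℕ)) (Th μ δ κ A x') z)]
    intro k hk
    by_cases hkW : k ∈ (W : Set (V × ℕ))
    · rw [mix_mem hkW, mix_mem hkW, hagree k hk]
    · rw [mix_notMem hkW, mix_notMem hkW]
  have hLHS : ∫ y, ((Ps μ δ κ A y l : ℝ) - Ps μ δ κ A' y l) ^ 2 ∂(lam V)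
      = ∫ x, (f (Th μ δ κ A' x) - f (Th μ δ κ A x)) ^ 2 ∂(PA μ δ A') := by
    have hm : Measurable fun y => ((Ps μ δ κ A y l : ℝ) - Ps μ δ κ A' y l) ^ 2 :=
      (hfm.sub hfm').pow_const 2
    rw [← hmp'.map_eq, integral_map hmT'.aemeasurable hm.aestronglyMeasurable]
    congr 1
    funext x
    simp only [hf_def]
    rw [Ps_Th h0 h1 κ A' x, Ps_Th h0 h1 κ A x]
  rw [hLHS]
  have j1 : Integrable (fun x => abar (Th μ δ κ A' x)) (PA μ δ A') :=
    integrable_of_bdd (habm.comp hmT') (fun x => habb _)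
  have j2 : Integrable (fun x => abar (Th μ δ κ A x)) (PA μ δ A') :=
    integrable_of_bdd (habm.comp hmT) (fun x => habb _)
  have j3 : Integrable (fun x => 3 * (abar (Th μ δ κ A' x) + abar (Th μ δ κ A x)))
      (PA μ δ A') := (j1.add j2).const_mul 3
  have j4 : Integrable (fun x => 3 * (abar (Th μ δ κ A' x) + abar (Th μ δ κ A x)) + M x)
      (PA μ δ A') := j3.add iM
  have j5 : Integrable (fun x => (f (Th μ δ κ A' x) - f (Th μ δ κ A x)) ^ 2) (PA μ δ A') :=
    integrable_of_bdd (((hfm.comp hmT').sub (hfm.comp hmT)).pow_const 2)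
      (fun x => sq_sub_le_one _ _)
  have h13 := integral_mono j5 j4 hpt
  rw [integral_add j3 iM, integral_const_mul, integral_add j1 j2, hT', hT, hMint] at h13
  linarith

end Vale.Agent.P161
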