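import Vale.Agent.P161.Limit

/-!
# The limit of the samplers
-/

namespace Vale.Agent.P161

open MeasureTheory Filter Topology

variable {V : Type*} {μ : Measure (V → Bool)} [IsProbabilityMeasure μ] {δ : ℝ}
  {K E : V → V → ℝ} {C : ℝ}

lemma exists_seq [Countable V] (hg : Good μ δ K E C)
    (hE2 : ∀ v, Summable fun u => (E v u) ^ 2) :
    ∃ As : ℕ → Finset (V × ℕ), Monotone As ∧ (∀ k, ∃ n, k ∈ As n) ∧
      ∀ l, ∀ᶠ n in atTop,
        ∫ ω, ((XX μ δ (As n) ω l : ℝ) - XX μ δ (As (n + 1)) ω l) ^ 2 ∂(Pr V) ≤ (1 / 8) ^ n := by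
  classical
  have hc : ∀ (l : V × ℕ) (n : ℕ), ∃ A₀ : Finset (V × ℕ), ∀ A, A₀ ⊆ A → ∀ A', A₀ ⊆ A' →
      ∫ ω, ((XX μ δ A ω l : ℝ) - XX μ δ A' ω l) ^ 2 ∂(Pr V) ≤ (1 / 8) ^ n :=
    fun l n => cauchy_net hg hE2 l (by positivity)
  choose A₀ hA₀ using hc
  have := Encodable.ofCountable (V × ℕ)
  set B : ℕ → Finset (V × ℕ) := fun n =>
    (Finset.range n).preimage Encodable.encode (Encodable.encode_injective.injOn) with hB
  have hBmem : ∀ k n, k ∈ B n ↔ Encodable.encode k < n := by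
    intro k n; simp [hB]
  set As : ℕ → Finset (V × ℕ) := fun n =>
    (Finset.range (n + 1)).biUnion fun m => B m ∪ (B m).biUnion fun l => A₀ l m with hAs
  have hmono : Monotone As := by
    intro m n hmn
    apply Finset.biUnion_subset_biUnion_of_subset_left
    exact Finset.range_mono (by omega)
  refine ⟨As, hmono, fun k => ⟨Encodable.encode k + 1, ?_⟩, fun l => ?_⟩
  · rw [hAs, Finset.mem_biUnion]
    exact ⟨Encodable.encode k + 1, by simp, Finset.mem_union_left _ ((hBmem _ _).2 (by omega))⟩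
  · filter_upwards [eventually_gt_atTop (Encodable.encode l)] with n hn
    have hsub : A₀ l n ⊆ As n := by
      intro k hk
      rw [hAs, Finset.mem_biUnion]
      refine ⟨n, by simp, Finset.mem_union_right _ ?_⟩
      exact Finset.mem_biUnion.2 ⟨l, (hBmem _ _).2 hn, hk⟩
    exact hA₀ l n _ hsub _ (hsub.trans (hmono (by omega)))

lemma ae_summable_of_integral {α : Type*} {mα : MeasurableSpace α} {P : Measure α}
    [IsProbabilityMeasure P] {F : ℕ → α → ℝ} (hF : ∀ n, Integrable (F n) P)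
    (h0 : ∀ n a, 0 ≤ F n a) (hs : Summable fun n => ∫ a, F n a ∂P) :
    ∀ᵐ a ∂P, Summable fun n => F n a := by
  have h1 : ∫⁻ a, ∑' n, ENNReal.ofReal (F n a) ∂P ≠ ⊤ := by
    rw [lintegral_tsum fun n => (hF n).aemeasurable.ennreal_ofReal]
    have : ∀ n, ∫⁻ a, ENNReal.ofReal (F n a) ∂P = ENNReal.ofReal (∫ a, F n a ∂P) := fun n =>
      (ofReal_integral_eq_lintegral_ofReal (hF n) (Filter.Eventually.of_forall (h0 n))).symm
    simp only [this]
    rw [← ENNReal.ofReal_tsum_of_nonneg (fun n => integral_nonneg (h0 n)) hs]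
    exact ENNReal.ofReal_ne_top
  have hm : AEMeasurable (fun a => ∑' n, ENNReal.ofReal (F n a)) P :=
    AEMeasurable.tsum fun n => (hF n).aemeasurable.ennreal_ofReal
  filter_upwards [ae_lt_top' hm h1] with a ha
  have := ENNReal.summable_toReal ha.ne
  refine this.congr fun n => ?_
  rw [ENNReal.toReal_ofReal (h0 n a)]

lemma ae_tendsto_seq (μ : Measure (V → Bool)) [IsProbabilityMeasure μ] (δ : ℝ)
    {As : ℕ → Finset (V × ℕ)} {l : V × ℕ}
    (h : ∀ᶠ n in atTop,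
        ∫ ω, ((XX μ δ (As n) ω l : ℝ) - XX μ δ (As (n + 1)) ω l) ^ 2 ∂(Pr V) ≤ (1 / 8) ^ n) :
    ∀ᵐ ω ∂(Pr V), ∃ x : I01, Tendsto (fun n => XX μ δ (As n) ω l) atTop (𝓝 x) := by
  have hs : Summable fun n : ℕ =>
      ∫ ω, 2 ^ n * ((XX μ δ (As n) ω l : ℝ) - XX μ δ (As (n + 1)) ω l) ^ 2 ∂(Pr V) := by
    have hgeo : Summable fun n : ℕ => (1 / 4 : ℝ) ^ n :=
      summable_geometric_of_lt_one (by norm_num) (by norm_num)
    refine Summable.of_norm_bounded_eventually_nat hgeo ?_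
    filter_upwards [h] with n hn
    rw [integral_const_mul, Real.norm_of_nonneg
      (mul_nonneg (by positivity) (integral_nonneg fun _ => sq_nonneg _))]
    calc (2 : ℝ) ^ n * ∫ ω, ((XX μ δ (As n) ω l : ℝ) - XX μ δ (As (n + 1)) ω l) ^ 2 ∂(Pr V)
        ≤ 2 ^ n * (1 / 8) ^ n := mul_le_mul_of_nonneg_left hn (by positivity)
      _ = (1 / 4) ^ n := by rw [← mul_pow]; norm_num
  have h2 := ae_summable_of_integral (P := Pr V)
    (F := fun n ω => 2 ^ n * ((XX μ δ (As n) ω l : ℝ) - XX μ δ (As (n + 1)) ω l) ^ 2)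
    (fun n => (integrable_sq_XX μ δ (As n) (As (n + 1)) l).const_mul _)
    (fun n ω => by positivity) hs
  filter_upwards [h2] with ω hω
  have h3 : Summable fun n => dist (XX μ δ (As n) ω l) (XX μ δ (As n.succ) ω l) := by
    have hgeo : Summable fun n : ℕ => (1 / 2 : ℝ) ^ n :=
      summable_geometric_of_lt_one (by norm_num) (by norm_num)
    refine Summable.of_nonneg_of_le (fun _ => dist_nonneg) (fun n => ?_) (hgeo.add hω)
    rw [Subtype.dist_eq, Real.dist_eq]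
    set x := |(XX μ δ (As n) ω l : ℝ) - XX μ δ (As n.succ) ω l| with hx
    have hx2 : ((XX μ δ (As n) ω l : ℝ) - XX μ δ (As (n + 1)) ω l) ^ 2 = x ^ 2 := by
      rw [hx, sq_abs]
    rw [hx2]
    have hp : (0 : ℝ) < 2 ^ n := by positivity
    have hpq : (1 / 2 : ℝ) ^ n * 2 ^ n = 1 := by rw [← mul_pow]; norm_num
    have hq : (0 : ℝ) < (1 / 2) ^ n := by positivity
    have hx0 : 0 ≤ x := abs_nonneg _
    -- `x ≤ 2^{-n} + 2^n x^2`
    by_contra hcon
    push Not at hcon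
    have h5 : ((1 / 2 : ℝ) ^ n + 2 ^ n * x ^ 2) * 2 ^ n < x * 2 ^ n :=
      mul_lt_mul_of_pos_right hcon hp
    have h6 : ((1 / 2 : ℝ) ^ n + 2 ^ n * x ^ 2) * 2 ^ n = 1 + (x * 2 ^ n) ^ 2 := by
      rw [add_mul, hpq]; ring
    nlinarith [sq_nonneg (x * 2 ^ n - 1)]
  exact cauchySeq_tendsto_of_complete (cauchySeq_of_summable_dist h3)

theorem exists_limit [Countable V] (hg : Good μ δ K E C)
    (hE2 : ∀ v, Summable fun u => (E v u) ^ 2) :
    ∃ Xi : (V → I01) × (V × ℕ → I01) → (V × ℕ → I01), Measurable Xi ∧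
      (∃ As : ℕ → Finset (V × ℕ), Monotone As ∧ (∀ k, ∃ n, k ∈ As n) ∧
        ∀ᵐ ω ∂(Pr V), ∀ l, Tendsto (fun n => XX μ δ (As n) ω l) atTop (𝓝 (Xi ω l))) ∧
      ∀ l, ∀ ε > 0, ∃ A₀ : Finset (V × ℕ), ∀ A, A₀ ⊆ A →
        ∫ ω, ((XX μ δ A ω l : ℝ) - Xi ω l) ^ 2 ∂(Pr V) ≤ ε := by
  obtain ⟨As, hmono, hex, hAs⟩ := exists_seq hg hE2
  have hlim : ∀ l : V × ℕ, ∃ f : (V → I01) × (V × ℕ → I01) → I01, Measurable f ∧
      ∀ᵐ ω ∂(Pr V), Tendsto (fun n => XX μ δ (As n) ω l) atTop (𝓝 (f ω)) := by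
    intro l
    exact measurable_limit_of_tendsto_metrizable_ae
      (fun n => ((measurable_pi_apply l).comp (measurable_XX μ δ (As n))).aemeasurable)
      (ae_tendsto_seq μ δ (hAs l))
  choose f hfm hft using hlim
  refine ⟨fun ω l => f l ω, measurable_pi_iff.2 fun l => hfm l,
    ⟨As, hmono, hex, ae_all_iff.2 fun l => hft l⟩, fun l ε hε => ?_⟩
  obtain ⟨A₀, hA₀⟩ := cauchy_net (μ := μ) hg hE2 l hε
  refine ⟨A₀, fun A hA => ?_⟩
  have hAs0 : ∀ᶠ n in atTop, A₀ ⊆ As n := by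
    choose N hN using hex
    refine (eventually_ge_atTop (A₀.sup N)).mono fun n hn k hk => ?_
    exact hmono ((Finset.le_sup (f := N) hk).trans hn) (hN k)
  have hT : Tendsto (fun n => ∫ ω, ((XX μ δ A ω l : ℝ) - XX μ δ (As n) ω l) ^ 2 ∂(Pr V)) atTop
      (𝓝 (∫ ω, ((XX μ δ A ω l : ℝ) - f l ω) ^ 2 ∂(Pr V))) := by
    apply tendsto_integral_of_dominated_convergence (fun _ => (1 : ℝ))
    · intro n
      exact (((measurable_XXr μ δ A l).sub (measurable_XXr μ δ (As n) l)).pow_const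
        2).aestronglyMeasurable
    · exact integrable_const _
    · intro n
      exact Filter.Eventually.of_forall fun ω => sq_sub_le_one _ _
    · filter_upwards [hft l] with ω hω
      have h1 : Tendsto (fun n => (XX μ δ (As n) ω l : ℝ)) atTop (𝓝 (f l ω : ℝ)) :=
        (continuous_subtype_val.tendsto _).comp hω
      exact (tendsto_const_nhds.sub h1).pow 2
  exact le_of_tendsto hT (hAs0.mono fun n hn => hA₀ A hA _ hn)

end Vale.Agent.P161
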