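import Vale.Agent.P161.Labels

/-!
# Core theorem: summable influences imply factor of IID
-/

namespace Vale.Agent.P161

open MeasureTheory Filter Topology

universe u

lemma Dec_congr {V : Type*} {x x' : V × ℕ → I01} {v v' : V} (h : ∀ i, x (v, i) = x' (v', i)) :
    Dec x v = Dec x' v' := by
  unfold Dec avg
  simp only [h]

theorem core {V : Type u} [Countable V] (μ : Measure (V → Bool)) [IsProbabilityMeasure μ]
    (K E : V → V → ℝ) (C : ℝ) (hK : ∀ v w, 0 ≤ K v w) (hE : ∀ v w, 0 < E v w)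
    (hE1 : ∀ v, 1 ≤ E v v)
    (hKE : ∀ (S : Finset V) (v u : V), ∑ w ∈ S, K v w * E w u ≤ C * E v u)
    (hE2 : ∀ v, Summable fun u => (E v u) ^ 2) (hinf : InfBound μ K) :
    ∃ Φ : (V → unitInterval) → (V → Bool), Measurable Φ ∧ (iidLaw V).map Φ = μ ∧
      ∀ g : V ≃ V, μ.map (fun σ v => σ (g.symm v)) = μ →
        ∀ᵐ U ∂(iidLaw V), Φ (fun v => U (g.symm v)) = fun v => Φ U (g.symm v) := by
  set C' := max C 0 with hC'
  have hC0 : 0 ≤ C' := le_max_right _ _
  set δ : ℝ := 1 / (4 * (C' + 1)) with hδdef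
  have hδ0 : 0 < δ := by positivity
  have hδ1 : δ ≤ 1 / 2 := by
    rw [hδdef, div_le_div_iff₀ (by positivity) (by norm_num)]
    linarith
  have hδ2 : 16 * δ ^ 2 * C' ≤ 1 := by
    have h1 : 16 * δ ^ 2 * C' = C' / (C' + 1) ^ 2 := by
      rw [hδdef]; field_simp; norm_num
    rw [h1, div_le_one (by positivity)]
    nlinarith
  have hg : Good μ δ K E C' := by
    refine ⟨hδ0.le, hδ1, hK, fun v w => (hE v w).le, hE1, hC0, fun S v u => ?_, hinf, hδ2⟩
    exact (hKE S v u).trans (mul_le_mul_of_nonneg_right (le_max_left _ _) (hE v u).le)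
  obtain ⟨Xi, hXi, ⟨As, hmono, hex, hlim⟩, hconv⟩ := exists_limit hg hE2
  have hlaw := law_limit (μ := μ) hδ0.le hδ1 hXi hmono hex hlim
  obtain ⟨Ω, hΩ, hΩlaw, hΩg⟩ := exists_labels V
  refine ⟨fun u => Dec (Xi (Ω u)), measurable_Dec.comp (hXi.comp hΩ), ?_, ?_⟩
  · have e : (fun u => Dec (Xi (Ω u))) = Dec ∘ (Xi ∘ Ω) := rfl
    rw [e, ← Measure.map_map measurable_Dec (hXi.comp hΩ), ← Measure.map_map hXi hΩ, hΩlaw,
      hlaw, map_Dec_RR μ hδ0 hδ1]
  · intro g hgμ
    have h1 := Xi_equi (δ := δ) (μ := μ) (g := g) hgμ hXi hconv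
    rw [← hΩlaw] at h1
    have h2 := ae_of_ae_map hΩ.aemeasurable h1
    filter_upwards [h2] with U hU
    have e1 : (fun v => U (g.symm v)) = gU g U := rfl
    rw [e1, hΩg]
    funext v
    apply Dec_congr
    intro i
    have := hU (g.symm v, i)
    rw [gk_apply] at this
    simpa using this

end Vale.Agent.P161
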