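import Vale.Agent.P161.Defs

/-!
# Core definitions for P161: weak observations of the spins, posterior means, samplers.

Everything here is for an arbitrary probability measure `μ` on `V → Bool`.
-/

namespace Vale.Agent.P161

open MeasureTheory

/-- abbreviation for the unit interval -/
abbrev I01 := unitInterval

/-- product tilt -/
noncomputable def tilt {V : Type*} (S : Finset V) (g : V → Bool → ℝ) (σ : V → Bool) : ℝ :=
  ∏ u ∈ S, g u (σ u)

/-- indicator of `σ w = b` -/
noncomputable def ind (b b' : Bool) : ℝ := if b' = b then 1 else 0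

/-- The influence of the spin at `w` on the spin at `v` is at most `K v w`, for all tilts of `μ` by
finitely many positive single-site factors (cross-multiplied form of
`|E_g[σ_v | σ_w = +] - E_g[σ_v | σ_w = -]| ≤ 2 K v w`). -/
def InfBound {V : Type*} (μ : Measure (V → Bool)) (K : V → V → ℝ) : Prop :=
  ∀ (S : Finset V) (g : V → Bool → ℝ), (∀ v b, 0 < g v b) → ∀ v w : V,
    |(∫ σ, sp (σ v) * tilt S g σ * ind true (σ w) ∂μ) * (∫ σ, tilt S g σ * ind false (σ w) ∂μ)
      - (∫ σ, sp (σ v) * tilt S g σ * ind false (σ w) ∂μ) * (∫ σ, tilt S g σ * ind true (σ w) ∂μ)|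
    ≤ 2 * K v w * ((∫ σ, tilt S g σ * ind true (σ w) ∂μ) * (∫ σ, tilt S g σ * ind false (σ w) ∂μ))

/-- density factor of an observation `x` of a spin `b` -/
noncomputable def fac (δ : ℝ) (b : Bool) (x : I01) : ℝ := 1 + δ * sp b * (2 * (x : ℝ) - 1)

/-- likelihood of the observations `x` on the finite index set `A ⊆ V × ℕ`, given the spins -/
noncomputable def W {V : Type*} (δ : ℝ) (A : Finset (V × ℕ)) (σ : V → Bool) (x : V × ℕ → I01) : ℝ :=
  ∏ k ∈ A, fac δ (σ k.1) (x k)

/-- marginal density of the observations on `A` -/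
noncomputable def Z {V : Type*} (μ : Measure (V → Bool)) (δ : ℝ) (A : Finset (V × ℕ))
    (x : V × ℕ → I01) : ℝ := ∫ σ, W δ A σ x ∂μ

/-- unnormalised posterior mean of the spin at `v` -/
noncomputable def Nn {V : Type*} (μ : Measure (V → Bool)) (δ : ℝ) (A : Finset (V × ℕ)) (v : V)
    (x : V × ℕ → I01) : ℝ := ∫ σ, sp (σ v) * W δ A σ x ∂μ

/-- posterior mean of the spin at `v` given the observations on `A` -/
noncomputable def pm {V : Type*} (μ : Measure (V → Bool)) (δ : ℝ) (A : Finset (V × ℕ)) (v : V)
    (x : V × ℕ → I01) : ℝ := Nn μ δ A v x / Z μ δ A x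

open Classical in
/-- indices of `A` that come before `l` in the order given by `κ` -/
noncomputable def pre {V : Type*} (κ : V × ℕ → ℝ) (A : Finset (V × ℕ)) (l : V × ℕ) :
    Finset (V × ℕ) := A.filter fun k => κ k < κ l

/-- distribution function of an observation when the spin has mean `m` -/
noncomputable def Fc (δ m : ℝ) (x : I01) : I01 :=
  Set.projIcc 0 1 zero_le_one ((x : ℝ) + δ * m * ((x : ℝ) ^ 2 - x))

/-- its inverse -/
noncomputable def Qc (δ m : ℝ) (y : I01) : I01 :=
  Set.projIcc 0 1 zero_le_one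
    (2 * (y : ℝ) / ((1 - δ * m) + √((1 - δ * m) ^ 2 + 4 * δ * m * y)))

open Classical in
/-- from observations to noise -/
noncomputable def Th {V : Type*} (μ : Measure (V → Bool)) (δ : ℝ) (κ : V × ℕ → ℝ)
    (A : Finset (V × ℕ)) (x : V × ℕ → I01) : V × ℕ → I01 := fun l =>
  if l ∈ A then Fc δ (pm μ δ (pre κ A l) l.1 x) (x l) else x l

open Classical in
/-- one step of the sampler -/
noncomputable def Tn {V : Type*} (μ : Measure (V → Bool)) (δ : ℝ) (κ : V × ℕ → ℝ)
    (A : Finset (V × ℕ)) (y x : V × ℕ → I01) : V × ℕ → I01 := fun l =>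
  if l ∈ A then Qc δ (pm μ δ (pre κ A l) l.1 x) (y l) else y l

/-- the sampler: from noise `y` to observations -/
noncomputable def Ps {V : Type*} (μ : Measure (V → Bool)) (δ : ℝ) (κ : V × ℕ → ℝ)
    (A : Finset (V × ℕ)) (y : V × ℕ → I01) : V × ℕ → I01 :=
  (Tn μ δ κ A y)^[A.card] y

/-- the key (time) of an index, from the labels `U` -/
noncomputable def ky {V : Type*} (U : V → I01) (k : V × ℕ) : ℝ := k.2 + (U k.1 : ℝ)

/-- the law of iid uniform variables on `V × ℕ` -/
noncomputable def lam (V : Type*) : Measure (V × ℕ → I01) :=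
  Measure.infinitePi fun _ : V × ℕ => (volume : Measure I01)

/-- the law of the observations on `A` (all the other coordinates are iid uniform) -/
noncomputable def PA {V : Type*} (μ : Measure (V → Bool)) (δ : ℝ) (A : Finset (V × ℕ)) :
    Measure (V × ℕ → I01) := (lam V).withDensity fun x => ENNReal.ofReal (Z μ δ A x)

end Vale.Agent.P161
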