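import Vale.Agent.P161.Law

/-!
# The spins are a function of the observations
-/

namespace Vale.Agent.P161

open MeasureTheory Filter Topology ProbabilityTheory

variable {V : Type*} {δ : ℝ}

/-- average of the first observations at `v` -/
noncomputable def avg (x : V × ℕ → I01) (v : V) (n : ℕ) : ℝ :=
  (∑ i ∈ Finset.range n, (2 * (x (v, i) : ℝ) - 1)) / n

open Classical in
/-- read off the spin at `v` from the observations at `v` -/
noncomputable def Dec (x : V × ℕ → I01) (v : V) : Bool :=
  decide (0 < limsup (fun n => avg x v n) atTop)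

lemma measurable_Dec : Measurable (Dec (V := V)) := by
  rw [measurable_pi_iff]
  intro v
  unfold Dec
  have hm : Measurable fun x : V × ℕ → I01 => limsup (fun n => avg x v n) atTop := by
    apply Measurable.limsup
    intro n
    unfold avg
    apply Measurable.div_const
    refine Finset.measurable_fun_sum _ fun i _ => ?_
    fun_prop
  have hs : MeasurableSet {x : V × ℕ → I01 | 0 < limsup (fun n => avg x v n) atTop} :=
    measurableSet_lt measurable_const hm
  exact measurable_to_bool (by
    have : (fun x : V × ℕ → I01 => decide (0 < limsup (fun n => avg x v n) atTop)) ⁻¹' {true}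
        = {x : V × ℕ → I01 | 0 < limsup (fun n => avg x v n) atTop} := by
      ext x; simp
    rw [this]
    exact hs)

lemma integral_Qc {m : ℝ} (ha : |δ * m| ≤ 1 / 2) (ψ : I01 → ℝ) (hψ : Measurable ψ) :
    ∫ t : I01, ψ (Qc δ m t) = ∫ s : I01, (1 + δ * m * (2 * (s : ℝ) - 1)) * ψ s := by
  have hF : Measurable (Fc δ m) := (measurable_Fc δ).comp (measurable_const.prodMk measurable_id)
  have hQ : Measurable (Qc δ m) := (measurable_Qc δ).comp (measurable_const.prodMk measurable_id)
  have hd : Measurable fun t : I01 => ENNReal.ofReal (1 + δ * m * (2 * (t : ℝ) - 1)) := by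
    fun_prop
  have hψQ : Measurable fun t => ψ (Qc δ m t) := hψ.comp hQ
  conv_lhs => rw [← map_Fc ha]
  rw [integral_map hF.aemeasurable hψQ.aestronglyMeasurable,
    integral_withDensity_eq_integral_toReal_smul hd
    (Filter.Eventually.of_forall fun x => ENNReal.ofReal_lt_top)]
  congr 1
  funext t
  rw [Qc_Fc ha, ENNReal.toReal_ofReal (dens_nonneg ha t.2.1 t.2.2), smul_eq_mul]

lemma integral_I01 (F F' : ℝ → ℝ) (hF : ∀ t, HasDerivAt F (F' t) t) (hc : Continuous F') :
    ∫ t : I01, F' (t : ℝ) = F 1 - F 0 := by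
  have h := unitInterval.measurePreserving_coe.integral_comp
    unitInterval.measurableEmbedding_coe F'
  rw [h, show unitInterval = Set.Icc (0:ℝ) 1 from rfl, integral_Icc_eq_integral_Ioc,
    ← intervalIntegral.integral_of_le zero_le_one]
  rw [intervalIntegral.integral_eq_sub_of_hasDerivAt (fun t _ => hF t)]
  exact hc.intervalIntegrable _ _

lemma mean_obs {m : ℝ} (ha : |δ * m| ≤ 1 / 2) :
    ∫ t : I01, (2 * ((Qc δ m t : I01) : ℝ) - 1) = δ * m / 3 := by
  rw [integral_Qc ha (fun t => 2 * (t : ℝ) - 1) (by fun_prop)]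
  have := integral_I01 (fun t => -t + t ^ 2 + δ * m * ((2 * t - 1) ^ 3 / 6))
    (fun t => (1 + δ * m * (2 * t - 1)) * (2 * t - 1)) (by
      intro t
      have h1 := (((hasDerivAt_id t).neg).add (hasDerivAt_pow 2 t)).add
        (((((hasDerivAt_id t).const_mul 2).sub_const 1).pow 3).div_const 6 |>.const_mul (δ * m))
      refine h1.congr_deriv ?_
      simp only [id]
      ring) (by fun_prop)
  rw [this]
  ring

/-- the spins can be read off almost surely -/
lemma ae_avg (h0 : 0 ≤ δ) (h1 : δ ≤ 1 / 2) (σ : V → Bool) (v : V) :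
    ∀ᵐ y ∂(lam V), Tendsto (fun n => avg (RR δ (σ, y)) v n) atTop (𝓝 (δ * sp (σ v) / 3)) := by
  have ha : |δ * sp (σ v)| ≤ 1 / 2 := by rw [abs_mul, abs_sp, abs_of_nonneg h0]; linarith
  set g : I01 → ℝ := fun t => 2 * ((Qc δ (sp (σ v)) t : I01) : ℝ) - 1 with hg
  have hgm : Measurable g := by
    have hQ : Measurable (Qc δ (sp (σ v))) :=
      (measurable_Qc δ).comp (measurable_const.prodMk measurable_id)
    have : Measurable fun t => ((Qc δ (sp (σ v)) t : I01) : ℝ) := measurable_subtype_coe.comp hQ
    exact (this.const_mul 2).sub_const 1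
  have hgb : ∀ t, |g t| ≤ 1 := by
    intro t
    have := (Qc δ (sp (σ v)) t).2
    rw [abs_le]
    constructor <;> simp only [hg] <;> linarith [this.1, this.2]
  have hpres : ∀ i : ℕ, MeasurePreserving (fun y : V × ℕ → I01 => y (v, i)) (lam V) volume :=
    fun i => measurePreserving_eval_infinitePi (fun _ : V × ℕ => (volume : Measure I01)) (v, i)
  have hint : Integrable (fun y : V × ℕ → I01 => g (y (v, 0))) (lam V) :=
    integrable_of_bdd (hgm.comp (measurable_pi_apply _)) fun _ => hgb _
  have hind : iIndepFun (fun (k : V × ℕ) (y : V × ℕ → I01) => g (y k)) (lam V) :=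
    iIndepFun_infinitePi (P := fun _ : V × ℕ => (volume : Measure I01)) (X := fun _ t => g t)
      fun _ => hgm
  have h := strong_law_ae_real (μ := lam V) (fun (i : ℕ) (y : V × ℕ → I01) => g (y (v, i))) hint
    (by
      intro i j hij
      have : ((v, i) : V × ℕ) ≠ (v, j) := by
        intro h; exact hij (Prod.ext_iff.1 h).2
      exact hind.indepFun this)
    (by
      intro i
      have hmi : ∀ i : ℕ, Measurable fun y : V × ℕ → I01 => g (y (v, i)) := fun i =>
        hgm.comp (measurable_pi_apply _)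
      refine ⟨(hmi i).aemeasurable, (hmi 0).aemeasurable, ?_⟩
      have e : ∀ i : ℕ, (lam V).map (fun y : V × ℕ → I01 => g (y (v, i))) = volume.map g := by
        intro i
        rw [← (hpres i).map_eq, Measure.map_map hgm (hpres i).measurable]
        rfl
      rw [e i, e 0])
  have hmean : ∫ y, g (y (v, 0)) ∂(lam V) = δ * sp (σ v) / 3 := by
    rw [← mean_obs ha, ← (hpres 0).map_eq, integral_map (hpres 0).measurable.aemeasurable
      hgm.aestronglyMeasurable]
  filter_upwards [h] with y hy
  have hy' : Tendsto (fun n : ℕ => (∑ i ∈ Finset.range n, g (y (v, i))) / n) atTop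
      (𝓝 (∫ y, g (y (v, 0)) ∂(lam V))) := hy
  rw [hmean] at hy'
  exact hy'

lemma Dec_of_tendsto (h0 : 0 < δ) {b : Bool} {x : V × ℕ → I01} {v : V}
    (h : Tendsto (fun n => avg x v n) atTop (𝓝 (δ * sp b / 3))) : Dec x v = b := by
  unfold Dec
  rw [h.limsup_eq]
  cases b
  · rw [decide_eq_false_iff_not]
    simp only [sp, Bool.false_eq_true, if_false]
    linarith
  · rw [decide_eq_true_iff]
    simp only [sp, if_true]
    linarith

lemma ae_Dec [Countable V] (μ : Measure (V → Bool)) [IsProbabilityMeasure μ] (h0 : 0 < δ)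
    (h1 : δ ≤ 1 / 2) : ∀ᵐ ω ∂(μ.prod (lam V)), Dec (RR δ ω) = ω.1 := by
  have hm : Measurable fun ω : (V → Bool) × (V × ℕ → I01) => Dec (RR δ ω) :=
    measurable_Dec.comp (measurable_RR δ)
  have hms : MeasurableSet {ω : (V → Bool) × (V × ℕ → I01) | Dec (RR δ ω) = ω.1} := by
    have : {ω : (V → Bool) × (V × ℕ → I01) | Dec (RR δ ω) = ω.1}
        = ⋂ v, {ω | Dec (RR δ ω) v = ω.1 v} := by
      ext ω; simp [funext_iff]
    rw [this]
    refine MeasurableSet.iInter fun v => ?_
    apply measurableSet_eq_fun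
    · exact (measurable_pi_apply v).comp hm
    · exact (measurable_pi_apply v).comp measurable_fst
  rw [Measure.ae_prod_iff_ae_ae hms]
  refine Filter.Eventually.of_forall fun σ => ?_
  have := ae_all_iff.2 fun v => ae_avg (V := V) h0.le h1 σ v
  filter_upwards [this] with y hy
  funext v
  exact Dec_of_tendsto h0 (hy v)

theorem map_Dec_RR [Countable V] (μ : Measure (V → Bool)) [IsProbabilityMeasure μ] (h0 : 0 < δ)
    (h1 : δ ≤ 1 / 2) : ((μ.prod (lam V)).map (RR δ)).map Dec = μ := by
  rw [Measure.map_map measurable_Dec (measurable_RR δ)]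
  have : Dec ∘ RR δ =ᵐ[μ.prod (lam V)] Prod.fst := ae_Dec μ h0 h1
  rw [Measure.map_congr this]
  exact measurePreserving_fst.map_eq

end Vale.Agent.P161
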