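import Mathlib

/-!
# The free Ising measure on a graph and factors of IID: definitions
-/

namespace Vale.Agent.P161

open MeasureTheory

/-- The real value `1` or `-1` of a spin. -/
def sp (b : Bool) : ℝ := if b then 1 else -1

/-- The factor `(1 + θ η_u η_v) / 2` of an (unordered) edge `uv` in the configuration `η`. -/
noncomputable def edgeWt {V : Type*} (θ : ℝ) (η : V → Bool) : Sym2 V → ℝ :=
  Sym2.lift ⟨fun u v => (1 + θ * sp (η u) * sp (η v)) / 2, by intro u v; ring⟩

open Classical in
/-- `μ` is the free zero-field Ising measure with `tanh β = θ` on the tree `G`: for every finite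
connected set `D` of vertices and all spins `η`, the probability that the configuration equals `η`
on `D` is `1/2` times the product of `(1 + θ η_u η_v)/2` over the edges `uv` of `G` inside `D`. -/
def IsFreeIsing {V : Type*} (G : SimpleGraph V) (θ : ℝ) (μ : Measure (V → Bool)) : Prop :=
  ∀ D : Finset V, (G.induce (D : Set V)).Connected → ∀ η : V → Bool,
    μ {σ | ∀ v ∈ D, σ v = η v}
      = ENNReal.ofReal (1 / 2 * ∏ e ∈ D.sym2 with e ∈ G.edgeSet, edgeWt θ η e)

/-- The law of independent uniform `[0,1]` labels at the vertices. -/
noncomputable def iidLaw (V : Type*) : Measure (V → unitInterval) :=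
  Measure.infinitePi fun _ : V => (volume : Measure unitInterval)

/-- `ν` is a factor of IID on `G`: it is the law of `Φ(U)` for independent uniform `[0,1]` labels
`U` and a measurable map `Φ` with `Φ(gU) = gΦ(U)` almost surely for every automorphism `g` of `G`,
where `(g x)_v = x_{g⁻¹ v}`. -/
def IsFactorOfIID {V : Type*} (G : SimpleGraph V) (ν : Measure (V → Bool)) : Prop :=
  ∃ Φ : (V → unitInterval) → (V → Bool), Measurable Φ ∧ (iidLaw V).map Φ = ν ∧
    ∀ g : G ≃g G, ∀ᵐ U ∂(iidLaw V),
      Φ (fun v => U (g.symm v)) = fun v => Φ U (g.symm v)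

end Vale.Agent.P161
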