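import Vale.Agent.P161.Decode

/-!
# Equivariance
-/

namespace Vale.Agent.P161

open MeasureTheory Filter Topology

variable {V : Type*} {δ : ℝ}

/-- action of a permutation of `V` on `V × ℕ` -/
def gk (g : V ≃ V) : V × ℕ ≃ V × ℕ := g.prodCongr (Equiv.refl ℕ)

lemma gk_apply (g : V ≃ V) (k : V × ℕ) : gk g k = (g k.1, k.2) := rfl

lemma gk_symm_apply (g : V ≃ V) (k : V × ℕ) : (gk g).symm k = (g.symm k.1, k.2) := rfl

/-- action on families indexed by `V × ℕ` -/
def gx (g : V ≃ V) (x : V × ℕ → I01) : V × ℕ → I01 := fun k => x ((gk g).symm k)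

/-- action on families indexed by `V` -/
def gU {β : Type*} (g : V ≃ V) (U : V → β) : V → β := fun v => U (g.symm v)

lemma gx_gk (g : V ≃ V) (x : V × ℕ → I01) (k : V × ℕ) : gx g x (gk g k) = x k := by
  unfold gx; simp

section

variable {μ : Measure (V → Bool)} {g : V ≃ V}

lemma W_equi (A : Finset (V × ℕ)) (σ : V → Bool) (x : V × ℕ → I01) :
    W δ (A.map (gk g).toEmbedding) σ (gx g x) = W δ A (fun v => σ (g v)) x := by
  unfold W
  rw [Finset.prod_map]
  apply Finset.prod_congr rfl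
  intro k _
  simp only [Equiv.toEmbedding_apply, gx_gk]
  rfl

lemma measurable_gU {β : Type*} [MeasurableSpace β] (g : V ≃ V) :
    Measurable (gU (β := β) g) := by
  unfold gU
  fun_prop

lemma integral_gU (hμ : μ.map (gU g) = μ) (F : (V → Bool) → ℝ) (hF : Measurable F) :
    ∫ σ, F σ ∂μ = ∫ σ, F (gU g σ) ∂μ := by
  conv_lhs => rw [← hμ]
  rw [integral_map (measurable_gU g).aemeasurable hF.aestronglyMeasurable]

lemma Z_equi (hμ : μ.map (gU g) = μ) (A : Finset (V × ℕ)) (x : V × ℕ → I01) :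
    Z μ δ (A.map (gk g).toEmbedding) (gx g x) = Z μ δ A x := by
  unfold Z
  simp only [W_equi]
  rw [integral_gU hμ (fun σ => W δ A (fun v => σ (g v)) x)]
  · congr 1
    funext σ
    congr 1
    funext v
    simp [gU]
  · have hm : Measurable fun (σ : V → Bool) (v : V) => σ (g v) := by fun_prop
    exact (measurable_W_left δ A x).comp hm

lemma Nn_equi (hμ : μ.map (gU g) = μ) (A : Finset (V × ℕ)) (v : V) (x : V × ℕ → I01) :
    Nn μ δ (A.map (gk g).toEmbedding) (g v) (gx g x) = Nn μ δ A v x := by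
  unfold Nn
  simp only [W_equi]
  rw [integral_gU hμ (fun σ => sp (σ (g v)) * W δ A (fun v => σ (g v)) x)]
  · congr 1
    funext σ
    simp only [gU, Equiv.symm_apply_apply]
  · have hm : Measurable fun (σ : V → Bool) (v : V) => σ (g v) := by fun_prop
    exact (measurable_sp_comp (measurable_pi_apply (g v))).mul
      ((measurable_W_left δ A x).comp hm)

lemma pm_equi (hμ : μ.map (gU g) = μ) (A : Finset (V × ℕ)) (v : V) (x : V × ℕ → I01) :
    pm μ δ (A.map (gk g).toEmbedding) (g v) (gx g x) = pm μ δ A v x := by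
  unfold pm
  rw [Z_equi hμ, Nn_equi hμ]

lemma ky_equi (U : V → I01) (k : V × ℕ) : ky (gU g U) (gk g k) = ky U k := by
  unfold ky gU
  rw [gk_apply]; simp

lemma pre_equi (U : V → I01) (A : Finset (V × ℕ)) (l : V × ℕ) :
    pre (ky (gU g U)) (A.map (gk g).toEmbedding) (gk g l)
      = (pre (ky U) A l).map (gk g).toEmbedding := by
  ext k
  rw [mem_pre, Finset.mem_map, Finset.mem_map]
  constructor
  · rintro ⟨⟨j, hj, rfl⟩, h2⟩
    refine ⟨j, mem_pre.2 ⟨hj, ?_⟩, rfl⟩
    simpa only [Equiv.toEmbedding_apply, ky_equi] using h2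
  · rintro ⟨j, hj, rfl⟩
    rw [mem_pre] at hj
    refine ⟨⟨j, hj.1, rfl⟩, ?_⟩
    simpa only [Equiv.toEmbedding_apply, ky_equi] using hj.2

lemma Ps_equi (hμ : μ.map (gU g) = μ) (U : V → I01) (A : Finset (V × ℕ))
    (y : V × ℕ → I01) :
    Ps μ δ (ky (gU g U)) (A.map (gk g).toEmbedding) (gx g y) = gx g (Ps μ δ (ky U) A y) := by
  apply Ps_unique
  funext k
  obtain ⟨l, rfl⟩ := (gk g).surjective k
  by_cases hl : l ∈ A
  · have hl' : gk g l ∈ A.map (gk g).toEmbedding := Finset.mem_map_of_mem _ hl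
    rw [Tn_mem hl', gx_gk, gx_gk, pre_equi]
    have : (gk g l).1 = g l.1 := rfl
    rw [this, pm_equi hμ, ← Ps_mem hl]
  · have hl' : gk g l ∉ A.map (gk g).toEmbedding := by
      intro h
      rw [Finset.mem_map] at h
      obtain ⟨j, hj, hjl⟩ := h
      exact hl ((gk g).injective hjl ▸ hj)
    rw [Tn_notMem hl', gx_gk, gx_gk, Ps_notMem hl]

/-- action on labels and noise -/
def gω (g : V ≃ V) (ω : (V → I01) × (V × ℕ → I01)) : (V → I01) × (V × ℕ → I01) :=
  (gU g ω.1, gx g ω.2)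

lemma XX_equi (hμ : μ.map (gU g) = μ) (A : Finset (V × ℕ))
    (ω : (V → I01) × (V × ℕ → I01)) (l : V × ℕ) :
    XX μ δ (A.map (gk g).toEmbedding) (gω g ω) (gk g l) = XX μ δ A ω l := by
  unfold XX gω
  simp only
  rw [Ps_equi hμ, gx_gk]

end

lemma mp_gω (g : V ≃ V) : MeasurePreserving (gω g) (Pr V) (Pr V) := by
  have h1 : MeasurePreserving (gU (β := I01) g) (iidLaw V) (iidLaw V) := by
    refine ⟨measurable_gU g, ?_⟩
    unfold iidLaw gU
    exact Measure.map_infinitePi_infinitePi_of_inj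
      (P := fun _ : V => (volume : Measure I01)) g.symm.injective
  have h2 : MeasurePreserving (gx g) (lam V) (lam V) := by
    refine ⟨?_, ?_⟩
    · unfold gx; fun_prop
    · unfold lam gx
      exact Measure.map_infinitePi_infinitePi_of_inj
        (P := fun _ : V × ℕ => (volume : Measure I01)) (gk g).symm.injective
  exact h1.prod h2

lemma map_sub {g : V ≃ V} [DecidableEq (V × ℕ)] (A₀ A₁ : Finset (V × ℕ)) :
    A₁ ⊆ (A₀ ∪ A₁.map (gk g).symm.toEmbedding).map (gk g).toEmbedding := by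
  intro k hk
  rw [Finset.mem_map]
  refine ⟨(gk g).symm k, Finset.mem_union_right _ (Finset.mem_map_of_mem _ hk), ?_⟩
  simp

theorem Xi_equi [Countable V] {μ : Measure (V → Bool)} [IsProbabilityMeasure μ] {g : V ≃ V}
    (hμ : μ.map (gU g) = μ)
    {Xi : (V → I01) × (V × ℕ → I01) → (V × ℕ → I01)} (hXi : Measurable Xi)
    (hconv : ∀ l, ∀ ε > 0, ∃ A₀ : Finset (V × ℕ), ∀ A, A₀ ⊆ A →
        ∫ ω, ((XX μ δ A ω l : ℝ) - Xi ω l) ^ 2 ∂(Pr V) ≤ ε) :
    ∀ᵐ ω ∂(Pr V), ∀ l, Xi (gω g ω) (gk g l) = Xi ω l := by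
  classical
  rw [ae_all_iff]
  intro l
  have hg := mp_gω g
  have hXr : ∀ l, Measurable fun ω => (Xi ω l : ℝ) := fun l =>
    measurable_subtype_coe.comp ((measurable_pi_apply l).comp hXi)
  have hm1 : Measurable fun ω => (Xi (gω g ω) (gk g l) : ℝ) := (hXr _).comp hg.measurable
  have hint : Integrable (fun ω => ((Xi (gω g ω) (gk g l) : ℝ) - Xi ω l) ^ 2) (Pr V) :=
    integrable_of_bdd ((hm1.sub (hXr l)).pow_const 2) fun _ => sq_sub_le_one _ _
  have hzero : ∫ ω, ((Xi (gω g ω) (gk g l) : ℝ) - Xi ω l) ^ 2 ∂(Pr V) = 0 := by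
    apply le_antisymm _ (integral_nonneg fun _ => sq_nonneg _)
    apply le_of_forall_pos_le_add
    intro ε hε
    rw [zero_add]
    obtain ⟨A₀, hA₀⟩ := hconv l (ε / 4) (by positivity)
    obtain ⟨A₁, hA₁⟩ := hconv (gk g l) (ε / 4) (by positivity)
    set A := A₀ ∪ A₁.map (gk g).symm.toEmbedding with hA
    set A' := A.map (gk g).toEmbedding with hA'
    have b1 := hA₀ A Finset.subset_union_left
    have b2 := hA₁ A' (map_sub A₀ A₁)
    have i1 : Integrable (fun ω => ((Xi (gω g ω) (gk g l) : ℝ) - XX μ δ A ω l) ^ 2) (Pr V) :=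
      integrable_of_bdd ((hm1.sub (measurable_XXr μ δ A l)).pow_const 2)
        fun _ => sq_sub_le_one _ _
    have i2 : Integrable (fun ω => ((Xi ω l : ℝ) - XX μ δ A ω l) ^ 2) (Pr V) :=
      integrable_of_bdd (((hXr l).sub (measurable_XXr μ δ A l)).pow_const 2)
        fun _ => sq_sub_le_one _ _
    have i3 : Integrable (fun ω => 2 * ((Xi (gω g ω) (gk g l) : ℝ) - XX μ δ A ω l) ^ 2
        + 2 * ((Xi ω l : ℝ) - XX μ δ A ω l) ^ 2) (Pr V) :=
      (i1.const_mul 2).add (i2.const_mul 2)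
    have h3 := integral_mono hint i3 fun ω => sq_triangle _ _ (XX μ δ A ω l : ℝ)
    rw [integral_add (i1.const_mul 2) (i2.const_mul 2), integral_const_mul,
      integral_const_mul] at h3
    have c1 : ∫ ω, ((Xi (gω g ω) (gk g l) : ℝ) - XX μ δ A ω l) ^ 2 ∂(Pr V) ≤ ε / 4 := by
      have e1 : ∫ ω, ((Xi (gω g ω) (gk g l) : ℝ) - XX μ δ A ω l) ^ 2 ∂(Pr V)
          = ∫ ω, ((XX μ δ A' ω (gk g l) : ℝ) - Xi ω (gk g l)) ^ 2 ∂(Pr V) := by
        have hm : Measurable fun ω => ((XX μ δ A' ω (gk g l) : ℝ) - Xi ω (gk g l)) ^ 2 :=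
          ((measurable_XXr μ δ A' _).sub (hXr _)).pow_const 2
        conv_rhs => rw [← hg.map_eq]
        rw [integral_map hg.measurable.aemeasurable hm.aestronglyMeasurable]
        congr 1
        funext ω
        rw [hA', XX_equi hμ]
        ring
      rw [e1]; exact b2
    have c2 : ∫ ω, ((Xi ω l : ℝ) - XX μ δ A ω l) ^ 2 ∂(Pr V) ≤ ε / 4 := by
      have e2 : ∀ ω, ((Xi ω l : ℝ) - XX μ δ A ω l) ^ 2 = ((XX μ δ A ω l : ℝ) - Xi ω l) ^ 2 := by
        intro ω; ring
      simp only [e2]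
      exact b1
    linarith
  rw [integral_eq_zero_iff_of_nonneg (fun _ => sq_nonneg _) hint] at hzero
  filter_upwards [hzero] with ω hω
  have : ((Xi (gω g ω) (gk g l) : ℝ) - Xi ω l) = 0 := by
    have h := hω
    simp only [Pi.zero_apply] at h
    exact pow_eq_zero_iff (two_ne_zero) |>.1 h
  exact Subtype.ext (by linarith)

end Vale.Agent.P161
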