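import Vale.Agent.P161.Sampler

/-!
# The sampler is exact
-/

namespace Vale.Agent.P161

open MeasureTheory

variable {V : Type*} {μ : Measure (V → Bool)} [IsProbabilityMeasure μ] {δ : ℝ}

section meas

variable (μ δ) {P : Type*} [MeasurableSpace P] {κ : P → V × ℕ → ℝ}
  (hκ : ∀ k, Measurable fun p => κ p k) {x : P → V × ℕ → I01} (hx : Measurable x)

include hκ hx

lemma measurable_Ih_pre {h : (V → Bool) → ℝ} (hh : Measurable h) (A : Finset (V × ℕ))
    (l : V × ℕ) : Measurable fun p => Ih μ δ h (pre (κ p) A l) (x p) := by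
  classical
  unfold Ih
  have : StronglyMeasurable fun p : P × (V → Bool) =>
      h p.2 * W δ (pre (κ p.1) A l) p.2 (x p.1) := by
    apply Measurable.stronglyMeasurable
    apply (hh.comp measurable_snd).mul
    have e : (fun p : P × (V → Bool) => W δ (pre (κ p.1) A l) p.2 (x p.1))
        = fun p => ∏ k ∈ A, if κ p.1 k < κ p.1 l then fac δ (p.2 k.1) (x p.1 k) else 1 := by
      funext p
      unfold W pre
      rw [Finset.prod_filter]
    rw [e]
    refine Finset.measurable_fun_prod _ fun k _ => ?_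
    apply Measurable.ite
    · exact measurableSet_lt ((hκ k).comp measurable_fst) ((hκ l).comp measurable_fst)
    · refine (measurable_fac δ).comp (Measurable.prodMk ?_ ?_)
      · exact (measurable_pi_apply k.1).comp measurable_snd
      · exact (measurable_pi_apply k).comp (hx.comp measurable_fst)
    · exact measurable_const
  exact this.integral_prod_right.measurable

lemma measurable_pm_pre (v : V) (A : Finset (V × ℕ)) (l : V × ℕ) :
    Measurable fun p => pm μ δ (pre (κ p) A l) v (x p) := by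
  unfold pm
  apply Measurable.div
  · simp only [Nn_eq]
    exact measurable_Ih_pre μ δ hκ hx (measurable_sp_comp (by fun_prop)) A l
  · simp only [Z_eq]
    exact measurable_Ih_pre μ δ hκ hx measurable_const A l

lemma measurable_Tn_pre {y : P → V × ℕ → I01} (hy : Measurable y) (A : Finset (V × ℕ)) :
    Measurable fun p => Tn μ δ (κ p) A (y p) (x p) := by
  rw [measurable_pi_iff]
  intro l
  by_cases hl : l ∈ A
  · simp only [Tn_mem hl]
    exact (measurable_Qc δ).comp ((measurable_pm_pre μ δ hκ hx l.1 A l).prodMk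
      ((measurable_pi_apply l).comp hy))
  · simp only [Tn_notMem hl]
    exact (measurable_pi_apply l).comp hy

lemma measurable_Th_pre (A : Finset (V × ℕ)) :
    Measurable fun p => Th μ δ (κ p) A (x p) := by
  rw [measurable_pi_iff]
  intro l
  by_cases hl : l ∈ A
  · simp only [Th_mem hl]
    exact (measurable_Fc δ).comp ((measurable_pm_pre μ δ hκ hx l.1 A l).prodMk
      ((measurable_pi_apply l).comp hx))
  · simp only [Th_notMem hl]
    exact (measurable_pi_apply l).comp hx

lemma measurable_Ps_pre (A : Finset (V × ℕ)) :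
    Measurable fun p => Ps μ δ (κ p) A (x p) := by
  unfold Ps
  suffices H : ∀ n : ℕ, Measurable fun p => (Tn μ δ (κ p) A (x p))^[n] (x p) from H _
  intro n
  induction n with
  | zero => simpa using hx
  | succ n ih =>
    simp only [Function.iterate_succ_apply']
    exact measurable_Tn_pre μ δ hκ ih hx A

end meas

lemma measurable_Th (μ : Measure (V → Bool)) [IsProbabilityMeasure μ] (δ : ℝ) (κ : V × ℕ → ℝ)
    (A : Finset (V × ℕ)) : Measurable (Th μ δ κ A) :=
  measurable_Th_pre μ δ (κ := fun _ => κ) (fun _ => measurable_const) measurable_id A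

lemma measurable_Ps (μ : Measure (V → Bool)) [IsProbabilityMeasure μ] (δ : ℝ) (κ : V × ℕ → ℝ)
    (A : Finset (V × ℕ)) : Measurable (Ps μ δ κ A) :=
  measurable_Ps_pre μ δ (κ := fun _ => κ) (fun _ => measurable_const) measurable_id A

lemma pre_insert_self [DecidableEq (V × ℕ)] {κ : V × ℕ → ℝ} {B : Finset (V × ℕ)} {l : V × ℕ}
    (hmax : ∀ k ∈ B, κ k < κ l) : pre κ (insert l B) l = B := by
  ext k
  rw [mem_pre, Finset.mem_insert]
  constructor
  · rintro ⟨h | h, h2⟩
    · subst h; exact absurd h2 (lt_irrefl _)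
    · exact h
  · intro h; exact ⟨Or.inr h, hmax k h⟩

lemma pre_insert_of_mem [DecidableEq (V × ℕ)] {κ : V × ℕ → ℝ} {B : Finset (V × ℕ)} {l j : V × ℕ}
    (hmax : ∀ k ∈ B, κ k < κ l) (hj : j ∈ B) : pre κ (insert l B) j = pre κ B j := by
  ext k
  rw [mem_pre, mem_pre, Finset.mem_insert]
  constructor
  · rintro ⟨h | h, h2⟩
    · subst h; exact absurd (h2.trans (hmax j hj)) (lt_irrefl _)
    · exact ⟨h, h2⟩
  · rintro ⟨h, h2⟩; exact ⟨Or.inr h, h2⟩

omit [IsProbabilityMeasure μ] in
lemma Th_insert_upd [DecidableEq (V × ℕ)] {κ : V × ℕ → ℝ} {B : Finset (V × ℕ)} {l : V × ℕ}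
    (hl : l ∉ B) (hmax : ∀ k ∈ B, κ k < κ l) (x : V × ℕ → I01) (t : I01) :
    Th μ δ κ (insert l B) (Function.update x l t)
      = Function.update (Th μ δ κ B x) l (Fc δ (pm μ δ B l.1 x) t) := by
  funext j
  by_cases hjl : j = l
  · subst hjl
    rw [Th_mem (Finset.mem_insert_self _ _), Function.update_self, Function.update_self,
      pre_insert_self hmax, pm_upd_of_notMem j.1 hl]
  · rw [Function.update_of_ne hjl]
    by_cases hjB : j ∈ B
    · rw [Th_mem (Finset.mem_insert_of_mem hjB), Th_mem hjB, Function.update_of_ne hjl,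
        pre_insert_of_mem hmax hjB, pm_upd_of_notMem j.1 (fun h => hl (pre_subset κ B j h))]
    · rw [Th_notMem (by simp [hjl, hjB]), Th_notMem hjB, Function.update_of_ne hjl]

/-- the law of the noise recovered from the observations -/
lemma lintegral_Th (h0 : 0 ≤ δ) (h1 : δ ≤ 1 / 2) {κ : V × ℕ → ℝ} (hκ : Function.Injective κ)
    (A : Finset (V × ℕ)) : ∀ φ : (V × ℕ → I01) → ENNReal, Measurable φ →
    ∫⁻ x, ENNReal.ofReal (Z μ δ A x) * φ (Th μ δ κ A x) ∂(lam V) = ∫⁻ x, φ x ∂(lam V) := by
  classical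
  induction A using Finset.induction_on_max_value κ with
  | empty =>
    intro φ _
    congr 1
    funext x
    have e1 : Z μ δ ∅ x = 1 := by unfold Z W; simp
    have e2 : Th μ δ κ ∅ x = x := by
      funext l; exact Th_notMem (by simp) x
    rw [e1, e2]; simp
  | insert l B hl hmax' ih =>
    intro φ hφ
    have hmax : ∀ k ∈ B, κ k < κ l := fun k hk =>
      lt_of_le_of_ne (hmax' k hk) fun h => hl (hκ h ▸ hk)
    have hZm := (measurable_Z μ δ (insert l B)).ennreal_ofReal
    have hTm := measurable_Th μ δ κ (insert l B)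
    have hm : Measurable fun x => ENNReal.ofReal (Z μ δ (insert l B) x)
        * φ (Th μ δ κ (insert l B) x) := hZm.mul (hφ.comp hTm)
    have hφ' : Measurable fun y : V × ℕ → I01 => ∫⁻ s : I01, φ (Function.update y l s) := by
      have : Measurable fun p : (V × ℕ → I01) × I01 => φ (Function.update p.1 l p.2) :=
        hφ.comp (measurable_upd l)
      exact this.lintegral_prod_right'
    rw [lam_eq, lintegral_upd l _ hm, lintegral_upd l φ hφ, ← lam_eq, ← ih _ hφ']
    congr 1
    funext x
    have e : ∀ t : I01, ENNReal.ofReal (Z μ δ (insert l B) (Function.update x l t))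
          * φ (Th μ δ κ (insert l B) (Function.update x l t))
        = ENNReal.ofReal (Z μ δ B x) * (ENNReal.ofReal (1 + δ * pm μ δ B l.1 x * (2 * (t : ℝ) - 1))
            * φ (Function.update (Th μ δ κ B x) l (Fc δ (pm μ δ B l.1 x) t))) := by
      intro t
      rw [Z_upd h0 h1 hl, Th_insert_upd hl hmax, ENNReal.ofReal_mul (Z_pos h0 h1 B x).le,
        mul_assoc]
    simp only [e]
    rw [lintegral_const_mul']
    · congr 1
      apply lintegral_Fc (abs_dpm_le h0 h1 B l.1 x)
        (fun s => φ (Function.update (Th μ δ κ B x) l s))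
      exact (hφ.comp (measurable_upd l)).comp (measurable_const.prodMk measurable_id)
    · exact ENNReal.ofReal_ne_top

lemma mp_Th (h0 : 0 ≤ δ) (h1 : δ ≤ 1 / 2) {κ : V × ℕ → ℝ} (hκ : Function.Injective κ)
    (A : Finset (V × ℕ)) : MeasurePreserving (Th μ δ κ A) (PA μ δ A) (lam V) where
  measurable := measurable_Th μ δ κ A
  map_eq := by
    refine Measure.ext_of_lintegral _ fun φ hφ => ?_
    have hm : Measurable fun x => φ (Th μ δ κ A x) := hφ.comp (measurable_Th μ δ κ A)
    rw [lintegral_map hφ (measurable_Th μ δ κ A), PA,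
      lintegral_withDensity_eq_lintegral_mul _ (measurable_Z μ δ A).ennreal_ofReal hm]
    exact lintegral_Th h0 h1 hκ A φ hφ

lemma mp_Ps (h0 : 0 ≤ δ) (h1 : δ ≤ 1 / 2) {κ : V × ℕ → ℝ} (hκ : Function.Injective κ)
    (A : Finset (V × ℕ)) : MeasurePreserving (Ps μ δ κ A) (lam V) (PA μ δ A) where
  measurable := measurable_Ps μ δ κ A
  map_eq := by
    rw [← (mp_Th (μ := μ) h0 h1 hκ A).map_eq,
      Measure.map_map (measurable_Ps μ δ κ A) (measurable_Th μ δ κ A)]
    have : Ps μ δ κ A ∘ Th μ δ κ A = id := by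
      funext x; exact Ps_Th h0 h1 κ A x
    rw [this, Measure.map_id]

lemma integral_PA (h0 : 0 ≤ δ) (h1 : δ ≤ 1 / 2) (A : Finset (V × ℕ)) (g : (V × ℕ → I01) → ℝ) :
    ∫ x, g x ∂(PA μ δ A) = ∫ x, g x * Z μ δ A x ∂(lam V) := by
  unfold PA
  rw [integral_withDensity_eq_integral_toReal_smul (measurable_Z μ δ A).ennreal_ofReal
    (Filter.Eventually.of_forall fun x => ENNReal.ofReal_lt_top)]
  congr 1
  funext x
  rw [ENNReal.toReal_ofReal (Z_pos h0 h1 A x).le, smul_eq_mul, mul_comm]

end Vale.Agent.P161
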