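import Vale.Agent.P161.Tree

/-! Package B, part: existence of the free Ising measure on a tree. -/

namespace Vale.Agent.P161

open MeasureTheory

universe u

/-! ### parents -/

open Classical in
/-- the neighbour of `v` closer to the root `r` -/
noncomputable def par {V : Type u} (G : SimpleGraph V) (r v : V) : V :=
  if h : ∃ v', G.Adj v v' ∧ G.dist v r = G.dist v' r + 1 then h.choose else v

theorem par_spec {V : Type u} {G : SimpleGraph V} (hG : G.IsTree) {r v : V} (hv : v ≠ r) :
    G.Adj v (par G r v) ∧ G.dist v r = G.dist (par G r v) r + 1 := by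
  have h : ∃ v', G.Adj v v' ∧ G.dist v r = G.dist v' r + 1 := by
    have h1 := hG.connected.pos_dist_of_ne hv
    obtain ⟨v', h2, h3⟩ := exists_closer hG.connected (v := v) (u := r)
      (n := G.dist v r - 1) (by omega)
    exact ⟨v', h2, by omega⟩
  unfold par
  rw [dif_pos h]
  exact h.choose_spec

theorem closer_unique {V : Type u} {G : SimpleGraph V} (hG : G.IsTree) {r v w w' : V}
    (hw : G.Adj v w) (hw' : G.Adj v w') (h : G.dist v r = G.dist w r + 1)
    (h' : G.dist v r = G.dist w' r + 1) : w = w' := by
  by_contra hne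
  have h1 : G.dist v w' = 1 := SimpleGraph.dist_eq_one_iff_adj.2 hw'
  have h2 := hG.connected.pos_dist_of_ne hne
  have h3 : G.dist w w' = G.dist v w' + 1 := by
    rcases dist_split hG hw.symm w' with h4 | h4
    · omega
    · exact h4
  have h5 := dist_cross hG hw.symm (w := r) (u := w') h h3
  rw [SimpleGraph.dist_comm (u := r)] at h5
  omega

theorem eq_par {V : Type u} {G : SimpleGraph V} (hG : G.IsTree) {r v w : V}
    (hw : G.Adj v w) (h : G.dist v r = G.dist w r + 1) : w = par G r v := by
  have hv : v ≠ r := by
    rintro rfl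
    rw [SimpleGraph.dist_self] at h
    omega
  exact closer_unique hG hw (par_spec hG hv).1 h (par_spec hG hv).2

/-- `v0` is the top of `D` -/
def IsTop {V : Type u} (G : SimpleGraph V) (r : V) (D : Finset V) (v0 : V) : Prop :=
  v0 ∈ D ∧ (∀ v ∈ D, G.dist v0 r ≤ G.dist v r) ∧ ∀ v ∈ D, v ≠ v0 → v ≠ r ∧ par G r v ∈ D

theorem exists_isTop {V : Type u} {G : SimpleGraph V} (hG : G.IsTree) (r : V) (D : Finset V)
    (hD : (G.induce (D : Set V)).Connected) : ∃ v0, IsTop G r D v0 := by
  obtain ⟨⟨x, hx⟩⟩ := hD.nonempty
  obtain ⟨v0, hv0, hmin⟩ := D.exists_min_image (fun v => G.dist v r) ⟨x, hx⟩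
  refine ⟨v0, hv0, hmin, ?_⟩
  intro v hv hne
  obtain ⟨p, hp⟩ := hD.exists_isPath ⟨v, hv⟩ ⟨v0, hv0⟩
  cases p with
  | nil => exact absurd rfl hne
  | cons hadj q =>
    rename_i w
    have hadj' : G.Adj v w := hadj
    have e1 := length_eq_dist_of_isPath hG
      ((SimpleGraph.Walk.cons hadj q).map (SimpleGraph.Embedding.induce (D : Set V)).toHom)
      (hp.map Subtype.val_injective)
    have e2 := length_eq_dist_of_isPath hG
      (q.map (SimpleGraph.Embedding.induce (D : Set V)).toHom)
      (hp.of_cons.map Subtype.val_injective)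
    rw [SimpleGraph.Walk.length_map] at e1 e2
    rw [SimpleGraph.Walk.length_cons] at e1
    change q.length + 1 = G.dist v v0 at e1
    change q.length = G.dist (w : V) v0 at e2
    rcases dist_split hG hadj' r with h | h
    · exfalso
      have h3 := dist_cross hG hadj' h (u := v0) (by omega)
      have h4 := hmin v hv
      rw [SimpleGraph.dist_comm (u := r)] at h3
      omega
    · have h3 := eq_par hG hadj' h
      refine ⟨?_, ?_⟩
      · rintro rfl
        rw [SimpleGraph.dist_self] at h
        omega
      · rw [← h3]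
        exact w.2

/-! ### the measure -/

/-- a biased coin -/
noncomputable def bern (t : ℝ) : Measure Bool :=
  ENNReal.ofReal ((1 + t) / 2) • Measure.dirac true + ENNReal.ofReal ((1 - t) / 2) • Measure.dirac false

theorem bern_singleton (t : ℝ) (b : Bool) : bern t {b} = ENNReal.ofReal ((1 + t * sp b) / 2) := by
  unfold bern sp
  cases b <;> simp [sub_eq_add_neg]

theorem bern_isProb {t : ℝ} (ht : |t| ≤ 1) : IsProbabilityMeasure (bern t) := by
  constructor
  have h := abs_le.1 ht
  unfold bern
  simp only [Measure.coe_add, Measure.coe_smul, Pi.add_apply, Pi.smul_apply, measure_univ,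
    smul_eq_mul, mul_one]
  rw [← ENNReal.ofReal_add (by linarith) (by linarith), ← ENNReal.ofReal_one]
  congr 1
  ring

/-- spins from the coins, with fuel -/
noncomputable def Fn {V : Type u} (G : SimpleGraph V) (r : V) : ℕ → (V → Bool) → V → Bool
  | 0, ω, v => ω v
  | n + 1, ω, v => (ω v == Fn G r n ω (par G r v))

/-- spins from the coins -/
noncomputable def FF {V : Type u} (G : SimpleGraph V) (r : V) (ω : V → Bool) (v : V) : Bool :=
  Fn G r (G.dist v r) ω v

theorem FF_root {V : Type u} (G : SimpleGraph V) (r : V) (ω : V → Bool) : FF G r ω r = ω r := by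
  unfold FF
  rw [SimpleGraph.dist_self]
  rfl

theorem FF_succ {V : Type u} {G : SimpleGraph V} (hG : G.IsTree) {r v : V} (hv : v ≠ r)
    (ω : V → Bool) : FF G r ω v = (ω v == FF G r ω (par G r v)) := by
  unfold FF
  rw [(par_spec hG hv).2]
  rfl

theorem measurable_Fn {V : Type u} (G : SimpleGraph V) (r : V) (n : ℕ) (v : V) :
    Measurable fun ω : V → Bool => Fn G r n ω v := by
  induction n generalizing v with
  | zero => exact measurable_pi_apply v
  | succ n ih =>
    have h : Measurable fun p : Bool × Bool => (p.1 == p.2) := measurable_of_countable _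
    exact h.comp ((measurable_pi_apply v).prodMk (ih (par G r v)))

theorem measurable_FF {V : Type u} (G : SimpleGraph V) (r : V) : Measurable (FF G r) := by
  rw [measurable_pi_iff]
  intro v
  exact measurable_Fn G r _ v

/-- the coin law -/
noncomputable def coin {V : Type u} (r : V) (θ : ℝ) (v : V) : Measure Bool :=
  open Classical in bern (if v = r then 0 else θ)

theorem coin_isProb {V : Type u} (r : V) {θ : ℝ} (hθ : |θ| ≤ 1) (v : V) :
    IsProbabilityMeasure (coin r θ v) := by
  unfold coin
  apply bern_isProb
  split_ifs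
  · simp
  · exact hθ

/-- the free Ising measure -/
noncomputable def freeIsing {V : Type u} (G : SimpleGraph V) (r : V) (θ : ℝ) :
    Measure (V → Bool) := (Measure.infinitePi (coin r θ)).map (FF G r)

theorem sp_beq (a b : Bool) : sp (a == b) = sp a * sp b := by
  cases a <;> cases b <;> simp [sp]

theorem measurableSet_cyl {V : Type u} (D : Finset V) (η : V → Bool) :
    MeasurableSet {σ : V → Bool | ∀ v ∈ D, σ v = η v} := by
  have : {σ : V → Bool | ∀ v ∈ D, σ v = η v} = Set.pi (D : Set V) (fun v => {η v}) := by
    ext σ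
    simp [Set.mem_pi]
  rw [this]
  exact MeasurableSet.pi D.countable_toSet (fun v _ => measurableSet_singleton _)

theorem freeIsing_base {V : Type u} {G : SimpleGraph V} (hG : G.IsTree) (r : V) {θ : ℝ}
    (hθ : |θ| ≤ 1) (D : Finset V) (hD : IsTop G r D r) (η : V → Bool) [DecidableEq V] :
    freeIsing G r θ {σ | ∀ v ∈ D, σ v = η v} =
      ENNReal.ofReal (1 / 2 * ∏ v ∈ D.erase r, (1 + θ * sp (η v) * sp (η (par G r v))) / 2) := by
  have hprob : ∀ v, IsProbabilityMeasure (coin r θ v) := coin_isProb r hθ
  have hθ' := abs_le.1 hθ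
  obtain ⟨ζ, hζ⟩ : ∃ ζ : V → Bool, ζ = fun v => if v = r then η r else (η v == η (par G r v)) :=
    ⟨_, rfl⟩
  unfold freeIsing
  rw [Measure.map_apply (measurable_FF G r) (measurableSet_cyl D η)]
  have h1 : FF G r ⁻¹' {σ | ∀ v ∈ D, σ v = η v} = Set.pi (D : Set V) (fun v => {ζ v}) := by
    ext ω
    simp only [Set.mem_preimage, Set.mem_ofPred_eq, Set.mem_pi, Finset.mem_coe,
      Set.mem_singleton_iff]
    constructor
    · intro h v hv
      by_cases hvr : v = r
      · rw [hζ]
        simp only [hvr, if_true]
        rw [← h r hD.1, FF_root]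
      · have h2 := h v hv
        have h3 := h _ (hD.2.2 v hv hvr).2
        rw [FF_succ hG hvr, h3] at h2
        rw [hζ]
        simp only [hvr, if_false]
        rw [← h2]
        cases ω v <;> cases η (par G r v) <;> rfl
    · intro h
      have key : ∀ (n : ℕ) (v : V), v ∈ D → G.dist v r = n → FF G r ω v = η v := by
        intro n
        induction n with
        | zero =>
          intro v hv hn
          have hvr : v = r := hG.connected.dist_eq_zero_iff.1 hn
          subst hvr
          have := h v hv
          rw [hζ] at this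
          simp only [if_true] at this
          rw [FF_root, this]
        | succ n ih =>
          intro v hv hn
          have hvr : v ≠ r := by
            rintro rfl
            rw [SimpleGraph.dist_self] at hn
            omega
          have h2 := (par_spec hG hvr).2
          have h3 := ih (par G r v) (hD.2.2 v hv hvr).2 (by omega)
          have h4 := h v hv
          rw [hζ] at h4
          simp only [hvr, if_false] at h4
          rw [FF_succ hG hvr, h3, h4]
          cases η v <;> cases η (par G r v) <;> rfl
      intro v hv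
      exact key _ v hv rfl
  rw [h1, Measure.infinitePi_pi _ (fun v _ => measurableSet_singleton _),
    ← Finset.mul_prod_erase D _ hD.1]
  have h2 : coin r θ r {ζ r} = ENNReal.ofReal (1 / 2) := by
    unfold coin
    rw [if_pos rfl, bern_singleton]
    simp
  have h3 : ∀ v ∈ D.erase r, coin r θ v {ζ v} =
      ENNReal.ofReal ((1 + θ * sp (η v) * sp (η (par G r v))) / 2) := by
    intro v hv
    have hvr := Finset.ne_of_mem_erase hv
    unfold coin
    rw [if_neg hvr, bern_singleton, hζ]
    simp only [hvr, if_false]
    rw [sp_beq, mul_assoc]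
  rw [h2, Finset.prod_congr rfl h3, ← ENNReal.ofReal_prod_of_nonneg, ← ENNReal.ofReal_mul (by norm_num)]
  intro v _
  have : ∀ a b : Bool, 0 ≤ (1 + θ * sp a * sp b) / 2 := by
    intro a b
    cases a <;> cases b <;> simp [sp] <;> linarith
  exact this _ _

theorem wt_nonneg {θ : ℝ} (hθ : |θ| ≤ 1) (a b : Bool) : 0 ≤ (1 + θ * sp a * sp b) / 2 := by
  have hθ' := abs_le.1 hθ
  cases a <;> cases b <;> simp [sp] <;> linarith

theorem freeIsing_top {V : Type u} {G : SimpleGraph V} (hG : G.IsTree) (r : V) {θ : ℝ}
    (hθ : |θ| ≤ 1) [DecidableEq V] (n : ℕ) : ∀ (D : Finset V) (v0 : V), IsTop G r D v0 →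
    G.dist v0 r = n → ∀ η : V → Bool,
    freeIsing G r θ {σ | ∀ v ∈ D, σ v = η v} =
      ENNReal.ofReal (1 / 2 * ∏ v ∈ D.erase v0, (1 + θ * sp (η v) * sp (η (par G r v))) / 2) := by
  induction n with
  | zero =>
    intro D v0 hD h0 η
    have hvr : v0 = r := hG.connected.dist_eq_zero_iff.1 h0
    subst hvr
    exact freeIsing_base hG v0 hθ D hD η
  | succ n ih =>
    intro D v0 hD h0 η
    have hvr : v0 ≠ r := by
      rintro rfl
      rw [SimpleGraph.dist_self] at h0
      omega
    obtain ⟨p, hp⟩ : ∃ p, p = par G r v0 := ⟨_, rfl⟩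
    have hpd := (par_spec hG hvr).2
    rw [← hp] at hpd
    have hpD : p ∉ D := by
      intro hmem
      have := hD.2.1 p hmem
      omega
    have hD' : IsTop G r (insert p D) p := by
      refine ⟨Finset.mem_insert_self _ _, ?_, ?_⟩
      · intro v hv
        rcases Finset.mem_insert.1 hv with rfl | hv
        · exact le_refl _
        · have := hD.2.1 v hv
          omega
      · intro v hv hvp
        rcases Finset.mem_insert.1 hv with h | hv
        · exact absurd h hvp
        · by_cases hv0 : v = v0
          · subst hv0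
            exact ⟨hvr, by rw [← hp]; exact Finset.mem_insert_self _ _⟩
          · have := hD.2.2 v hv hv0
            exact ⟨this.1, Finset.mem_insert_of_mem this.2⟩
    have hb : ∀ b : Bool, freeIsing G r θ {σ | ∀ v ∈ insert p D, σ v = Function.update η p b v} =
        ENNReal.ofReal (1 / 2 * ((∏ v ∈ D.erase v0, (1 + θ * sp (η v) * sp (η (par G r v))) / 2) *
          ((1 + θ * sp (η v0) * sp b) / 2))) := by
      intro b
      rw [ih (insert p D) p hD' (by omega) (Function.update η p b), Finset.erase_insert hpD,
        ← Finset.mul_prod_erase D _ hD.1]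
      congr 2
      rw [mul_comm]
      congr 1
      · apply Finset.prod_congr rfl
        intro v hv
        have hv0 := Finset.ne_of_mem_erase hv
        have hvD := Finset.mem_of_mem_erase hv
        have h1 : v ≠ p := fun h => hpD (h ▸ hvD)
        have h2 : par G r v ≠ p := fun h => hpD (h ▸ (hD.2.2 v hvD hv0).2)
        rw [Function.update_of_ne h1, Function.update_of_ne h2]
      · have h1 : v0 ≠ p := fun h => hpD (h ▸ hD.1)
        rw [Function.update_of_ne h1, ← hp, Function.update_self]
    have hsplit : {σ : V → Bool | ∀ v ∈ D, σ v = η v} =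
        {σ | ∀ v ∈ insert p D, σ v = Function.update η p true v} ∪
        {σ | ∀ v ∈ insert p D, σ v = Function.update η p false v} := by
      have hmem : ∀ (σ : V → Bool) (b : Bool), (∀ v ∈ insert p D, σ v = Function.update η p b v) ↔
          (σ p = b ∧ ∀ v ∈ D, σ v = η v) := by
        intro σ b
        rw [Finset.forall_mem_insert, Function.update_self]
        constructor
        · rintro ⟨h1, h2⟩
          refine ⟨h1, fun v hv => ?_⟩
          have hvp : v ≠ p := fun h => hpD (h ▸ hv)
          rw [h2 v hv, Function.update_of_ne hvp]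
        · rintro ⟨h1, h2⟩
          refine ⟨h1, fun v hv => ?_⟩
          have hvp : v ≠ p := fun h => hpD (h ▸ hv)
          rw [h2 v hv, Function.update_of_ne hvp]
      ext σ
      simp only [Set.mem_union, Set.mem_ofPred_eq, hmem]
      constructor
      · intro h
        cases hσ : σ p
        · exact Or.inr ⟨rfl, h⟩
        · exact Or.inl ⟨rfl, h⟩
      · rintro (h | h)
        · exact h.2
        · exact h.2
    have hdisj : Disjoint {σ : V → Bool | ∀ v ∈ insert p D, σ v = Function.update η p true v}
        {σ | ∀ v ∈ insert p D, σ v = Function.update η p false v} := by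
      rw [Set.disjoint_left]
      intro σ h1 h2
      have h3 := h1 p (Finset.mem_insert_self _ _)
      have h4 := h2 p (Finset.mem_insert_self _ _)
      rw [Function.update_self] at h3 h4
      rw [h3] at h4
      cases h4
    have hP : 0 ≤ ∏ v ∈ D.erase v0, (1 + θ * sp (η v) * sp (η (par G r v))) / 2 :=
      Finset.prod_nonneg fun v _ => wt_nonneg hθ _ _
    rw [hsplit, measure_union hdisj (measurableSet_cyl _ _), hb true, hb false,
      ← ENNReal.ofReal_add]
    · congr 1
      have e1 : sp true = 1 := by simp [sp]
      have e2 : sp false = -1 := by simp [sp]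
      rw [e1, e2]
      ring
    · have := wt_nonneg hθ (η v0) true
      positivity
    · have := wt_nonneg hθ (η v0) false
      positivity

theorem prod_edges {V : Type u} {G : SimpleGraph V} (hG : G.IsTree) (r : V) (θ : ℝ)
    [DecidableEq V] [DecidablePred fun e => e ∈ G.edgeSet] (D : Finset V) (v0 : V)
    (hD : IsTop G r D v0) (η : V → Bool) :
    ∏ e ∈ D.sym2 with e ∈ G.edgeSet, edgeWt θ η e =
      ∏ v ∈ D.erase v0, (1 + θ * sp (η v) * sp (η (par G r v))) / 2 := by
  symm
  apply Finset.prod_nbij (fun v => s(v, par G r v))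
  · intro v hv
    have hv0 := Finset.ne_of_mem_erase hv
    have hvD := Finset.mem_of_mem_erase hv
    have h := hD.2.2 v hvD hv0
    rw [Finset.mem_filter]
    exact ⟨Finset.mk_mem_sym2_iff.2 ⟨hvD, h.2⟩, (par_spec hG h.1).1⟩
  · intro v hv w hw hvw
    have hv0 := Finset.ne_of_mem_erase (Finset.mem_coe.1 hv)
    have hvD := Finset.mem_of_mem_erase (Finset.mem_coe.1 hv)
    have hw0 := Finset.ne_of_mem_erase (Finset.mem_coe.1 hw)
    have hwD := Finset.mem_of_mem_erase (Finset.mem_coe.1 hw)
    have h1 := (par_spec hG (hD.2.2 v hvD hv0).1).2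
    have h2 := (par_spec hG (hD.2.2 w hwD hw0).1).2
    simp only [Sym2.eq_iff] at hvw
    rcases hvw with h | h
    · exact h.1
    · exfalso
      rw [← h.1] at h2
      rw [h.2] at h1
      omega
  · intro e he
    rw [Finset.mem_coe, Finset.mem_filter] at he
    obtain ⟨he1, he2⟩ := he
    induction e with
    | _ x y =>
      rw [Finset.mk_mem_sym2_iff] at he1
      have hadj : G.Adj x y := he2
      rcases dist_split hG hadj r with h | h
      · have h1 := eq_par hG hadj.symm h
        refine ⟨y, ?_, ?_⟩
        · rw [Finset.mem_coe, Finset.mem_erase]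
          refine ⟨?_, he1.2⟩
          rintro rfl
          have := hD.2.1 x he1.1
          omega
        · simp only
          rw [← h1, Sym2.eq_swap]
      · have h1 := eq_par hG hadj h
        refine ⟨x, ?_, ?_⟩
        · rw [Finset.mem_coe, Finset.mem_erase]
          refine ⟨?_, he1.1⟩
          rintro rfl
          have := hD.2.1 y he1.2
          omega
        · simp only
          rw [← h1]
  · intro v _
    rfl

theorem exists_isFreeIsing {V : Type u} {G : SimpleGraph V} (hG : G.IsTree) {θ : ℝ}
    (hθ : |θ| ≤ 1) : ∃ μ : Measure (V → Bool), IsProbabilityMeasure μ ∧ IsFreeIsing G θ μ := by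
  classical
  obtain ⟨r⟩ := hG.connected.nonempty
  have hprob : ∀ v, IsProbabilityMeasure (coin r θ v) := coin_isProb r hθ
  refine ⟨freeIsing G r θ, ?_, ?_⟩
  · unfold freeIsing
    exact Measure.isProbabilityMeasure_map (measurable_FF G r).aemeasurable
  · intro D hD η
    obtain ⟨v0, hv0⟩ := exists_isTop hG r D hD
    rw [freeIsing_top hG r hθ _ D v0 hv0 rfl η]
    congr 2
    symm
    convert prod_edges hG r θ D v0 hv0 η

end Vale.Agent.P161
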