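import Vale.Agent.P161.IsingUniq

/-!
# The influence bound for the free Ising measure on a tree
-/

namespace Vale.Agent.P161

open MeasureTheory

universe u

variable {V : Type u} {G : SimpleGraph V} {θ : ℝ}

open Classical in
/-- Markov identity across an edge -/
theorem markov {μ : Measure (V → Bool)} [IsProbabilityMeasure μ] (hG : G.IsTree)
    (h : IsFreeIsing G θ μ) (h0 : 0 ≤ θ) (h1 : θ ≤ 1) {a b : V} (hab : G.Adj a b)
    {A B : Finset V} (hA : ∀ u ∈ A, u ∈ side G a b) (hB : ∀ u ∈ B, u ∈ side G b a)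
    (ha : a ∈ A) (hb : b ∈ B) (hAc : (G.induce (A : Set V)).Connected)
    (hBc : (G.induce (B : Set V)).Connected) {F H : (V → Bool) → ℝ}
    (hF : ∀ σ σ', (∀ v ∈ A, σ v = σ' v) → F σ = F σ')
    (hH : ∀ σ σ', (∀ v ∈ B, σ v = σ' v) → H σ = H σ') :
    ∫ σ, F σ * H σ ∂μ = (∫ σ, F σ ∂μ) * (∫ σ, H σ ∂μ)
      + θ * ((∫ σ, F σ * sp (σ a) ∂μ) * (∫ σ, sp (σ b) * H σ ∂μ)) := by
  classical
  have hABc : (G.induce ((A ∪ B : Finset V) : Set V)).Connected := by
    rw [Finset.coe_union]
    exact SimpleGraph.connected_induce_union hAc.preconnected hBc.preconnected ha hb hab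
  have hdis : ∀ u ∈ A, u ∉ B := fun u hu hu' => side_disjoint (hA u hu) (hB u hu')
  -- left side
  have eF := eq_sum_cyl A hF
  have eH := eq_sum_cyl B hH
  have eFa := integral_eq_sum h h0 h1 hAc (H := fun σ => F σ * sp (σ a))
    (fun σ σ' hσ => by rw [hF σ σ' hσ, hσ a ha])
  have eHb := integral_eq_sum h h0 h1 hBc (H := fun σ => sp (σ b) * H σ)
    (fun σ σ' hσ => by rw [hH σ σ' hσ, hσ b hb])
  rw [integral_eq_sum h h0 h1 hAc hF, integral_eq_sum h h0 h1 hBc hH, eFa, eHb]
  have hcyl : ∀ (s : A → Bool) (t : B → Bool),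
      ∫ σ, cyl A (ext A s) σ * cyl B (ext B t) σ ∂μ
        = (1 + θ * sp (ext A s a) * sp (ext B t b)) *
          (PD G θ A (ext A s) * PD G θ B (ext B t)) := by
    intro s t
    set η : V → Bool := fun v => if v ∈ A then ext A s v else ext B t v with hη
    have hηA : ∀ v ∈ A, η v = ext A s v := fun v hv => by simp [hη, hv]
    have hηB : ∀ v ∈ B, η v = ext B t v := fun v hv => by
      have : v ∉ A := fun h => hdis v h hv
      simp [hη, this]
    have e1 : ∀ σ, cyl A (ext A s) σ * cyl B (ext B t) σ = cyl (A ∪ B) η σ := by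
      intro σ
      unfold cyl
      by_cases c1 : ∀ v ∈ A, σ v = ext A s v
      · by_cases c2 : ∀ v ∈ B, σ v = ext B t v
        · rw [if_pos c1, if_pos c2, if_pos]
          · simp
          · intro v hv
            rcases Finset.mem_union.1 hv with h' | h'
            · rw [hηA v h']; exact c1 v h'
            · rw [hηB v h']; exact c2 v h'
        · rw [if_neg c2, mul_zero, if_neg]
          intro c3
          apply c2
          intro v hv
          rw [← hηB v hv]
          exact c3 v (Finset.mem_union_right _ hv)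
      · rw [if_neg c1, zero_mul, if_neg]
        intro c3
        apply c1
        intro v hv
        rw [← hηA v hv]
        exact c3 v (Finset.mem_union_left _ hv)
    simp only [e1]
    rw [integral_cyl h h0 h1 hABc, PD_union hG hab hA hB ha hb, hηA a ha, hηB b hb,
      PD_congr hηA, PD_congr hηB]
  have eFH : ∀ σ, F σ * H σ = ∑ s : A → Bool, ∑ t : B → Bool,
      (F (ext A s) * H (ext B t)) * (cyl A (ext A s) σ * cyl B (ext B t) σ) := by
    intro σ
    rw [eF σ, eH σ, Finset.sum_mul_sum]
    apply Finset.sum_congr rfl; intro s _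
    apply Finset.sum_congr rfl; intro t _
    ring
  have icc : ∀ (s : A → Bool) (t : B → Bool),
      Integrable (fun σ => (F (ext A s) * H (ext B t)) * (cyl A (ext A s) σ * cyl B (ext B t) σ))
        μ := by
    intro s t
    apply Integrable.const_mul
    apply integrable_of_bdd ((measurable_cyl A _).mul (measurable_cyl B _)) (B := 1)
    intro σ
    simp only [Pi.mul_apply, abs_mul]
    have := abs_cyl_le A (ext A s) σ
    have := abs_cyl_le B (ext B t) σ
    nlinarith [abs_nonneg (cyl A (ext A s) σ), abs_nonneg (cyl B (ext B t) σ)]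
  rw [integral_congr_ae (Filter.Eventually.of_forall eFH), integral_finsetSum]
  · have : ∀ s : A → Bool, ∫ σ, ∑ t : B → Bool,
        (F (ext A s) * H (ext B t)) * (cyl A (ext A s) σ * cyl B (ext B t) σ) ∂μ
        = ∑ t : B → Bool, (F (ext A s) * H (ext B t)) *
          ((1 + θ * sp (ext A s a) * sp (ext B t b)) *
          (PD G θ A (ext A s) * PD G θ B (ext B t))) := by
      intro s
      rw [integral_finsetSum _ fun t _ => icc s t]
      apply Finset.sum_congr rfl
      intro t _
      rw [integral_const_mul, hcyl s t]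
    rw [Finset.sum_congr rfl fun s _ => this s, Finset.sum_mul_sum, Finset.sum_mul_sum,
      Finset.mul_sum, ← Finset.sum_add_distrib]
    apply Finset.sum_congr rfl; intro s _
    rw [Finset.mul_sum, ← Finset.sum_add_distrib]
    apply Finset.sum_congr rfl; intro t _
    ring
  · intro s _
    exact integrable_finsetSum _ fun t _ => icc s t

lemma exists_conn (hG : G.IsTree) {a b : V} (hab : G.Adj a b) (S : Finset V)
    (hS : ∀ u ∈ S, u ∈ side G a b) : ∃ A : Finset V, S ⊆ A ∧ a ∈ A ∧
      (∀ u ∈ A, u ∈ side G a b) ∧ (G.induce (A : Set V)).Connected := by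
  classical
  induction S using Finset.induction_on with
  | empty =>
    refine ⟨{a}, by simp, by simp, ?_, ?_⟩
    · intro u hu
      rw [Finset.mem_singleton] at hu
      subst hu
      exact self_mem_side hab
    · have h := (SimpleGraph.Walk.nil : G.Walk a a).connected_induce_support
      have e : {v | v ∈ (SimpleGraph.Walk.nil : G.Walk a a).support} = ((({a} : Finset V)) : Set V) := by
        ext v; simp
      rw [e] at h
      exact h
  | insert s S _ ih =>
    obtain ⟨A, hSA, haA, hA, hAc⟩ := ih fun u hu => hS u (Finset.mem_insert_of_mem hu)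
    obtain ⟨p, hp⟩ := hG.connected.exists_walk_length_eq_dist s a
    have hs := hS s (Finset.mem_insert_self _ _)
    refine ⟨A ∪ p.support.toFinset, ?_, Finset.mem_union_left _ haA, ?_, ?_⟩
    · intro u hu
      rcases Finset.mem_insert.1 hu with rfl | hu
      · exact Finset.mem_union_right _ (by simp)
      · exact Finset.mem_union_left _ (hSA hu)
    · intro u hu
      rcases Finset.mem_union.1 hu with hu | hu
      · exact hA u hu
      · rw [List.mem_toFinset] at hu
        have h1 := dist_add_le_of_mem_support p hp hu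
        rcases mem_side_or hG hab u with h2 | h2
        · exact h2
        · exfalso
          have h3 : G.dist a u = G.dist b u + 1 := h2
          have h4 : G.dist b s = G.dist a s + 1 := hs
          have h5 := hG.connected.dist_triangle (u := b) (v := u) (w := s)
          rw [G.dist_comm (u := s) (v := u), G.dist_comm (u := u) (v := a),
            G.dist_comm (u := s) (v := a)] at h1
          omega
    · rw [Finset.coe_union]
      have h := p.connected_induce_support
      have e : {v | v ∈ p.support} = (p.support.toFinset : Set V) := by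
        ext v; simp
      rw [e] at h
      apply SimpleGraph.induce_union_connected hAc.preconnected h.preconnected
      exact ⟨a, haA, by simp⟩

lemma tilt_congr {S : Finset V} {g : V → Bool → ℝ} {σ σ' : V → Bool} (h : ∀ v ∈ S, σ v = σ' v) :
    tilt S g σ = tilt S g σ' := by
  unfold tilt
  exact Finset.prod_congr rfl fun v hv => by rw [h v hv]

lemma tilt_pos {S : Finset V} {g : V → Bool → ℝ} (hg : ∀ v b, 0 < g v b) (σ : V → Bool) :
    0 < tilt S g σ := Finset.prod_pos fun v _ => hg v _

lemma measurable_tilt (S : Finset V) (g : V → Bool → ℝ) : Measurable (tilt S g) := by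
  unfold tilt
  refine Finset.measurable_fun_prod _ fun u _ => ?_
  exact (measurable_of_countable (g u)).comp (measurable_pi_apply u)

lemma tilt_bdd (S : Finset V) (g : V → Bool → ℝ) : ∃ B : ℝ, ∀ σ, |tilt S g σ| ≤ B := by
  refine ⟨∏ u ∈ S, (|g u true| + |g u false|), fun σ => ?_⟩
  unfold tilt
  rw [Finset.abs_prod]
  apply Finset.prod_le_prod
  · intro u _; exact abs_nonneg _
  · intro u _
    cases σ u
    · linarith [abs_nonneg (g u true)]
    · linarith [abs_nonneg (g u false)]

lemma integrable_tilt {μ : Measure (V → Bool)} [IsProbabilityMeasure μ] (S : Finset V)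
    (g : V → Bool → ℝ) {f : (V → Bool) → ℝ} (hf : Measurable f) (hb : ∀ σ, |f σ| ≤ 1) :
    Integrable (fun σ => f σ * tilt S g σ) μ := by
  obtain ⟨B, hB⟩ := tilt_bdd S g
  apply integrable_of_bdd (hf.mul (measurable_tilt S g)) (B := B)
  intro σ
  simp only [Pi.mul_apply, abs_mul]
  have := hb σ
  nlinarith [abs_nonneg (f σ), abs_nonneg (tilt S g σ), hB σ]

/-- the abstract algebra behind one step -/
lemma step_alg {θ t αp αm Ap Am Bp Bm : ℝ} (h0 : 0 ≤ θ) (h1 : θ < 1) (hαp : 0 ≤ αp)
    (hαm : 0 ≤ αm) (ht : 0 ≤ t)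
    (h : |Ap * Bm - Am * Bp| ≤ 2 * t * (Bp * Bm)) :
    |(αp * ((Ap + Am) + θ * (Ap - Am))) * (αm * ((Bp + Bm) - θ * (Bp - Bm)))
      - (αm * ((Ap + Am) - θ * (Ap - Am))) * (αp * ((Bp + Bm) + θ * (Bp - Bm)))|
    ≤ 2 * (t * θ) * ((αp * ((Bp + Bm) + θ * (Bp - Bm))) * (αm * ((Bp + Bm) - θ * (Bp - Bm)))) := by
  have e1 : (αp * ((Ap + Am) + θ * (Ap - Am))) * (αm * ((Bp + Bm) - θ * (Bp - Bm)))
      - (αm * ((Ap + Am) - θ * (Ap - Am))) * (αp * ((Bp + Bm) + θ * (Bp - Bm)))
      = (4 * θ * (αp * αm)) * (Ap * Bm - Am * Bp) * (-1) * (-1) := by ring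
  have e2 : 4 * (αp * αm) * (Bp * Bm)
      ≤ (αp * ((Bp + Bm) + θ * (Bp - Bm))) * (αm * ((Bp + Bm) - θ * (Bp - Bm))) := by
    have e3 : (αp * ((Bp + Bm) + θ * (Bp - Bm))) * (αm * ((Bp + Bm) - θ * (Bp - Bm)))
        - 4 * (αp * αm) * (Bp * Bm) = (αp * αm) * ((1 - θ ^ 2) * (Bp - Bm) ^ 2) := by ring
    have e4 : 0 ≤ (αp * αm) * ((1 - θ ^ 2) * (Bp - Bm) ^ 2) := by
      apply mul_nonneg (mul_nonneg hαp hαm)
      apply mul_nonneg _ (sq_nonneg _)
      nlinarith
    linarith
  rw [e1]
  simp only [mul_neg, mul_one, neg_neg]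
  have h4 : 0 ≤ 4 * θ * (αp * αm) := by positivity
  rw [abs_mul, abs_of_nonneg h4]
  calc 4 * θ * (αp * αm) * |Ap * Bm - Am * Bp|
      ≤ 4 * θ * (αp * αm) * (2 * t * (Bp * Bm)) := mul_le_mul_of_nonneg_left h h4
    _ = 2 * (t * θ) * (4 * (αp * αm) * (Bp * Bm)) := by ring
    _ ≤ _ := mul_le_mul_of_nonneg_left e2 (by positivity)

lemma sp_ind (b c : Bool) : sp c * ind b c = sp b * ind b c := by
  cases b <;> cases c <;> simp [ind]

lemma sp_eq (c : Bool) : sp c = ind true c - ind false c := by
  cases c <;> simp [ind, sp]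

theorem infBound_aux {μ : Measure (V → Bool)} [IsProbabilityMeasure μ] (hG : G.IsTree)
    (h0 : 0 ≤ θ) (h1 : θ < 1) (h : IsFreeIsing G θ μ) (n : ℕ) :
    ∀ (S : Finset V) (g : V → Bool → ℝ), (∀ v b, 0 < g v b) → ∀ v w : V, G.dist w v = n →
    |(∫ σ, sp (σ v) * tilt S g σ * ind true (σ w) ∂μ) * (∫ σ, tilt S g σ * ind false (σ w) ∂μ)
      - (∫ σ, sp (σ v) * tilt S g σ * ind false (σ w) ∂μ) * (∫ σ, tilt S g σ * ind true (σ w) ∂μ)|
    ≤ 2 * θ ^ n * ((∫ σ, tilt S g σ * ind true (σ w) ∂μ) *
      (∫ σ, tilt S g σ * ind false (σ w) ∂μ)) := by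
  classical
  have hBnn : ∀ (S : Finset V) (g : V → Bool → ℝ), (∀ v b, 0 < g v b) → ∀ (b : Bool) (w : V),
      0 ≤ ∫ σ, tilt S g σ * ind b (σ w) ∂μ := fun S g hg b w =>
    integral_nonneg fun σ => mul_nonneg (tilt_pos hg σ).le (ind_nonneg _ _)
  induction n with
  | zero =>
    intro S g hg v w hvw
    rw [hG.connected.dist_eq_zero_iff] at hvw
    subst hvw
    have e : ∀ b, ∫ σ, sp (σ w) * tilt S g σ * ind b (σ w) ∂μ
        = sp b * ∫ σ, tilt S g σ * ind b (σ w) ∂μ := by
      intro b
      rw [← integral_const_mul]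
      congr 1
      funext σ
      rw [mul_right_comm, sp_ind]
      ring
    rw [e, e]
    have p1 := hBnn S g hg true w
    have p2 := hBnn S g hg false w
    set x := ∫ σ, tilt S g σ * ind true (σ w) ∂μ
    set y := ∫ σ, tilt S g σ * ind false (σ w) ∂μ
    have : sp true * x * y - sp false * y * x = 2 * (x * y) := by
      simp only [sp, if_true, Bool.false_eq_true, if_false]; ring
    rw [this, pow_zero, mul_one, abs_of_nonneg (by positivity)]
  | succ n ih =>
    intro S g hg v w hvw
    obtain ⟨y, hwy, hyv⟩ := exists_closer hG.connected hvw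
    have hvy : v ∈ side G y w := by
      change G.dist w v = G.dist y v + 1
      omega
    set Sw := S.filter fun u => u ∈ side G w y with hSw
    set Sy := S.filter fun u => ¬ u ∈ side G w y with hSy
    have htilt : ∀ σ, tilt S g σ = tilt Sw g σ * tilt Sy g σ := by
      intro σ
      unfold tilt
      rw [hSw, hSy, Finset.prod_filter_mul_prod_filter_not]
    obtain ⟨A, hSA, hwA, hA, hAc⟩ := exists_conn hG hwy Sw fun u hu => (Finset.mem_filter.1 hu).2
    obtain ⟨B, hSB, hyB, hB, hBc⟩ := exists_conn hG hwy.symm (insert v Sy) (by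
      intro u hu
      rcases Finset.mem_insert.1 hu with rfl | hu
      · exact hvy
      · have h2 := (Finset.mem_filter.1 hu).2
        rcases mem_side_or hG hwy u with h3 | h3
        · exact absurd h3 h2
        · exact h3)
    have hvB : v ∈ B := hSB (Finset.mem_insert_self _ _)
    have hSyB : ∀ u ∈ Sy, u ∈ B := fun u hu => hSB (Finset.mem_insert_of_mem hu)
    -- the measure of the factors
    set α : Bool → ℝ := fun b => ∫ σ, tilt Sw g σ * ind b (σ w) ∂μ with hα
    have hαF : ∀ b, ∀ σ σ' : V → Bool, (∀ u ∈ A, σ u = σ' u) →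
        tilt Sw g σ * ind b (σ w) = tilt Sw g σ' * ind b (σ' w) := by
      intro b σ σ' hσ
      rw [tilt_congr fun u hu => hσ u (hSA hu), hσ w hwA]
    have hFsp : ∀ b, ∫ σ, tilt Sw g σ * ind b (σ w) * sp (σ w) ∂μ = sp b * α b := by
      intro b
      rw [hα, ← integral_const_mul]
      congr 1
      funext σ
      have := sp_ind b (σ w)
      calc tilt Sw g σ * ind b (σ w) * sp (σ w) = tilt Sw g σ * (sp (σ w) * ind b (σ w)) := by ring
        _ = _ := by rw [this]; ring
    -- one step for a function of the other side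
    have hstep : ∀ (f : V → Bool → ℝ) (b : Bool) (H : (V → Bool) → ℝ), Measurable H →
        (∀ σ, |H σ| ≤ 1) → (∀ σ σ' : V → Bool, (∀ u ∈ B, σ u = σ' u) → H σ = H σ') →
        ∫ σ, H σ * tilt S g σ * ind b (σ w) ∂μ
          = α b * (((∫ σ, H σ * tilt Sy g σ * ind true (σ y) ∂μ)
            + (∫ σ, H σ * tilt Sy g σ * ind false (σ y) ∂μ))
            + θ * sp b * ((∫ σ, H σ * tilt Sy g σ * ind true (σ y) ∂μ)
            - (∫ σ, H σ * tilt Sy g σ * ind false (σ y) ∂μ))) := by
      intro _ b H hHm hHb hHB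
      have hHc : ∀ σ σ' : V → Bool, (∀ u ∈ B, σ u = σ' u) →
          H σ * tilt Sy g σ = H σ' * tilt Sy g σ' := by
        intro σ σ' hσ
        rw [hHB σ σ' hσ, tilt_congr fun u hu => hσ u (hSyB u hu)]
      have hm := markov hG h h0 h1.le hwy hA hB hwA hyB hAc hBc (hαF b) hHc
      have ii : ∀ c, Integrable (fun σ => H σ * tilt Sy g σ * ind c (σ y)) μ := by
        intro c
        have hmm : Measurable fun σ : V → Bool => H σ * ind c (σ y) :=
          hHm.mul ((measurable_ind c).comp (measurable_pi_apply y))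
        have := integrable_tilt (μ := μ) Sy g hmm (fun σ => by
          rw [abs_mul]
          nlinarith [hHb σ, ind_bound c (σ y), abs_nonneg (H σ), abs_nonneg (ind c (σ y))])
        refine this.congr (Filter.Eventually.of_forall fun σ => ?_)
        simp only
        ring
      have e1 : ∫ σ, H σ * tilt Sy g σ ∂μ = (∫ σ, H σ * tilt Sy g σ * ind true (σ y) ∂μ)
            + (∫ σ, H σ * tilt Sy g σ * ind false (σ y) ∂μ) := by
        rw [← integral_add (ii true) (ii false)]
        congr 1
        funext σ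
        rw [← mul_add, ind_add, mul_one]
      have e2 : ∫ σ, sp (σ y) * (H σ * tilt Sy g σ) ∂μ
          = (∫ σ, H σ * tilt Sy g σ * ind true (σ y) ∂μ)
            - (∫ σ, H σ * tilt Sy g σ * ind false (σ y) ∂μ) := by
        rw [← integral_sub (ii true) (ii false)]
        congr 1
        funext σ
        rw [sp_eq]
        ring
      have e3 : ∫ σ, H σ * tilt S g σ * ind b (σ w) ∂μ
          = ∫ σ, (tilt Sw g σ * ind b (σ w)) * (H σ * tilt Sy g σ) ∂μ := by
        congr 1
        funext σ
        rw [htilt]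
        ring
      rw [e3, hm, hFsp b, e1, e2]
      ring
    have hv1 : ∀ b, ∫ σ, sp (σ v) * tilt S g σ * ind b (σ w) ∂μ
        = α b * (((∫ σ, sp (σ v) * tilt Sy g σ * ind true (σ y) ∂μ)
            + (∫ σ, sp (σ v) * tilt Sy g σ * ind false (σ y) ∂μ))
            + θ * sp b * ((∫ σ, sp (σ v) * tilt Sy g σ * ind true (σ y) ∂μ)
            - (∫ σ, sp (σ v) * tilt Sy g σ * ind false (σ y) ∂μ))) := by
      intro b
      exact hstep g b (fun σ => sp (σ v)) (measurable_sp_comp (measurable_pi_apply v))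
        (fun σ => (abs_sp _).le) (fun σ σ' hσ => by rw [hσ v hvB])
    have hv2 : ∀ b, ∫ σ, tilt S g σ * ind b (σ w) ∂μ
        = α b * (((∫ σ, tilt Sy g σ * ind true (σ y) ∂μ)
            + (∫ σ, tilt Sy g σ * ind false (σ y) ∂μ))
            + θ * sp b * ((∫ σ, tilt Sy g σ * ind true (σ y) ∂μ)
            - (∫ σ, tilt Sy g σ * ind false (σ y) ∂μ))) := by
      intro b
      have := hstep g b (fun _ => 1) measurable_const (fun σ => by simp) (fun _ _ _ => rfl)
      simpa only [one_mul] using this
    have hih := ih Sy g hg v y (by rw [← hyv])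
    have hsα := step_alg (t := θ ^ n) h0 h1 (αp := α true) (αm := α false)
      (hBnn Sw g hg true w) (hBnn Sw g hg false w) (by positivity) hih
    rw [hv1, hv1, hv2, hv2]
    simp only [sp, if_true, Bool.false_eq_true, if_false, mul_one, mul_neg, neg_mul,
      ← sub_eq_add_neg]
    rw [pow_succ]
    exact hsα

theorem infBound (hG : G.IsTree) (h0 : 0 ≤ θ)
    (h1 : θ < 1) {μ : Measure (V → Bool)} (h : IsFreeIsing G θ μ) :
    InfBound μ (fun v w => θ ^ (G.dist v w)) := by
  intro S g hg v w
  have : Nonempty V := ⟨v⟩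
  have := isProb_of_isFreeIsing h
  have := infBound_aux hG h0 h1 h (G.dist w v) S g hg v w rfl
  rw [G.dist_comm (u := w) (v := v)] at this
  exact this

end Vale.Agent.P161
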