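import Vale.Agent.P161.Core
import Vale.Agent.P161.IsingInf

/-!
# The free Ising measure on the `d`-regular tree is a factor of IID below `(d-1)^{-1/2}`
-/

namespace Vale.Agent.P161

open MeasureTheory

universe u

theorem isFactorOfIID_of_lt {d : ℕ} (hd : 3 ≤ d) {V : Type u} {G : SimpleGraph V}
    (hG : G.IsTree) (hreg : ∀ v, (G.neighborSet v).ncard = d) {θ : ℝ} (h0 : 0 ≤ θ)
    (hθ : θ < 1 / √((d : ℝ) - 1)) {μ : Measure (V → Bool)} (h : IsFreeIsing G θ μ) :
    IsFactorOfIID G μ := by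
  have hd' : (3 : ℝ) ≤ d := by exact_mod_cast hd
  have hs1 : 0 < √((d : ℝ) - 1) := Real.sqrt_pos.2 (by linarith)
  have hs2 : 1 < √((d : ℝ) - 1) := by
    rw [Real.lt_sqrt (by norm_num)]
    linarith
  obtain ⟨θ₁, hθ1, hθ2⟩ := exists_between hθ
  have h1 : θ < 1 := by
    refine hθ.trans ?_
    rw [div_lt_one hs1]
    exact hs2
  have hθ10 : 0 < θ₁ := lt_of_le_of_lt h0 hθ1
  have hθ3 : θ₁ ^ 2 * ((d : ℝ) - 1) < 1 := by
    have h3 : θ₁ * √((d : ℝ) - 1) < 1 := by
      rwa [lt_div_iff₀ hs1] at hθ2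
    have h4 : (θ₁ * √((d : ℝ) - 1)) ^ 2 < 1 := by
      have : 0 ≤ θ₁ * √((d : ℝ) - 1) := by positivity
      nlinarith
    rwa [mul_pow, Real.sq_sqrt (by linarith)] at h4
  have hc : Countable V := countable_tree hG.connected (by omega) hreg
  have hne : Nonempty V := hG.connected.nonempty
  have hp := isProb_of_isFreeIsing h
  obtain ⟨C, _, hC⟩ := conv_le hG (by omega) hreg h0 hθ1 hθ3
  obtain ⟨Φ, hΦm, hΦ, hΦe⟩ := core μ (fun v w => θ ^ (G.dist v w)) (fun v w => θ₁ ^ (G.dist v w)) C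
    (fun v w => by positivity) (fun v w => by positivity) (fun v => by simp)
    hC (summable_sq hG (by omega) hreg hθ10.le hθ3) (infBound hG h0 h1 h)
  refine ⟨Φ, hΦm, hΦ, fun g => ?_⟩
  exact hΦe g.toEquiv (isFreeIsing_unique hG.connected h0 h1.le (isFreeIsing_map h g) h)

end Vale.Agent.P161
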