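import Vale.Agent.P161.Tree

/-!
# Package B: the free Ising measure (existence, uniqueness, invariance)
-/

namespace Vale.Agent.P161

open MeasureTheory

universe u

/-! ### Cylinder events -/

theorem measurableSet_cyl {V : Type u} (D : Finset V) (η : V → Bool) :
    MeasurableSet {σ : V → Bool | ∀ v ∈ D, σ v = η v} := by
  have : {σ : V → Bool | ∀ v ∈ D, σ v = η v} = ⋂ v ∈ D, (fun σ => σ v) ⁻¹' {η v} := by
    ext σ; simp
  rw [this]
  exact Finset.measurableSet_biInter _ (fun v _ => measurable_pi_apply v (measurableSet_singleton _))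

theorem connected_induce_singleton {V : Type u} {G : SimpleGraph V} (v : V) :
    (G.induce ((({v} : Finset V) : Finset V) : Set V)).Connected := by
  rw [Finset.coe_singleton]
  have : Nonempty ({v} : Set V) := ⟨⟨v, rfl⟩⟩
  have : Subsingleton ({v} : Set V) := Set.subsingleton_coe _ |>.mpr Set.subsingleton_singleton
  exact SimpleGraph.Connected.of_subsingleton

theorem measure_site_of_isFreeIsing {V : Type u} {G : SimpleGraph V} {θ : ℝ}
    {μ : Measure (V → Bool)} (h : IsFreeIsing G θ μ) (v : V) (b : Bool) :
    μ {σ | σ v = b} = ENNReal.ofReal (1 / 2) := by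
  classical
  have := h {v} (connected_induce_singleton v) (fun _ => b)
  rw [show {σ : V → Bool | ∀ w ∈ ({v} : Finset V), σ w = (fun _ => b) w} = {σ | σ v = b} by
    ext σ; simp] at this
  rw [this]
  congr 1
  rw [Finset.prod_eq_one, mul_one]
  intro e he
  exfalso
  rw [Finset.mem_filter] at he
  obtain ⟨h1, h2⟩ := he
  rw [Finset.sym2_singleton, Finset.mem_singleton] at h1
  subst h1
  exact G.loopless.irrefl v h2

theorem isProb_of_isFreeIsing {V : Type u} [Nonempty V] {G : SimpleGraph V} {θ : ℝ}
    {μ : Measure (V → Bool)} (h : IsFreeIsing G θ μ) : IsProbabilityMeasure μ := by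
  obtain ⟨v⟩ := ‹Nonempty V›
  constructor
  have hm : MeasurableSet {σ : V → Bool | σ v = true} := by
    have := (measurable_pi_apply (X := fun _ : V => Bool) v) (measurableSet_singleton true)
    exact this
  rw [← measure_add_measure_compl hm]
  have hc : {σ : V → Bool | σ v = true}ᶜ = {σ | σ v = false} := by
    ext σ; simp
  rw [hc, measure_site_of_isFreeIsing h, measure_site_of_isFreeIsing h,
    ← ENNReal.ofReal_add (by norm_num) (by norm_num)]
  norm_num

theorem isFreeIsing_unique {V : Type u} {G : SimpleGraph V} (hG : G.Connected) {θ : ℝ}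
    {μ μ' : Measure (V → Bool)} (h : IsFreeIsing G θ μ) (h' : IsFreeIsing G θ μ') : μ = μ' := by
  classical
  have : Nonempty V := hG.nonempty
  have := isProb_of_isFreeIsing h
  have := isProb_of_isFreeIsing h'
  -- on connected sets
  have hD : ∀ D : Finset V, (G.induce (D : Set V)).Connected →
      μ.map D.restrict = μ'.map D.restrict := by
    intro D hD
    have hmeas : Measurable (D.restrict : (V → Bool) → (D → Bool)) :=
      Finset.measurable_restrict D
    apply Measure.ext_of_singleton
    intro x
    rw [Measure.map_apply hmeas (measurableSet_singleton _),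
      Measure.map_apply hmeas (measurableSet_singleton _)]
    set η : V → Bool := fun v => if hv : v ∈ D then x ⟨v, hv⟩ else false with hη
    have hset : (D.restrict : (V → Bool) → (D → Bool)) ⁻¹' {x} = {σ | ∀ v ∈ D, σ v = η v} := by
      ext σ
      simp only [Set.mem_preimage, Set.mem_singleton_iff, Set.mem_ofPred_eq]
      constructor
      · intro h1 v hv
        subst h1
        simp [hη, hv]
      · intro h1
        funext ⟨v, hv⟩
        have := h1 v hv
        simp only [hη, hv, dif_pos] at this
        simpa using this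
    rw [hset, h D hD η, h' D hD η]
  have hI : ∀ I : Finset V, μ.map I.restrict = μ'.map I.restrict := by
    intro I
    by_cases hne : I.Nonempty
    · obtain ⟨D, hID, hDc⟩ := SimpleGraph.extend_finset_to_connected hG.preconnected hne
      have e1 : (I.restrict : (V → Bool) → (I → Bool)) =
          (Finset.restrict₂ hID) ∘ (D.restrict) := rfl
      rw [e1, ← Measure.map_map (Finset.measurable_restrict₂ hID) (Finset.measurable_restrict D),
        ← Measure.map_map (Finset.measurable_restrict₂ hID) (Finset.measurable_restrict D), hD D hDc]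
    · obtain ⟨v⟩ := ‹Nonempty V›
      rw [Finset.not_nonempty_iff_eq_empty] at hne
      subst hne
      have e1 : ((∅ : Finset V).restrict : (V → Bool) → ((∅ : Finset V) → Bool)) =
          (Finset.restrict₂ (Finset.empty_subset {v})) ∘ (({v} : Finset V).restrict) := rfl
      rw [e1, ← Measure.map_map (Finset.measurable_restrict₂ _) (Finset.measurable_restrict {v}),
        ← Measure.map_map (Finset.measurable_restrict₂ _) (Finset.measurable_restrict {v}),
        hD {v} (connected_induce_singleton v)]
  have p1 : IsProjectiveLimit μ (fun I : Finset V => μ'.map I.restrict) := fun I => hI I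
  have p2 : IsProjectiveLimit μ' (fun I : Finset V => μ'.map I.restrict) := fun I => rfl
  have : ∀ I : Finset V, IsFiniteMeasure (μ'.map I.restrict) := fun I => inferInstance
  exact p1.unique p2

theorem isFreeIsing_map {V : Type u} {G : SimpleGraph V} {θ : ℝ}
    {μ : Measure (V → Bool)} (h : IsFreeIsing G θ μ) (g : G ≃g G) :
    IsFreeIsing G θ (μ.map fun σ v => σ (g.symm v)) := by
  classical
  intro D hD η
  have hmeas : Measurable (fun (σ : V → Bool) v => σ (g.symm v)) :=
    measurable_pi_lambda _ (fun v => measurable_pi_apply _)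
  rw [Measure.map_apply hmeas (measurableSet_cyl D η)]
  set D' : Finset V := D.map g.symm.toEquiv.toEmbedding with hD'
  have hmem : ∀ w, w ∈ D' ↔ g w ∈ D := by
    intro w
    rw [hD', Finset.mem_map]
    constructor
    · rintro ⟨v, hv, rfl⟩
      simpa using hv
    · intro hw
      exact ⟨g w, hw, by simp⟩
  have hset : (fun (σ : V → Bool) v => σ (g.symm v)) ⁻¹' {σ | ∀ v ∈ D, σ v = η v} =
      {σ | ∀ w ∈ D', σ w = (fun w => η (g w)) w} := by
    ext σ
    simp only [Set.mem_preimage, Set.mem_ofPred_eq]
    constructor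
    · intro h1 w hw
      have := h1 (g w) ((hmem w).mp hw)
      simpa using this
    · intro h1 v hv
      have := h1 (g.symm v) ((hmem _).mpr (by simpa using hv))
      simpa using this
  have hconn : (G.induce (D' : Set V)).Connected := by
    have e : G.induce (D' : Set V) ≃g G.induce (D : Set V) :=
      { toFun := fun x => ⟨g x.1, (hmem _).mp x.2⟩
        invFun := fun x => ⟨g.symm x.1, (hmem _).mpr (by simpa using x.2)⟩
        left_inv := fun x => by simp
        right_inv := fun x => by simp
        map_rel_iff' := by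
          intro a b
          exact g.map_adj_iff }
    exact e.connected_iff.mpr hD
  rw [hset, h D' hconn]
  congr 2
  symm
  apply Finset.prod_nbij' (Sym2.map g.symm) (Sym2.map g)
  · intro e
    induction e using Sym2.ind with
    | _ a b =>
      simp only [Finset.mem_filter, Finset.mk_mem_sym2_iff, Sym2.map_mk, SimpleGraph.mem_edgeSet,
        hmem]
      rintro ⟨⟨h1, h2⟩, h3⟩
      refine ⟨⟨by simpa using h1, by simpa using h2⟩, ?_⟩
      rwa [g.symm.map_adj_iff]
  · intro e
    induction e using Sym2.ind with
    | _ a b =>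
      simp only [Finset.mem_filter, Finset.mk_mem_sym2_iff, Sym2.map_mk, SimpleGraph.mem_edgeSet,
        hmem]
      rintro ⟨⟨h1, h2⟩, h3⟩
      refine ⟨⟨h1, h2⟩, ?_⟩
      rwa [g.map_adj_iff]
  · intro e _
    induction e using Sym2.ind with
    | _ a b => simp
  · intro e _
    induction e using Sym2.ind with
    | _ a b => simp
  · intro e _
    induction e using Sym2.ind with
    | _ a b =>
      simp [edgeWt]

/-! ### Existence -/

section Exists

variable {V : Type u} {G : SimpleGraph V}

theorem exists_parent (hG : G.IsTree) (r : V) :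
    ∃ p : V → V, ∀ v, v ≠ r → G.Adj v (p v) ∧ G.dist r v = G.dist r (p v) + 1 := by
  have : ∀ v, ∃ w, v ≠ r → G.Adj v w ∧ G.dist r v = G.dist r w + 1 := by
    intro v
    by_cases hv : v = r
    · exact ⟨v, fun h => absurd hv h⟩
    · have hpos : G.dist v r ≠ 0 := fun h => hv (hG.connected.dist_eq_zero_iff.mp h)
      obtain ⟨n, hn⟩ := Nat.exists_eq_succ_of_ne_zero hpos
      obtain ⟨w, hw, hw'⟩ := exists_closer hG.connected hn
      exact ⟨w, fun _ => ⟨hw, by rw [G.dist_comm, hn, G.dist_comm (u := r), hw']⟩⟩
  choose p hp using this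
  exact ⟨p, hp⟩

theorem parent_unique (hG : G.IsTree) {r v w p : V} (h1 : G.Adj v p)
    (h2 : G.dist r v = G.dist r p + 1) (h3 : G.Adj v w) (h4 : G.dist r v = G.dist r w + 1) :
    w = p := by
  have h5 : G.dist v w = 1 := SimpleGraph.dist_eq_one_iff_adj.mpr h3
  rcases dist_split hG h1 w with h | h
  · have hr : G.dist v r = G.dist p r + 1 := by
      rw [G.dist_comm, h2, G.dist_comm (u := r)]
    have h6 := dist_cross hG h1 h hr
    rw [G.dist_comm (u := w), G.dist_comm (u := p) (v := r)] at h6
    omega
  · have : G.dist p w = 0 := by omega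
    exact (hG.connected.dist_eq_zero_iff.mp this).symm

/-- `D` is closed under parents, except at its top vertex `v0`. -/
def Top (G : SimpleGraph V) (r : V) (p : V → V) (D : Finset V) (v0 : V) : Prop :=
  v0 ∈ D ∧ (∀ v ∈ D, G.dist r v0 ≤ G.dist r v) ∧ ∀ v ∈ D, v ≠ v0 → v ≠ r ∧ p v ∈ D

theorem exists_top (hG : G.IsTree) {r : V} {p : V → V}
    (hp : ∀ v, v ≠ r → G.Adj v (p v) ∧ G.dist r v = G.dist r (p v) + 1)
    {D : Finset V} (hD : (G.induce (D : Set V)).Connected) : ∃ v0, Top G r p D v0 := by
  obtain ⟨⟨x, hx⟩⟩ := hD.nonempty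
  obtain ⟨v0, hv0, hmin⟩ := Finset.exists_min_image D (fun v => G.dist r v) ⟨x, hx⟩
  refine ⟨v0, hv0, hmin, ?_⟩
  intro v hv hne
  have hvr : v ≠ r := by
    rintro rfl
    have h1 := hmin v hv
    rw [SimpleGraph.dist_self, Nat.le_zero] at h1
    exact hne (hG.connected.dist_eq_zero_iff.mp h1)
  refine ⟨hvr, ?_⟩
  obtain ⟨hadj, hdist⟩ := hp v hvr
  by_contra hcon
  -- all vertices of `D` are on the `v`-side
  have hside : ∀ x y : (D : Set V), (G.induce (D : Set V)).Walk x y →
      G.dist (p v) x = G.dist v x + 1 → G.dist (p v) y = G.dist v y + 1 := by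
    intro x y w
    induction w with
    | nil => exact id
    | @cons a b c hab _ ih =>
      intro ha
      apply ih
      rcases dist_split hG hadj b.1 with h | h
      · exact h
      · exfalso
        have h1 := dist_cross hG hadj ha h
        have h2 : G.dist a.1 b.1 = 1 := SimpleGraph.dist_eq_one_iff_adj.mpr hab
        have h3 : G.dist (p v) b.1 = 0 := by omega
        have h4 := hG.connected.dist_eq_zero_iff.mp h3
        exact hcon (h4 ▸ b.2)
  obtain ⟨w⟩ := hD.preconnected ⟨v, hv⟩ ⟨v0, hv0⟩
  have h1 : G.dist (p v) v0 = G.dist v v0 + 1 := hside _ _ w (by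
    rw [SimpleGraph.dist_self]
    rw [SimpleGraph.dist_eq_one_iff_adj]
    exact hadj.symm)
  have hr : G.dist v r = G.dist (p v) r + 1 := by
    rw [G.dist_comm, hdist, G.dist_comm (u := r)]
  have h2 := dist_cross hG hadj h1 hr
  rw [G.dist_comm (u := v0), G.dist_comm (u := p v) (v := r)] at h2
  have h3 := hmin v hv
  have h4 : G.dist v v0 = 0 := by omega
  exact hne (hG.connected.dist_eq_zero_iff.mp h4)

open Classical in
theorem prod_edges (hG : G.IsTree) {r : V} {p : V → V}
    (hp : ∀ v, v ≠ r → G.Adj v (p v) ∧ G.dist r v = G.dist r (p v) + 1)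
    {D : Finset V} {v0 : V} (hT : Top G r p D v0) (f : Sym2 V → ℝ) :
    ∏ e ∈ D.sym2 with e ∈ G.edgeSet, f e = ∏ v ∈ D.erase v0, f s(v, p v) := by
  obtain ⟨h0, hmin, hcl⟩ := hT
  rw [← Finset.prod_image (s := D.erase v0) (g := fun v => s(v, p v)) (f := f)]
  · congr 1
    ext e
    induction e using Sym2.ind with
    | _ a b =>
      simp only [Finset.mem_filter, Finset.mk_mem_sym2_iff, SimpleGraph.mem_edgeSet,
        Finset.mem_image, Finset.mem_erase]
      constructor
      · rintro ⟨⟨ha, hb⟩, hab⟩
        rcases dist_split hG hab r with h | h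
        · rw [G.dist_comm, G.dist_comm (u := a)] at h
          have hb0 : b ≠ v0 := by
            rintro rfl
            have := hmin a ha
            omega
          have hbr := (hcl b hb hb0).1
          have := parent_unique hG (hp b hbr).1 (hp b hbr).2 hab.symm h
          exact ⟨b, ⟨hb0, hb⟩, by rw [← this, Sym2.eq_swap]⟩
        · rw [G.dist_comm, G.dist_comm (u := b)] at h
          have ha0 : a ≠ v0 := by
            rintro rfl
            have := hmin b hb
            omega
          have har := (hcl a ha ha0).1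
          have := parent_unique hG (hp a har).1 (hp a har).2 hab h
          exact ⟨a, ⟨ha0, ha⟩, by rw [← this]⟩
      · rintro ⟨v, ⟨hv0, hv⟩, he⟩
        have h1 := hcl v hv hv0
        have h2 := (hp v h1.1).1
        rw [Sym2.eq_iff] at he
        rcases he with ⟨rfl, rfl⟩ | ⟨rfl, rfl⟩
        · exact ⟨⟨hv, h1.2⟩, h2⟩
        · exact ⟨⟨h1.2, hv⟩, h2.symm⟩
  · intro v hv w hw he
    simp only [Finset.coe_erase, Set.mem_sdiff, Finset.mem_coe, Set.mem_singleton_iff] at hv hw
    have h1 := (hp v (hcl v hv.1 hv.2).1).2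
    have h2 := (hp w (hcl w hw.1 hw.2).1).2
    simp only at he
    rw [Sym2.eq_iff] at he
    rcases he with ⟨h, _⟩ | ⟨h, h'⟩
    · exact h
    · exfalso
      rw [← h] at h2
      rw [h'] at h1
      omega

/-- Bernoulli measure on `Bool`. -/
noncomputable def bern (t : ℝ) : Measure Bool :=
  ENNReal.ofReal t • Measure.dirac true + ENNReal.ofReal (1 - t) • Measure.dirac false

theorem bern_isProb {t : ℝ} (h0 : 0 ≤ t) (h1 : t ≤ 1) : IsProbabilityMeasure (bern t) := by
  constructor
  unfold bern
  simp only [Measure.coe_add, Measure.coe_smul, Pi.add_apply, Pi.smul_apply, measure_univ,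
    smul_eq_mul, mul_one]
  rw [← ENNReal.ofReal_add h0 (by linarith)]
  simp

theorem bern_singleton (θ : ℝ) (b : Bool) :
    bern ((1 + θ) / 2) {b} = ENNReal.ofReal ((1 + θ * sp b) / 2) := by
  unfold bern sp
  cases b
  · simp
    congr 1
    ring
  · simp

/-- the spins obtained from the edge variables -/
def spin (p : V → V) (ξ : V → Bool) : ℕ → V → Bool
  | 0 => ξ
  | n + 1 => fun v => ξ v == spin p ξ n (p v)

theorem measurable_spin (p : V → V) (n : ℕ) (v : V) :
    Measurable fun ξ : V → Bool => spin p ξ n v := by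
  induction n generalizing v with
  | zero => exact measurable_pi_apply v
  | succ n ih =>
    have h1 : Measurable fun ξ : V → Bool => (ξ v, spin p ξ n (p v)) :=
      (measurable_pi_apply v).prodMk (ih (p v))
    have h2 : Measurable fun x : Bool × Bool => (x.1 == x.2) := measurable_of_countable _
    exact h2.comp h1

/-- the spin configuration obtained from the edge variables -/
noncomputable def sig (G : SimpleGraph V) (r : V) (p : V → V) (ξ : V → Bool) (v : V) : Bool :=
  spin p ξ (G.dist r v) v

theorem sig_root (r : V) (p : V → V) (ξ : V → Bool) : sig G r p ξ r = ξ r := by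
  unfold sig
  rw [SimpleGraph.dist_self]
  rfl

theorem sig_step {r : V} {p : V → V}
    (hp : ∀ v, v ≠ r → G.Adj v (p v) ∧ G.dist r v = G.dist r (p v) + 1) (ξ : V → Bool) {v : V}
    (hv : v ≠ r) : sig G r p ξ v = (ξ v == sig G r p ξ (p v)) := by
  unfold sig
  rw [(hp v hv).2]
  rfl

theorem sp_beq (a b : Bool) : sp (a == b) = sp a * sp b := by
  unfold sp
  cases a <;> cases b <;> norm_num

theorem edgeWt_nonneg {θ : ℝ} (hθ : |θ| ≤ 1) (η : V → Bool) (e : Sym2 V) : 0 ≤ edgeWt θ η e := by
  induction e using Sym2.ind with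
  | _ a b =>
    obtain ⟨h1, h2⟩ := abs_le.mp hθ
    simp only [edgeWt, Sym2.lift_mk]
    unfold sp
    split_ifs <;> linarith

/-- the law of the edge variables -/
noncomputable def margin (r : V) (θ : ℝ) (v : V) : Measure Bool :=
  haveI := Classical.dec (v = r)
  if v = r then bern (1 / 2) else bern ((1 + θ) / 2)

theorem margin_isProb (r : V) {θ : ℝ} (hθ : |θ| ≤ 1) (v : V) :
    IsProbabilityMeasure (margin r θ v) := by
  obtain ⟨h1, h2⟩ := abs_le.mp hθ
  unfold margin
  split_ifs
  · exact bern_isProb (by norm_num) (by norm_num)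
  · exact bern_isProb (by linarith) (by linarith)

theorem sig_event {r : V} {p : V → V}
    (hp : ∀ v, v ≠ r → G.Adj v (p v) ∧ G.dist r v = G.dist r (p v) + 1)
    {D : Finset V} (hT : Top G r p D r) (η : V → Bool) (ζ : V → Bool) (hζr : ζ r = η r)
    (hζ : ∀ v, v ≠ r → ζ v = (η v == η (p v))) :
    {ξ : V → Bool | ∀ v ∈ D, sig G r p ξ v = η v} = Set.pi (D : Set V) (fun v => {ζ v}) := by
  ext ξ
  simp only [Set.mem_ofPred_eq, Set.mem_pi, Finset.mem_coe, Set.mem_singleton_iff]
  constructor
  · intro h v hv
    by_cases hvr : v = r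
    · subst hvr
      rw [hζr, ← h v hv, sig_root]
    · rw [hζ v hvr]
      have h1 := h v hv
      have h2 := h (p v) (hT.2.2 v hv hvr).2
      rw [sig_step hp ξ hvr, h2] at h1
      rw [← h1]
      cases ξ v <;> cases η (p v) <;> rfl
  · intro h
    have key : ∀ n, ∀ v ∈ D, G.dist r v = n → sig G r p ξ v = η v := by
      intro n
      induction n with
      | zero =>
        intro v hv hn
        by_cases hvr : v = r
        · subst hvr
          rw [sig_root, h v hv, hζr]
        · exact absurd (hp v hvr).2 (by omega)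
      | succ n ih =>
        intro v hv hn
        by_cases hvr : v = r
        · subst hvr
          rw [sig_root, h v hv, hζr]
        · have h2 := (hp v hvr).2
          rw [sig_step hp ξ hvr, ih (p v) (hT.2.2 v hv hvr).2 (by omega), h v hv, hζ v hvr]
          cases η v <;> cases η (p v) <;> rfl
    intro v hv
    exact key _ v hv rfl

open Classical in
theorem measure_top_zero {r : V} {p : V → V}
    (hp : ∀ v, v ≠ r → G.Adj v (p v) ∧ G.dist r v = G.dist r (p v) + 1) {θ : ℝ} (hθ : |θ| ≤ 1)
    {D : Finset V} (hT : Top G r p D r) (η : V → Bool) :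
    Measure.infinitePi (margin r θ) {ξ | ∀ v ∈ D, sig G r p ξ v = η v} =
      ENNReal.ofReal (1 / 2 * ∏ v ∈ D.erase r, edgeWt θ η s(v, p v)) := by
  have : ∀ v, IsProbabilityMeasure (margin r θ v) := margin_isProb r hθ
  set ζ : V → Bool := fun v => if v = r then η r else (η v == η (p v)) with hζ
  have h1 : ζ r = η r := by simp [hζ]
  have h2 : ∀ v, v ≠ r → ζ v = (η v == η (p v)) := by
    intro v hv
    simp [hζ, hv]
  rw [sig_event hp hT η ζ h1 h2,
    Measure.infinitePi_pi (μ := margin r θ) (fun i _ => measurableSet_singleton _),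
    ← Finset.mul_prod_erase D _ hT.1, ENNReal.ofReal_mul (by norm_num),
    ENNReal.ofReal_prod_of_nonneg (fun e _ => edgeWt_nonneg hθ η _)]
  congr 1
  · unfold margin
    rw [if_pos rfl]
    have := bern_singleton 0 (ζ r)
    simpa using this
  · apply Finset.prod_congr rfl
    intro v hv
    have hvr := (Finset.mem_erase.mp hv).1
    unfold margin
    rw [if_neg hvr, bern_singleton, h2 v hvr, sp_beq]
    simp only [edgeWt, Sym2.lift_mk, mul_assoc]

open Classical in
theorem measure_top {r : V} {p : V → V} 
    (hp : ∀ v, v ≠ r → G.Adj v (p v) ∧ G.dist r v = G.dist r (p v) + 1) {θ : ℝ} (hθ : |θ| ≤ 1)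
    (hG : G.Connected) (n : ℕ) :
    ∀ (D : Finset V) (v0 : V), Top G r p D v0 → G.dist r v0 = n → ∀ η : V → Bool,
    Measure.infinitePi (margin r θ) {ξ | ∀ v ∈ D, sig G r p ξ v = η v} =
      ENNReal.ofReal (1 / 2 * ∏ v ∈ D.erase v0, edgeWt θ η s(v, p v)) := by
  have : ∀ v, IsProbabilityMeasure (margin r θ v) := margin_isProb r hθ
  induction n with
  | zero =>
    intro D v0 hT hn η
    have : r = v0 := hG.dist_eq_zero_iff.mp hn
    subst this
    exact measure_top_zero hp hθ hT η
  | succ n ih =>
    intro D v0 hT hn η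
    have hv0r : v0 ≠ r := by
      rintro rfl
      rw [SimpleGraph.dist_self] at hn
      omega
    obtain ⟨hadj, hdist⟩ := hp v0 hv0r
    set q := p v0 with hq
    have hqn : G.dist r q = n := by omega
    have hqD : q ∉ D := by
      intro h
      have := hT.2.1 q h
      omega
    have hT' : Top G r p (insert q D) q := by
      refine ⟨Finset.mem_insert_self _ _, ?_, ?_⟩
      · intro v hv
        rw [Finset.mem_insert] at hv
        rcases hv with rfl | hv
        · exact le_rfl
        · have := hT.2.1 v hv
          omega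
      · intro v hv hne
        rw [Finset.mem_insert] at hv
        rcases hv with rfl | hv
        · exact absurd rfl hne
        · by_cases hv0 : v = v0
          · subst hv0
            exact ⟨hv0r, Finset.mem_insert_self _ _⟩
          · exact ⟨(hT.2.2 v hv hv0).1, Finset.mem_insert_of_mem (hT.2.2 v hv hv0).2⟩
    have hmeas : ∀ v b, MeasurableSet {ξ : V → Bool | sig G r p ξ v = b} := by
      intro v b
      exact measurable_spin p (G.dist r v) v (measurableSet_singleton b)
    have hone : ∀ b : Bool, Measure.infinitePi (margin r θ)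
        ({ξ | ∀ v ∈ D, sig G r p ξ v = η v} ∩ {ξ | sig G r p ξ q = b}) =
        ENNReal.ofReal ((1 + θ * sp (η v0) * sp b) / 2 * 
          (1 / 2 * ∏ v ∈ D.erase v0, edgeWt θ η s(v, p v))) := by
      intro b
      have h1 := ih (insert q D) q hT' hqn (Function.update η q b)
      have h2 : {ξ : V → Bool | ∀ v ∈ insert q D, sig G r p ξ v = Function.update η q b v} =
          {ξ | ∀ v ∈ D, sig G r p ξ v = η v} ∩ {ξ | sig G r p ξ q = b} := by
        ext ξ
        simp only [Set.mem_ofPred_eq, Finset.mem_insert, forall_eq_or_imp, Function.update_self,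
          Set.mem_inter_iff]
        constructor
        · rintro ⟨h3, h4⟩
          refine ⟨fun v hv => ?_, h3⟩
          rw [h4 v hv, Function.update_of_ne]
          rintro rfl
          exact hqD hv
        · rintro ⟨h3, h4⟩
          refine ⟨h4, fun v hv => ?_⟩
          rw [h3 v hv, Function.update_of_ne]
          rintro rfl
          exact hqD hv
      rw [h2] at h1
      rw [h1]
      congr 1
      rw [Finset.erase_insert hqD, ← Finset.mul_prod_erase D _ hT.1]
      have h3 : ∏ v ∈ D.erase v0, edgeWt θ (Function.update η q b) s(v, p v) =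
          ∏ v ∈ D.erase v0, edgeWt θ η s(v, p v) := by
        apply Finset.prod_congr rfl
        intro v hv
        rw [Finset.mem_erase] at hv
        have h4 : v ≠ q := by rintro rfl; exact hqD hv.2
        have h5 : p v ≠ q := by
          intro h
          exact hqD (h ▸ (hT.2.2 v hv.2 hv.1).2)
        simp only [edgeWt, Sym2.lift_mk, Function.update_of_ne h4, Function.update_of_ne h5]
      have h6 : edgeWt θ (Function.update η q b) s(v0, p v0) =
          (1 + θ * sp (η v0) * sp b) / 2 := by
        have h7 : v0 ≠ q := by rintro h; exact hqD (h ▸ hT.1)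
        simp only [edgeWt, Sym2.lift_mk, ← hq, Function.update_self, Function.update_of_ne h7]
      rw [h3, h6]
      ring
    have hnn : 0 ≤ 1 / 2 * ∏ v ∈ D.erase v0, edgeWt θ η s(v, p v) :=
      mul_nonneg (by norm_num) (Finset.prod_nonneg (fun e _ => edgeWt_nonneg hθ η _))
    have hw : ∀ b, 0 ≤ (1 + θ * sp (η v0) * sp b) / 2 := by
      intro b
      obtain ⟨h1, h2⟩ := abs_le.mp hθ
      unfold sp
      split_ifs <;> linarith
    rw [← measure_inter_add_sdiff _ (hmeas q true)]
    have hdiff : {ξ : V → Bool | ∀ v ∈ D, sig G r p ξ v = η v} \ {ξ | sig G r p ξ q = true} =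
        {ξ | ∀ v ∈ D, sig G r p ξ v = η v} ∩ {ξ | sig G r p ξ q = false} := by
      ext ξ
      simp
    rw [hdiff, hone true, hone false, ← ENNReal.ofReal_add (mul_nonneg (hw _) hnn)
      (mul_nonneg (hw _) hnn)]
    congr 1
    simp only [sp, if_true, Bool.false_eq_true, if_false]
    ring

theorem exists_isFreeIsing (hG : G.IsTree) {θ : ℝ}
    (hθ : |θ| ≤ 1) : ∃ μ : Measure (V → Bool), IsProbabilityMeasure μ ∧ IsFreeIsing G θ μ := by
  classical
  obtain ⟨r⟩ := hG.connected.nonempty
  obtain ⟨p, hp⟩ := exists_parent hG r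
  have : ∀ v, IsProbabilityMeasure (margin r θ v) := margin_isProb r hθ
  have hmeas : Measurable (fun (ξ : V → Bool) v => sig G r p ξ v) :=
    measurable_pi_lambda _ (fun v => measurable_spin p _ v)
  refine ⟨(Measure.infinitePi (margin r θ)).map (fun ξ v => sig G r p ξ v),
    Measure.isProbabilityMeasure_map hmeas.aemeasurable, ?_⟩
  intro D hD η
  obtain ⟨v0, hT⟩ := exists_top hG hp hD
  rw [Measure.map_apply hmeas (measurableSet_cyl D η), prod_edges hG hp hT]
  exact measure_top hp hθ hG.connected _ D v0 hT rfl η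

end Exists

end Vale.Agent.P161
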