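import Vale.Agent.P161.Defs

/-! Package A: geometry of a `d`-regular tree. -/

namespace Vale.Agent.P161

open MeasureTheory

universe u

theorem dist_split {V : Type u} {G : SimpleGraph V} (hG : G.IsTree) {a b : V} (hab : G.Adj a b)
    (w : V) : G.dist b w = G.dist a w + 1 ∨ G.dist a w = G.dist b w + 1 := by
  rw [G.dist_comm (u := b), G.dist_comm (u := a)]
  exact (hG.dist_eq_dist_add_one_of_adj w hab).symm

theorem length_eq_dist_of_isPath {V : Type u} {G : SimpleGraph V} (hG : G.IsTree) {a b : V}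
    (p : G.Walk a b) (hp : p.IsPath) : p.length = G.dist a b := by
  obtain ⟨q, hq, hq'⟩ := hG.connected.exists_path_of_dist a b
  have : (⟨p, hp⟩ : G.Path a b) = ⟨q, hq⟩ :=
    (hG.isAcyclic.subsingleton_path a b).elim _ _
  rw [← hq']
  have h2 : p = q := congrArg Subtype.val this
  rw [h2]

theorem dist_add_le_of_mem_support {V : Type u} {G : SimpleGraph V} {a b x : V}
    (p : G.Walk a b) (hp : p.length = G.dist a b) (hx : x ∈ p.support) :
    G.dist a x + G.dist x b ≤ G.dist a b := by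
  classical
  have h1 := congrArg SimpleGraph.Walk.length (p.take_spec hx)
  rw [SimpleGraph.Walk.length_append] at h1
  have h2 := SimpleGraph.dist_le (p.takeUntil x hx)
  have h3 := SimpleGraph.dist_le (p.dropUntil x hx)
  omega

theorem dist_cross {V : Type u} {G : SimpleGraph V} (hG : G.IsTree) {a b : V} (hab : G.Adj a b)
    {w u : V} (hw : G.dist b w = G.dist a w + 1) (hu : G.dist a u = G.dist b u + 1) :
    G.dist w u = G.dist a w + 1 + G.dist b u := by
  obtain ⟨p, hp, hp'⟩ := hG.connected.exists_path_of_dist a w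
  obtain ⟨q, hq, hq'⟩ := hG.connected.exists_path_of_dist b u
  have hpath : (p.reverse.append (SimpleGraph.Walk.cons hab q)).IsPath := by
    rw [SimpleGraph.Walk.isPath_def, SimpleGraph.Walk.support_append,
      SimpleGraph.Walk.support_cons, List.tail_cons, SimpleGraph.Walk.support_reverse,
      List.nodup_append']
    refine ⟨List.nodup_reverse.2 hp.support_nodup, hq.support_nodup, ?_⟩
    intro x hx1 hx2
    rw [List.mem_reverse] at hx1
    have h1 := dist_add_le_of_mem_support p hp' hx1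
    have h2 := dist_add_le_of_mem_support q hq' hx2
    have t1 := hG.connected.dist_triangle (u := a) (v := x) (w := u)
    have t2 := hG.connected.dist_triangle (u := b) (v := x) (w := w)
    rcases dist_split hG hab x with h | h <;> omega
  have h := length_eq_dist_of_isPath hG _ hpath
  rw [SimpleGraph.Walk.length_append, SimpleGraph.Walk.length_reverse,
    SimpleGraph.Walk.length_cons] at h
  omega

theorem exists_closer {V : Type u} {G : SimpleGraph V} (hG : G.Connected) {v u : V} {n : ℕ}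
    (h : G.dist v u = n + 1) : ∃ v', G.Adj v v' ∧ G.dist v' u = n := by
  obtain ⟨p, hp⟩ := hG.exists_walk_length_eq_dist v u
  rw [h] at hp
  cases p with
  | nil => simp at hp
  | cons hadj q =>
    rename_i v'
    refine ⟨v', hadj, ?_⟩
    rw [SimpleGraph.Walk.length_cons] at hp
    have h1 := SimpleGraph.dist_le q
    have h2 := hG.dist_triangle (u := v) (v := v') (w := u)
    rw [SimpleGraph.dist_eq_one_iff_adj.2 hadj] at h2
    omega

/-- spheres -/
def sph {V : Type u} (G : SimpleGraph V) (v : V) (n : ℕ) : Set V := {w | G.dist w v = n}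

theorem neighborSet_finite {V : Type u} {G : SimpleGraph V} {d : ℕ} (hd : 1 ≤ d)
    (hreg : ∀ v, (G.neighborSet v).ncard = d) (v : V) : (G.neighborSet v).Finite := by
  apply Set.finite_of_ncard_ne_zero
  rw [hreg]
  omega

theorem sph_succ_subset {V : Type u} {G : SimpleGraph V} (hG : G.Connected) (v : V) (n : ℕ) :
    sph G v (n + 1) ⊆ ⋃ w ∈ sph G v n, (G.neighborSet w) ∩ sph G v (n + 1) := by
  intro x hx
  obtain ⟨x', h1, h2⟩ := exists_closer hG hx
  simp only [Set.mem_iUnion]
  exact ⟨x', h2, h1.symm, hx⟩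

theorem sph_finite {V : Type u} {G : SimpleGraph V} (hG : G.Connected) {d : ℕ} (hd : 1 ≤ d)
    (hreg : ∀ v, (G.neighborSet v).ncard = d) (v : V) (n : ℕ) : (sph G v n).Finite := by
  induction n with
  | zero =>
    have : sph G v 0 ⊆ {v} := by
      intro x hx
      exact (hG.dist_eq_zero_iff).1 hx
    exact (Set.finite_singleton v).subset this
  | succ n ih =>
    refine Set.Finite.subset (ih.biUnion fun w _ => ?_) (sph_succ_subset hG v n)
    exact (neighborSet_finite hd hreg w).inter_of_left _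

theorem countable_tree {V : Type u} {G : SimpleGraph V} (hG : G.Connected) {d : ℕ} (hd : 1 ≤ d)
    (hreg : ∀ v, (G.neighborSet v).ncard = d) : Countable V := by
  rcases isEmpty_or_nonempty V with h | ⟨⟨r⟩⟩
  · infer_instance
  · rw [← Set.countable_univ_iff]
    have : (Set.univ : Set V) ⊆ ⋃ n, sph G r n := by
      intro x _
      rw [Set.mem_iUnion]
      exact ⟨_, rfl⟩
    exact (Set.countable_iUnion fun n => (sph_finite hG hd hreg r n).countable).mono this

theorem sph_ncard_le {V : Type u} {G : SimpleGraph V} (hG : G.Connected) {d : ℕ} (hd : 2 ≤ d)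
    (hreg : ∀ v, (G.neighborSet v).ncard = d) (v : V) (n : ℕ) :
    (sph G v n).ncard ≤ d * (d - 1) ^ n ∧ (sph G v (n + 1)).ncard ≤ d * (d - 1) ^ n := by
  have hd1 : 1 ≤ d := by omega
  induction n with
  | zero =>
    have h0 : sph G v 0 ⊆ {v} := by
      intro x hx
      exact (hG.dist_eq_zero_iff).1 hx
    have h1 : sph G v 1 ⊆ G.neighborSet v := by
      intro x hx
      have : G.dist x v = 1 := hx
      exact (SimpleGraph.dist_eq_one_iff_adj.1 this).symm
    constructor
    · have := Set.ncard_le_ncard h0 (Set.finite_singleton v)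
      rw [Set.ncard_singleton] at this
      simp; omega
    · have := Set.ncard_le_ncard h1 (neighborSet_finite hd1 hreg v)
      rw [hreg] at this
      simpa using this
  | succ n ih =>
    have hpow : d * (d - 1) ^ n ≤ d * (d - 1) ^ (n + 1) := by
      apply Nat.mul_le_mul_left
      apply Nat.pow_le_pow_right (by omega) (by omega)
    refine ⟨ih.2.trans hpow, ?_⟩
    classical
    have hfin := sph_finite hG hd1 hreg v (n + 1)
    have hb : ∀ w ∈ sph G v (n + 1), ((G.neighborSet w) ∩ sph G v (n + 1 + 1)).ncard ≤ d - 1 := by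
      intro w hw
      obtain ⟨w', h1, h2⟩ := exists_closer hG hw
      have hsub : (G.neighborSet w) ∩ sph G v (n + 1 + 1) ⊆ (G.neighborSet w) \ {w'} := by
        rintro x ⟨hx1, hx2⟩
        refine ⟨hx1, ?_⟩
        intro hx3
        have hx4 : x = w' := hx3
        have hx5 : G.dist x v = n + 1 + 1 := hx2
        rw [hx4, h2] at hx5
        omega
      have h3 := Set.ncard_le_ncard hsub ((neighborSet_finite hd1 hreg w).sdiff)
      rw [Set.ncard_sdiff_singleton_of_mem (show w' ∈ G.neighborSet w from h1), hreg] at h3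
      exact h3
    have h1 : (sph G v (n + 1 + 1)).ncard ≤
        (⋃ w ∈ hfin.toFinset, (G.neighborSet w) ∩ sph G v (n + 1 + 1)).ncard := by
      apply Set.ncard_le_ncard
      · have := sph_succ_subset hG v (n + 1)
        simpa using this
      · apply Set.Finite.biUnion (Finset.finite_toSet _)
        intro w _
        exact (neighborSet_finite hd1 hreg w).inter_of_left _
    have h2 : (⋃ w ∈ hfin.toFinset, (G.neighborSet w) ∩ sph G v (n + 1 + 1)).ncard ≤
        ∑ w ∈ hfin.toFinset, ((G.neighborSet w) ∩ sph G v (n + 1 + 1)).ncard :=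
      Finset.set_ncard_biUnion_le _ _
    have h3 : ∑ w ∈ hfin.toFinset, ((G.neighborSet w) ∩ sph G v (n + 1 + 1)).ncard ≤
        ∑ _w ∈ hfin.toFinset, (d - 1) := by
      apply Finset.sum_le_sum
      intro w hw
      exact hb w (hfin.mem_toFinset.1 hw)
    rw [Finset.sum_const, smul_eq_mul, ← Set.ncard_eq_toFinset_card _ hfin] at h3
    calc _ ≤ _ := h1
      _ ≤ _ := h2
      _ ≤ _ := h3
      _ ≤ (d * (d - 1) ^ n) * (d - 1) := Nat.mul_le_mul_right _ ih.2
      _ = _ := by rw [pow_succ]; ring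

theorem sum_pow_le {V : Type u} {G : SimpleGraph V} (hG : G.IsTree) {d : ℕ} (hd : 2 ≤ d)
    (hreg : ∀ v, (G.neighborSet v).ncard = d) {q : ℝ} (hq : 0 ≤ q) (hq1 : q * (d - 1) < 1) :
    ∃ C : ℝ, 0 < C ∧ ∀ (S : Finset V) (v : V), ∑ w ∈ S, q ^ (G.dist v w) ≤ C := by
  classical
  have hd1 : 1 ≤ d := by omega
  have hdR : (2:ℝ) ≤ d := by exact_mod_cast hd
  have hr0 : 0 ≤ q * ((d:ℝ) - 1) := mul_nonneg hq (by linarith)
  have h1r : 0 < 1 - q * ((d:ℝ) - 1) := by linarith
  refine ⟨d / (1 - q * (d - 1)), by positivity, ?_⟩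
  intro S v
  obtain ⟨M, hM⟩ : ∃ M : ℕ, ∀ w ∈ S, G.dist v w < M := by
    refine ⟨S.sup (fun w => G.dist v w) + 1, fun w hw => ?_⟩
    exact Nat.lt_succ_of_le (Finset.le_sup (f := fun w => G.dist v w) hw)
  have h1 : ∑ w ∈ S, q ^ (G.dist v w) =
      ∑ n ∈ Finset.range M, ∑ w ∈ S with G.dist v w = n, q ^ (G.dist v w) := by
    symm
    apply Finset.sum_fiberwise_of_maps_to
    intro w hw
    exact Finset.mem_range.2 (hM w hw)
  have h2 : ∀ n ∈ Finset.range M, ∑ w ∈ S with G.dist v w = n, q ^ (G.dist v w) ≤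
      d * (q * (d - 1)) ^ n := by
    intro n _
    have h3 : ∑ w ∈ S with G.dist v w = n, q ^ (G.dist v w) =
        ((S.filter fun w => G.dist v w = n).card : ℝ) * q ^ n := by
      rw [← nsmul_eq_mul]
      apply Finset.sum_eq_card_nsmul
      intro w hw
      rw [(Finset.mem_filter.1 hw).2]
    have h4 : (S.filter fun w => G.dist v w = n).card ≤ (sph G v n).ncard := by
      rw [← Set.ncard_coe_finset]
      apply Set.ncard_le_ncard _ (sph_finite hG.connected hd1 hreg v n)
      intro w hw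
      have := (Finset.mem_filter.1 (Finset.mem_coe.1 hw)).2
      change G.dist w v = n
      rw [SimpleGraph.dist_comm, this]
    have h5 : ((S.filter fun w => G.dist v w = n).card : ℝ) ≤ d * ((d:ℝ) - 1) ^ n := by
      have h6 := h4.trans (sph_ncard_le hG.connected hd hreg v n).1
      have h7 : ((S.filter fun w => G.dist v w = n).card : ℝ) ≤ ((d * (d - 1) ^ n : ℕ) : ℝ) := by
        exact_mod_cast h6
      rw [Nat.cast_mul, Nat.cast_pow, Nat.cast_sub hd1, Nat.cast_one] at h7
      exact h7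
    rw [h3]
    calc _ ≤ (d * ((d:ℝ) - 1) ^ n) * q ^ n := mul_le_mul_of_nonneg_right h5 (pow_nonneg hq n)
      _ = _ := by rw [mul_pow]; ring
  rw [h1]
  calc ∑ n ∈ Finset.range M, ∑ w ∈ S with G.dist v w = n, q ^ (G.dist v w)
      ≤ ∑ n ∈ Finset.range M, (d:ℝ) * (q * (d - 1)) ^ n := Finset.sum_le_sum h2
    _ = d * ∑ n ∈ Finset.range M, (q * ((d:ℝ) - 1)) ^ n := by rw [Finset.mul_sum]
    _ ≤ d * (1 - q * (d - 1))⁻¹ := by
        apply mul_le_mul_of_nonneg_left _ (by positivity)
        rw [← tsum_geometric_of_lt_one hr0 hq1]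
        exact (summable_geometric_of_lt_one hr0 hq1).sum_le_tsum _ (fun n _ => pow_nonneg hr0 n)
    _ = _ := by rw [div_eq_mul_inv]

theorem conv_le {V : Type u} {G : SimpleGraph V} (hG : G.IsTree) {d : ℕ} (hd : 2 ≤ d)
    (hreg : ∀ v, (G.neighborSet v).ncard = d) {θ θ₁ : ℝ} (hθ : 0 ≤ θ) (hθ1 : θ < θ₁)
    (hθ2 : θ₁ ^ 2 * (d - 1) < 1) :
    ∃ C : ℝ, 0 < C ∧ ∀ (S : Finset V) (v u : V),
      ∑ w ∈ S, θ ^ (G.dist v w) * θ₁ ^ (G.dist w u) ≤ C * θ₁ ^ (G.dist v u) := by
  have hdR : (2:ℝ) ≤ d := by exact_mod_cast hd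
  have hθ₁ : 0 < θ₁ := lt_of_le_of_lt hθ hθ1
  obtain ⟨C0, hC0, hC⟩ := sum_pow_le hG hd hreg (q := θ * θ₁) (by positivity) (by
    have : θ * θ₁ ≤ θ₁ ^ 2 := by nlinarith
    have h2 : θ * θ₁ * ((d:ℝ) - 1) ≤ θ₁ ^ 2 * (d - 1) :=
      mul_le_mul_of_nonneg_right this (by linarith)
    linarith)
  have hr : θ / θ₁ < 1 := by rw [div_lt_one hθ₁]; exact hθ1
  have hr0 : 0 ≤ θ / θ₁ := by positivity
  have h1r : 0 < 1 - θ / θ₁ := by linarith
  refine ⟨C0 / (1 - θ / θ₁), by positivity, ?_⟩
  obtain ⟨C1, hC1⟩ : ∃ C1, C1 = C0 / (1 - θ / θ₁) := ⟨_, rfl⟩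
  have hC1' : C0 + C1 * (θ / θ₁) = C1 := by
    have h0 : C1 * (1 - θ / θ₁) = C0 := by
      rw [hC1]
      exact div_mul_cancel₀ C0 h1r.ne'
    linear_combination -h0
  have hC1pos : 0 < C1 := by rw [hC1]; positivity
  have hC01 : C0 ≤ C1 := by
    have : 0 ≤ C1 * (θ / θ₁) := by positivity
    linarith
  rw [← hC1]
  intro S
  have key : ∀ (n : ℕ) (v u : V), G.dist v u = n →
      ∑ w ∈ S, θ ^ (G.dist v w) * θ₁ ^ (G.dist w u) ≤ C1 * θ₁ ^ n := by
    intro n
    induction n with
    | zero =>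
      intro v u h
      have hvu : v = u := hG.connected.dist_eq_zero_iff.1 h
      subst hvu
      have h1 : ∀ w ∈ S, θ ^ (G.dist v w) * θ₁ ^ (G.dist w v) = (θ * θ₁) ^ (G.dist v w) := by
        intro w _
        rw [SimpleGraph.dist_comm (u := w), mul_pow]
      rw [Finset.sum_congr rfl h1, pow_zero, mul_one]
      exact (hC S v).trans hC01
    | succ n ih =>
      intro v u h
      obtain ⟨v', hadj, hv'⟩ := exists_closer hG.connected h
      have hterm : ∀ w ∈ S, θ ^ (G.dist v w) * θ₁ ^ (G.dist w u) ≤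
          (θ * θ₁) ^ (G.dist v w) * θ₁ ^ (n + 1) +
            θ * (θ ^ (G.dist v' w) * θ₁ ^ (G.dist w u)) := by
        intro w _
        rcases dist_split hG hadj w with hw | hw
        · have h2 := dist_cross hG hadj hw (by rw [h, hv'])
          have h3 : θ ^ (G.dist v w) * θ₁ ^ (G.dist w u) =
              (θ * θ₁) ^ (G.dist v w) * θ₁ ^ (n + 1) := by
            rw [h2, hv', mul_pow, show G.dist v w + 1 + n = G.dist v w + (n + 1) by ring, pow_add]
            ring
          rw [h3]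
          have : 0 ≤ θ * (θ ^ (G.dist v' w) * θ₁ ^ (G.dist w u)) := by positivity
          linarith
        · have h3 : θ ^ (G.dist v w) * θ₁ ^ (G.dist w u) =
              θ * (θ ^ (G.dist v' w) * θ₁ ^ (G.dist w u)) := by
            rw [hw, pow_succ]; ring
          rw [h3]
          have : 0 ≤ (θ * θ₁) ^ (G.dist v w) * θ₁ ^ (n + 1) := by positivity
          linarith
      calc ∑ w ∈ S, θ ^ (G.dist v w) * θ₁ ^ (G.dist w u)
          ≤ ∑ w ∈ S, ((θ * θ₁) ^ (G.dist v w) * θ₁ ^ (n + 1) +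
            θ * (θ ^ (G.dist v' w) * θ₁ ^ (G.dist w u))) := Finset.sum_le_sum hterm
        _ = (∑ w ∈ S, (θ * θ₁) ^ (G.dist v w)) * θ₁ ^ (n + 1) +
            θ * ∑ w ∈ S, θ ^ (G.dist v' w) * θ₁ ^ (G.dist w u) := by
            rw [Finset.sum_add_distrib, Finset.sum_mul, Finset.mul_sum]
        _ ≤ C0 * θ₁ ^ (n + 1) + θ * (C1 * θ₁ ^ n) := by
            apply add_le_add
            · exact mul_le_mul_of_nonneg_right (hC S v) (by positivity)
            · exact mul_le_mul_of_nonneg_left (ih v' u hv') hθ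
        _ = (C0 + C1 * (θ / θ₁)) * θ₁ ^ (n + 1) := by
            rw [pow_succ]
            field_simp
        _ = C1 * θ₁ ^ (n + 1) := by rw [hC1']
  intro v u
  exact key _ v u rfl

theorem summable_sq {V : Type u} {G : SimpleGraph V} (hG : G.IsTree) {d : ℕ} (hd : 2 ≤ d)
    (hreg : ∀ v, (G.neighborSet v).ncard = d) {θ₁ : ℝ} (_hθ : 0 ≤ θ₁)
    (hθ2 : θ₁ ^ 2 * (d - 1) < 1) (v : V) : Summable fun u => (θ₁ ^ (G.dist v u)) ^ 2 := by
  obtain ⟨C, _, hC⟩ := sum_pow_le hG hd hreg (q := θ₁ ^ 2) (by positivity) hθ2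
  apply summable_of_sum_le (c := C) (fun u => by positivity)
  intro S
  have h := hC S v
  refine le_trans (le_of_eq ?_) h
  apply Finset.sum_congr rfl
  intro u _
  rw [← pow_mul, ← pow_mul, mul_comm]

end Vale.Agent.P161
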