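import Vale.Agent.P161.Lip
import Vale.Agent.P161.Tree

/-!
# Cylinder probabilities of the free Ising measure on a tree
-/

namespace Vale.Agent.P161

open MeasureTheory

universe u

variable {V : Type u} {G : SimpleGraph V} {θ : ℝ}

open Classical in
/-- cylinder probabilities -/
noncomputable def PD (G : SimpleGraph V) (θ : ℝ) (D : Finset V) (η : V → Bool) : ℝ :=
  1 / 2 * ∏ e ∈ D.sym2 with e ∈ G.edgeSet, edgeWt θ η e

open Classical in
/-- indicator of a cylinder -/
noncomputable def cyl (D : Finset V) (η σ : V → Bool) : ℝ :=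
  if ∀ v ∈ D, σ v = η v then 1 else 0

lemma edgeWt_mk (θ : ℝ) (η : V → Bool) (a b : V) :
    edgeWt θ η s(a, b) = (1 + θ * sp (η a) * sp (η b)) / 2 := rfl

lemma edgeWt_nonneg (h0 : 0 ≤ θ) (h1 : θ ≤ 1) (η : V → Bool) (e : Sym2 V) :
    0 ≤ edgeWt θ η e := by
  induction e using Sym2.ind with
  | _ a b =>
    rw [edgeWt_mk]
    have : |θ * sp (η a) * sp (η b)| ≤ 1 := by
      rw [abs_mul, abs_mul, abs_sp, abs_sp, abs_of_nonneg h0]; linarith
    linarith [(abs_le.1 this).1]

lemma PD_nonneg (h0 : 0 ≤ θ) (h1 : θ ≤ 1) (D : Finset V) (η : V → Bool) : 0 ≤ PD G θ D η := by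
  unfold PD
  apply mul_nonneg (by norm_num)
  exact Finset.prod_nonneg fun e _ => edgeWt_nonneg h0 h1 η e

lemma measurableSet_cyl (D : Finset V) (η : V → Bool) :
    MeasurableSet {σ : V → Bool | ∀ v ∈ D, σ v = η v} := by
  have : {σ : V → Bool | ∀ v ∈ D, σ v = η v} = ⋂ v ∈ D, {σ | σ v = η v} := by
    ext σ; simp
  rw [this]
  refine Finset.measurableSet_biInter _ fun v _ => ?_
  exact measurableSet_eq_fun (measurable_pi_apply v) measurable_const

lemma measurable_cyl (D : Finset V) (η : V → Bool) : Measurable (cyl D η) := by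
  unfold cyl
  exact Measurable.ite (measurableSet_cyl D η) measurable_const measurable_const

lemma abs_cyl_le (D : Finset V) (η σ : V → Bool) : |cyl D η σ| ≤ 1 := by
  unfold cyl; split_ifs <;> simp

lemma integral_cyl {μ : Measure (V → Bool)} (h : IsFreeIsing G θ μ) (h0 : 0 ≤ θ) (h1 : θ ≤ 1)
    {D : Finset V} (hD : (G.induce (D : Set V)).Connected) (η : V → Bool) :
    ∫ σ, cyl D η σ ∂μ = PD G θ D η := by
  classical
  have e : cyl D η = Set.indicator {σ : V → Bool | ∀ v ∈ D, σ v = η v} 1 := by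
    funext σ
    unfold cyl
    by_cases hσ : ∀ v ∈ D, σ v = η v
    · rw [if_pos hσ, Set.indicator_of_mem (by exact hσ)]; rfl
    · rw [if_neg hσ, Set.indicator_of_notMem (by exact hσ)]
  rw [e, integral_indicator_one (measurableSet_cyl D η), Measure.real, h D hD η,
    ENNReal.toReal_ofReal]
  · rfl
  · exact PD_nonneg h0 h1 D η

open Classical in
/-- extend a configuration on `D` -/
noncomputable def ext (D : Finset V) (s : D → Bool) : V → Bool :=
  fun v => if h : v ∈ D then s ⟨v, h⟩ else false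

lemma ext_mem (D : Finset V) (s : D → Bool) (v : V) (h : v ∈ D) : ext D s v = s ⟨v, h⟩ := by
  unfold ext; rw [dif_pos h]

open Classical in
/-- a function of the spins in `D` is a combination of cylinder indicators -/
lemma eq_sum_cyl (D : Finset V) {H : (V → Bool) → ℝ}
    (hH : ∀ σ σ', (∀ v ∈ D, σ v = σ' v) → H σ = H σ') (σ : V → Bool) :
    H σ = ∑ s : D → Bool, H (ext D s) * cyl D (ext D s) σ := by
  rw [Finset.sum_eq_single (fun v : D => σ v)]
  · have h1 : ∀ v ∈ D, ext D (fun v : D => σ v) v = σ v := fun v hv => ext_mem D _ v hv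
    rw [hH (ext D fun v : D => σ v) σ h1]
    unfold cyl
    rw [if_pos (fun v hv => (h1 v hv).symm), mul_one]
  · intro s _ hs
    unfold cyl
    rw [if_neg, mul_zero]
    intro h
    apply hs
    funext v
    rw [h v.1 v.2, ext_mem D s v.1 v.2]
  · intro h; exact absurd (Finset.mem_univ _) h

/-- sides of an edge: `u` is nearer to `a` than to `b` -/
def side (G : SimpleGraph V) (a b : V) : Set V := {u | G.dist b u = G.dist a u + 1}

lemma side_disjoint {a b u : V} (h : u ∈ side G a b) : u ∉ side G b a := by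
  unfold side at *
  simp only [Set.mem_ofPred_eq] at *
  omega

lemma mem_side_or (hG : G.IsTree) {a b : V} (hab : G.Adj a b) (u : V) :
    u ∈ side G a b ∨ u ∈ side G b a := dist_split hG hab u

lemma self_mem_side {a b : V} (hab : G.Adj a b) : a ∈ side G a b := by
  unfold side
  simp only [Set.mem_ofPred_eq, SimpleGraph.dist_self]
  rw [SimpleGraph.dist_comm, SimpleGraph.dist_eq_one_iff_adj.2 hab]

lemma adj_cross (hG : G.IsTree) {a b u v : V} (hab : G.Adj a b) (hu : u ∈ side G a b)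
    (hv : v ∈ side G b a) (huv : G.Adj u v) : u = a ∧ v = b := by
  have h := dist_cross hG hab hu hv
  rw [SimpleGraph.dist_eq_one_iff_adj.2 huv] at h
  have h1 : G.dist a u = 0 := by omega
  have h2 : G.dist b v = 0 := by omega
  rw [hG.connected.dist_eq_zero_iff] at h1 h2
  exact ⟨h1.symm, h2.symm⟩

open Classical in
/-- the finite connected sets on the two sides -/
lemma PD_union (hG : G.IsTree) {a b : V} (hab : G.Adj a b) {A B : Finset V}
    (hA : ∀ u ∈ A, u ∈ side G a b) (hB : ∀ u ∈ B, u ∈ side G b a) (ha : a ∈ A) (hb : b ∈ B)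
    (η : V → Bool) :
    PD G θ (A ∪ B) η = (1 + θ * sp (η a) * sp (η b)) * (PD G θ A η * PD G θ B η) := by
  unfold PD
  have e : ((A ∪ B).sym2.filter fun e => e ∈ G.edgeSet)
      = insert s(a, b) ((A.sym2.filter fun e => e ∈ G.edgeSet) ∪
        (B.sym2.filter fun e => e ∈ G.edgeSet)) := by
    ext e
    induction e using Sym2.ind with
    | _ u v =>
      simp only [Finset.mem_filter, Finset.mem_insert, Finset.mem_union, Finset.mk_mem_sym2_iff,
        SimpleGraph.mem_edgeSet, Sym2.eq_iff]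
      constructor
      · rintro ⟨⟨hu, hv⟩, huv⟩
        rcases hu with hu | hu <;> rcases hv with hv | hv
        · exact Or.inr (Or.inl ⟨⟨hu, hv⟩, huv⟩)
        · exact Or.inl (Or.inl (adj_cross hG hab (hA u hu) (hB v hv) huv))
        · have := adj_cross hG hab (hA v hv) (hB u hu) huv.symm
          exact Or.inl (Or.inr ⟨this.2, this.1⟩)
        · exact Or.inr (Or.inr ⟨⟨hu, hv⟩, huv⟩)
      · rintro ((⟨rfl, rfl⟩ | ⟨rfl, rfl⟩) | ⟨⟨hu, hv⟩, huv⟩ | ⟨⟨hu, hv⟩, huv⟩)
        · exact ⟨⟨Or.inl ha, Or.inr hb⟩, hab⟩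
        · exact ⟨⟨Or.inr hb, Or.inl ha⟩, hab.symm⟩
        · exact ⟨⟨Or.inl hu, Or.inl hv⟩, huv⟩
        · exact ⟨⟨Or.inr hu, Or.inr hv⟩, huv⟩
  have hdisj : Disjoint (A.sym2.filter fun e => e ∈ G.edgeSet)
      (B.sym2.filter fun e => e ∈ G.edgeSet) := by
    rw [Finset.disjoint_left]
    intro e
    induction e using Sym2.ind with
    | _ u v =>
      simp only [Finset.mem_filter, Finset.mk_mem_sym2_iff]
      rintro ⟨⟨hu, _⟩, _⟩ ⟨⟨hu', _⟩, _⟩
      exact side_disjoint (hA u hu) (hB u hu')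
  have hnot : s(a, b) ∉ ((A.sym2.filter fun e => e ∈ G.edgeSet) ∪
        (B.sym2.filter fun e => e ∈ G.edgeSet)) := by
    simp only [Finset.mem_union, Finset.mem_filter, Finset.mk_mem_sym2_iff]
    rintro (⟨⟨_, hb'⟩, _⟩ | ⟨⟨ha', _⟩, _⟩)
    · exact side_disjoint (hA b hb') (hB b hb)
    · exact side_disjoint (hA a ha) (hB a ha')
  rw [e, Finset.prod_insert hnot, Finset.prod_union hdisj, edgeWt_mk]
  ring

lemma edgeWt_congr (θ : ℝ) {D : Finset V} {η η' : V → Bool} (h : ∀ v ∈ D, η v = η' v)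
    {e : Sym2 V} (he : e ∈ D.sym2) : edgeWt θ η e = edgeWt θ η' e := by
  induction e using Sym2.ind with
  | _ a b =>
    rw [Finset.mk_mem_sym2_iff] at he
    rw [edgeWt_mk, edgeWt_mk, h a he.1, h b he.2]

lemma PD_congr {D : Finset V} {η η' : V → Bool} (h : ∀ v ∈ D, η v = η' v) :
    PD G θ D η = PD G θ D η' := by
  classical
  unfold PD
  congr 1
  exact Finset.prod_congr rfl fun e he => edgeWt_congr θ h (Finset.mem_filter.1 he).1

lemma integrable_cyl {μ : Measure (V → Bool)} [IsProbabilityMeasure μ] (D : Finset V)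
    (η : V → Bool) : Integrable (cyl D η) μ :=
  integrable_of_bdd (measurable_cyl D η) (abs_cyl_le D η)

open Classical in
lemma integral_eq_sum {μ : Measure (V → Bool)} [IsProbabilityMeasure μ]
    (h : IsFreeIsing G θ μ) (h0 : 0 ≤ θ) (h1 : θ ≤ 1)
    {D : Finset V} (hD : (G.induce (D : Set V)).Connected) {H : (V → Bool) → ℝ}
    (hH : ∀ σ σ', (∀ v ∈ D, σ v = σ' v) → H σ = H σ') :
    ∫ σ, H σ ∂μ = ∑ s : D → Bool, H (ext D s) * PD G θ D (ext D s) := by
  classical
  have e : ∀ σ, H σ = ∑ s : D → Bool, H (ext D s) * cyl D (ext D s) σ := eq_sum_cyl D hH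
  rw [integral_congr_ae (Filter.Eventually.of_forall e), integral_finsetSum]
  · apply Finset.sum_congr rfl
    intro s _
    rw [integral_const_mul, integral_cyl h h0 h1 hD]
  · intro s _
    exact (integrable_cyl D _).const_mul _


end Vale.Agent.P161
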