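import Vale.Agent.P161.IsingBase

/-!
# Uniqueness and invariance of the free Ising measure
-/

namespace Vale.Agent.P161

open MeasureTheory

universe u

variable {V : Type u} {G : SimpleGraph V} {θ : ℝ}

lemma connected_singleton (G : SimpleGraph V) (a : V) :
    (G.induce ((({a} : Finset V)) : Set V)).Connected := by
  have h := (SimpleGraph.Walk.nil : G.Walk a a).connected_induce_support
  have e : {v | v ∈ (SimpleGraph.Walk.nil : G.Walk a a).support}
      = ((({a} : Finset V)) : Set V) := by
    ext v; simp
  rw [e] at h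
  exact h

theorem isProb_of_isFreeIsing [Nonempty V]
    {μ : Measure (V → Bool)} (h : IsFreeIsing G θ μ) : IsProbabilityMeasure μ := by
  classical
  obtain ⟨a⟩ := ‹Nonempty V›
  have key : ∀ b : Bool, μ {σ | σ a = b} = ENNReal.ofReal (1 / 2) := by
    intro b
    have h1 := h {a} (connected_singleton G a) (fun _ => b)
    have e : {σ : V → Bool | ∀ v ∈ ({a} : Finset V), σ v = (fun _ => b) v} = {σ | σ a = b} := by
      ext σ; simp
    rw [e] at h1
    rw [h1]
    congr 1
    rw [Finset.prod_eq_one, mul_one]
    intro e he
    exfalso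
    rw [Finset.mem_filter] at he
    obtain ⟨he1, he2⟩ := he
    induction e using Sym2.ind with
    | _ u v =>
      rw [Finset.mk_mem_sym2_iff, Finset.mem_singleton, Finset.mem_singleton] at he1
      obtain ⟨rfl, rfl⟩ := he1
      exact G.loopless.irrefl _ he2
  constructor
  have hu : (Set.univ : Set (V → Bool)) = {σ | σ a = true} ∪ {σ | σ a = false} := by
    ext σ
    cases hσ : σ a <;> simp [hσ]
  rw [hu, measure_union, key, key, ← ENNReal.ofReal_add (by norm_num) (by norm_num)]
  · norm_num
  · rw [Set.disjoint_left]
    intro σ h1 h2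
    have h1' : σ a = true := h1
    have h2' : σ a = false := h2
    rw [h1'] at h2'
    exact absurd h2' (by decide)
  · exact measurableSet_eq_fun (measurable_pi_apply a) measurable_const

lemma exists_conn_superset (hG : G.Connected) (r : V) (S : Finset V) :
    ∃ A : Finset V, S ⊆ A ∧ r ∈ A ∧ (G.induce (A : Set V)).Connected := by
  classical
  induction S using Finset.induction_on with
  | empty => exact ⟨{r}, by simp, by simp, connected_singleton G r⟩
  | insert s S _ ih =>
    obtain ⟨A, hSA, hrA, hAc⟩ := ih
    obtain ⟨p⟩ := hG.preconnected s r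
    refine ⟨A ∪ p.support.toFinset, ?_, Finset.mem_union_left _ hrA, ?_⟩
    · intro u hu
      rcases Finset.mem_insert.1 hu with rfl | hu
      · exact Finset.mem_union_right _ (by simp)
      · exact Finset.mem_union_left _ (hSA hu)
    · rw [Finset.coe_union]
      have h := p.connected_induce_support
      have e : {v | v ∈ p.support} = (p.support.toFinset : Set V) := by
        ext v; simp
      rw [e] at h
      apply SimpleGraph.induce_union_connected hAc.preconnected h.preconnected
      exact ⟨r, hrA, by simp⟩

theorem isFreeIsing_unique (hG : G.Connected) (h0 : 0 ≤ θ) (h1 : θ ≤ 1)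
    {μ μ' : Measure (V → Bool)} (h : IsFreeIsing G θ μ) (h' : IsFreeIsing G θ μ') : μ = μ' := by
  classical
  have hne : Nonempty V := hG.nonempty
  obtain ⟨r⟩ := hG.nonempty
  have p1 := isProb_of_isFreeIsing h
  have p2 := isProb_of_isFreeIsing h'
  refine ext_of_generate_finite (measurableCylinders fun _ : V => Bool)
    generateFrom_measurableCylinders.symm isPiSystem_measurableCylinders (fun s hs => ?_) ?_
  · rw [mem_measurableCylinders] at hs
    obtain ⟨I, S, hS, rfl⟩ := hs
    obtain ⟨A, hIA, _, hAc⟩ := exists_conn_superset hG r I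
    have hms : MeasurableSet (cylinder I S) := MeasurableSet.cylinder (α := fun _ : V => Bool) I hS
    have hdep : ∀ σ σ' : V → Bool, (∀ v ∈ A, σ v = σ' v) →
        (cylinder I S).indicator (1 : (V → Bool) → ℝ) σ
          = (cylinder I S).indicator (1 : (V → Bool) → ℝ) σ' := by
      intro σ σ' hσ
      have : I.restrict σ = I.restrict σ' := by
        funext v
        exact hσ v.1 (hIA v.2)
      have hiff : σ ∈ cylinder I S ↔ σ' ∈ cylinder I S := by
        rw [mem_cylinder, mem_cylinder, this]
      by_cases hc : σ ∈ cylinder I S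
      · rw [Set.indicator_of_mem hc, Set.indicator_of_mem (hiff.1 hc)]; rfl
      · rw [Set.indicator_of_notMem hc, Set.indicator_of_notMem (fun h => hc (hiff.2 h))]
    have e1 := integral_eq_sum h h0 h1 hAc hdep
    have e2 := integral_eq_sum h' h0 h1 hAc hdep
    rw [← e2, integral_indicator_one hms, integral_indicator_one hms] at e1
    rw [← ENNReal.toReal_eq_toReal_iff' (measure_ne_top μ _) (measure_ne_top μ' _)]
    exact e1
  · rw [measure_univ, measure_univ]

theorem isFreeIsing_map {μ : Measure (V → Bool)} (h : IsFreeIsing G θ μ) (g : G ≃g G) :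
    IsFreeIsing G θ (μ.map fun σ v => σ (g.symm v)) := by
  classical
  intro D hD η
  have hm : Measurable fun (σ : V → Bool) (v : V) => σ (g.symm v) := by fun_prop
  rw [Measure.map_apply hm (measurableSet_cyl D η)]
  set D' : Finset V := D.map g.symm.toEquiv.toEmbedding with hD'
  have hD'c : (G.induce (D' : Set V)).Connected := by
    let f : G.induce (D : Set V) →g G.induce (D' : Set V) :=
      { toFun := fun v => ⟨g.symm v.1, by
          rw [hD', Finset.coe_map]
          exact ⟨v.1, v.2, rfl⟩⟩
        map_rel' := fun {a b} hab => by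
          exact g.symm.map_rel_iff.2 hab }
    apply hD.map f
    rintro ⟨v, hv⟩
    rw [hD', Finset.coe_map] at hv
    obtain ⟨u, hu, rfl⟩ := hv
    exact ⟨⟨u, hu⟩, rfl⟩
  have e : (fun (σ : V → Bool) (v : V) => σ (g.symm v)) ⁻¹' {σ | ∀ v ∈ D, σ v = η v}
      = {σ | ∀ v ∈ D', σ v = (fun v => η (g v)) v} := by
    ext σ
    simp only [Set.mem_preimage, Set.mem_ofPred_eq, hD', Finset.mem_map]
    constructor
    · rintro h v ⟨u, hu, rfl⟩
      have := h u hu
      simpa using this
    · intro h v hv
      have := h (g.symm v) ⟨v, hv, rfl⟩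
      simpa using this
  rw [e, h D' hD'c]
  congr 2
  apply Finset.prod_nbij' (Sym2.map g) (Sym2.map g.symm)
  · intro e he
    induction e using Sym2.ind with
    | _ a b =>
      rw [Finset.mem_filter, Finset.mk_mem_sym2_iff, hD', Finset.mem_map, Finset.mem_map] at he
      obtain ⟨⟨⟨a', ha', rfl⟩, ⟨b', hb', rfl⟩⟩, hab⟩ := he
      rw [Sym2.map_mk, Finset.mem_filter, Finset.mk_mem_sym2_iff]
      refine ⟨⟨by simpa using ha', by simpa using hb'⟩, ?_⟩
      rw [SimpleGraph.mem_edgeSet] at hab ⊢
      exact g.map_rel_iff.2 hab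
  · intro e he
    induction e using Sym2.ind with
    | _ a b =>
      rw [Finset.mem_filter, Finset.mk_mem_sym2_iff] at he
      rw [Sym2.map_mk, Finset.mem_filter, Finset.mk_mem_sym2_iff, hD', Finset.mem_map,
        Finset.mem_map]
      refine ⟨⟨⟨a, he.1.1, rfl⟩, ⟨b, he.1.2, rfl⟩⟩, ?_⟩
      have hab := he.2
      rw [SimpleGraph.mem_edgeSet] at hab ⊢
      exact g.symm.map_rel_iff.2 hab
  · intro e _
    induction e using Sym2.ind with
    | _ a b => simp
  · intro e _
    induction e using Sym2.ind with
    | _ a b => simp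
  · intro e _
    induction e using Sym2.ind with
    | _ a b => rfl

end Vale.Agent.P161
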