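import Vale.Agent.P161.Equi

/-!
# All the randomness from one uniform label per vertex
-/

namespace Vale.Agent.P161

open MeasureTheory

variable {V : Type*}

/-- split the noise on `V × ℕ` -/
def spl (w : V × ℕ → I01) : (V → I01) × (V × ℕ → I01) :=
  (fun v => w (v, 0), fun k => w (k.1, k.2 + 1))

/-- the inverse of `spl` -/
def joi (p : (V → I01) × (V × ℕ → I01)) : V × ℕ → I01 :=
  fun k => if k.2 = 0 then p.1 k.1 else p.2 (k.1, k.2 - 1)

lemma spl_joi (p : (V → I01) × (V × ℕ → I01)) : spl (joi p) = p := by
  unfold spl joi
  simp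

lemma measurable_spl : Measurable (spl (V := V)) := by
  unfold spl
  fun_prop

lemma measurable_joi : Measurable (joi (V := V)) := by
  rw [measurable_pi_iff]
  intro k
  unfold joi
  by_cases h : k.2 = 0
  · simp only [h, if_true]; fun_prop
  · simp only [h, if_false]; fun_prop

lemma map_joi : (Pr V).map (joi (V := V)) = lam V := by
  classical
  unfold lam
  refine Measure.eq_infinitePi _ fun s t ht => ?_
  rw [Measure.map_apply measurable_joi (.pi (Finset.countable_toSet _) fun _ _ => ht _)]
  set s0 : Finset V := (s.filter fun k => k.2 = 0).image Prod.fst with hs0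
  set s1 : Finset (V × ℕ) := (s.filter fun k => ¬ k.2 = 0).image fun k => (k.1, k.2 - 1) with hs1
  have e : joi ⁻¹' ((s : Set (V × ℕ)).pi t)
      = ((s0 : Set V).pi fun v => t (v, 0)) ×ˢ
        ((s1 : Set (V × ℕ)).pi fun k => t (k.1, k.2 + 1)) := by
    ext p
    simp only [Set.mem_preimage, Set.mem_pi, Finset.mem_coe, Set.mem_prod]
    constructor
    · intro h
      refine ⟨fun v hv => ?_, fun k hk => ?_⟩
      · rw [hs0, Finset.mem_image] at hv
        obtain ⟨j, hj, rfl⟩ := hv
        rw [Finset.mem_filter] at hj
        have := h j hj.1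
        unfold joi at this
        rw [if_pos hj.2] at this
        have e : j = (j.1, 0) := Prod.ext rfl hj.2
        rwa [e] at this
      · rw [hs1, Finset.mem_image] at hk
        obtain ⟨j, hj, rfl⟩ := hk
        rw [Finset.mem_filter] at hj
        have := h j hj.1
        unfold joi at this
        rw [if_neg hj.2] at this
        have e : ((j.1, j.2 - 1 + 1) : V × ℕ) = j := Prod.ext rfl (by simp only; omega)
        simp only
        rw [e]
        exact this
    · rintro ⟨h1, h2⟩ k hk
      unfold joi
      by_cases h : k.2 = 0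
      · rw [if_pos h]
        have := h1 k.1 (Finset.mem_image.2 ⟨k, Finset.mem_filter.2 ⟨hk, h⟩, rfl⟩)
        have e : k = (k.1, 0) := Prod.ext rfl h
        rw [e]
        exact this
      · rw [if_neg h]
        have := h2 (k.1, k.2 - 1) (Finset.mem_image.2 ⟨k, Finset.mem_filter.2 ⟨hk, h⟩, rfl⟩)
        have e : ((k.1, k.2 - 1 + 1) : V × ℕ) = k := Prod.ext rfl (by simp only; omega)
        simp only at this
        rw [e] at this
        exact this
  rw [e]
  unfold Pr
  rw [Measure.prod_prod]
  unfold iidLaw lam
  rw [Measure.infinitePi_pi _ (fun i _ => ht _), Measure.infinitePi_pi _ (fun i _ => ht _),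
    ← Finset.prod_filter_mul_prod_filter_not s (fun k => k.2 = 0)]
  congr 1
  · rw [hs0, Finset.prod_image]
    · apply Finset.prod_congr rfl
      intro k hk
      have e : k = (k.1, 0) := Prod.ext rfl (Finset.mem_filter.1 hk).2
      conv_rhs => rw [e]
    · intro a ha b hb hab
      have h1 := (Finset.mem_filter.1 ha).2
      have h2 := (Finset.mem_filter.1 hb).2
      exact Prod.ext hab (h1.trans h2.symm)
  · rw [hs1, Finset.prod_image]
    · apply Finset.prod_congr rfl
      intro k hk
      have h := (Finset.mem_filter.1 hk).2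
      have e : ((k.1, k.2 - 1 + 1) : V × ℕ) = k := Prod.ext rfl (by simp only; omega)
      simp only
      rw [e]
    · intro a ha b hb hab
      have h1 := (Finset.mem_filter.1 ha).2
      have h2 := (Finset.mem_filter.1 hb).2
      simp only [Prod.mk.injEq] at hab
      exact Prod.ext hab.1 (by omega)

lemma map_spl : (lam V).map (spl (V := V)) = Pr V := by
  rw [← map_joi, Measure.map_map measurable_spl measurable_joi]
  have : spl (V := V) ∘ joi = id := by funext p; exact spl_joi p
  rw [this, Measure.map_id]

theorem exists_labels (V : Type*) : ∃ Ω : (V → I01) → (V → I01) × (V × ℕ → I01), Measurable Ω ∧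
    (iidLaw V).map Ω = Pr V ∧ ∀ (g : V ≃ V) (u : V → I01), Ω (gU g u) = gω g (Ω u) := by
  obtain ⟨ψ, hψm, hψ⟩ := Measure.exists_measurable_map_eq
    (Measure.infinitePi fun _ : ℕ => (volume : Measure I01))
  set T : (V → I01) → (V × ℕ → I01) := fun u k => ψ (u k.1) k.2 with hT
  have hTm : Measurable T := by
    rw [measurable_pi_iff]
    intro k
    exact (measurable_pi_apply k.2).comp (hψm.comp (measurable_pi_apply k.1))
  have hmapT : (iidLaw V).map T = lam V := by
    have h1 : (iidLaw V).map (fun (u : V → I01) (v : V) => ψ (u v))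
        = Measure.infinitePi fun _ : V => Measure.infinitePi fun _ : ℕ =>
          (volume : Measure I01) := by
      unfold iidLaw
      rw [Measure.infinitePi_map_pi (fun _ : V => (volume : Measure I01)) (fun _ => hψm), hψ]
    have h2 := Measure.infinitePi_map_curry_symm (fun (_ : V) (_ : ℕ) => (volume : Measure I01))
    rw [← h1, Measure.map_map (MeasurableEquiv.measurable _) (by fun_prop)] at h2
    exact h2
  refine ⟨spl ∘ T, measurable_spl.comp hTm, ?_, ?_⟩
  · rw [← Measure.map_map measurable_spl hTm, hmapT, map_spl]
  · intro g u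
    rfl

end Vale.Agent.P161
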