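import Vale.Agent.P161.Conv

/-!
# The law of the limit
-/

namespace Vale.Agent.P161

open MeasureTheory Filter Topology

variable {V : Type*} {δ : ℝ}

lemma Z_dirac (δ : ℝ) (σ : V → Bool) (A : Finset (V × ℕ)) (x : V × ℕ → I01) :
    Z (Measure.dirac σ) δ A x = W δ A σ x := by
  unfold Z
  exact integral_dirac' _ _ (measurable_W_left δ A x).stronglyMeasurable

lemma Nn_dirac (δ : ℝ) (σ : V → Bool) (A : Finset (V × ℕ)) (v : V) (x : V × ℕ → I01) :
    Nn (Measure.dirac σ) δ A v x = sp (σ v) * W δ A σ x := by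
  unfold Nn
  exact integral_dirac' _ _
    ((measurable_sp_comp (measurable_pi_apply v)).mul
      (measurable_W_left δ A x)).stronglyMeasurable

lemma pm_dirac (h0 : 0 ≤ δ) (h1 : δ ≤ 1 / 2) (σ : V → Bool) (A : Finset (V × ℕ)) (v : V)
    (x : V × ℕ → I01) : pm (Measure.dirac σ) δ A v x = sp (σ v) := by
  unfold pm
  rw [Z_dirac, Nn_dirac]
  field_simp [(W_pos h0 h1 A σ x).ne']

/-- observations from spins and noise -/
noncomputable def RR (δ : ℝ) (ω : (V → Bool) × (V × ℕ → I01)) : V × ℕ → I01 :=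
  fun k => Qc δ (sp (ω.1 k.1)) (ω.2 k)

open Classical in
/-- observations in `A` -/
noncomputable def RA (δ : ℝ) (A : Finset (V × ℕ)) (ω : (V → Bool) × (V × ℕ → I01)) :
    V × ℕ → I01 :=
  fun k => if k ∈ A then Qc δ (sp (ω.1 k.1)) (ω.2 k) else ω.2 k

lemma measurable_RR (δ : ℝ) : Measurable (RR (V := V) δ) := by
  unfold RR
  rw [measurable_pi_iff]
  intro k
  refine (measurable_Qc δ).comp (Measurable.prodMk ?_ ?_)
  · exact measurable_sp_comp ((measurable_pi_apply k.1).comp measurable_fst)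
  · exact (measurable_pi_apply k).comp measurable_snd

lemma measurable_RA (δ : ℝ) (A : Finset (V × ℕ)) : Measurable (RA (V := V) δ A) := by
  unfold RA
  rw [measurable_pi_iff]
  intro k
  by_cases hk : k ∈ A
  · simp only [hk, if_true]
    refine (measurable_Qc δ).comp (Measurable.prodMk ?_ ?_)
    · exact measurable_sp_comp ((measurable_pi_apply k.1).comp measurable_fst)
    · exact (measurable_pi_apply k).comp measurable_snd
  · simp only [hk, if_false]
    exact (measurable_pi_apply k).comp measurable_snd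

lemma RA_eq_Ps (h0 : 0 ≤ δ) (h1 : δ ≤ 1 / 2) (κ : V × ℕ → ℝ) (A : Finset (V × ℕ))
    (σ : V → Bool) (y : V × ℕ → I01) : RA δ A (σ, y) = Ps (Measure.dirac σ) δ κ A y := by
  funext k
  by_cases hk : k ∈ A
  · rw [Ps_mem hk, pm_dirac h0 h1]
    unfold RA
    simp [hk]
  · rw [Ps_notMem hk]
    unfold RA
    simp [hk]

variable {μ : Measure (V → Bool)} [IsProbabilityMeasure μ]

/-- law of the observations in `A` -/
lemma integral_RA [Countable V] (h0 : 0 ≤ δ) (h1 : δ ≤ 1 / 2) (A : Finset (V × ℕ))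
    {φ : (V × ℕ → I01) → ℝ} (hφ : Measurable φ) {D : ℝ} (hD : ∀ x, |φ x| ≤ D) :
    ∫ ω, φ (RA δ A ω) ∂(μ.prod (lam V)) = ∫ x, φ x ∂(PA μ δ A) := by
  have hD0 : 0 ≤ D := (abs_nonneg _).trans (hD fun _ => 0)
  have := Encodable.ofCountable (V × ℕ)
  set κ : V × ℕ → ℝ := fun k => (Encodable.encode k : ℝ)
  have hκ : Function.Injective κ := by
    intro a b h
    have h' : (Encodable.encode a : ℝ) = Encodable.encode b := h
    exact Encodable.encode_injective (by exact_mod_cast h')
  rw [integral_prod (fun ω => φ (RA δ A ω))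
    (integrable_of_bdd (hφ.comp (measurable_RA δ A)) fun _ => hD _)]
  have e1 : ∀ σ : V → Bool, ∫ y, φ (RA δ A (σ, y)) ∂(lam V)
      = ∫ x, φ x * W δ A σ x ∂(lam V) := by
    intro σ
    have hmp := mp_Ps (μ := Measure.dirac σ) h0 h1 hκ A
    have : ∫ y, φ (RA δ A (σ, y)) ∂(lam V) = ∫ x, φ x ∂(PA (Measure.dirac σ) δ A) := by
      rw [← hmp.map_eq, integral_map hmp.measurable.aemeasurable hφ.aestronglyMeasurable]
      simp only [RA_eq_Ps h0 h1 κ]
    rw [this, integral_PA h0 h1]
    simp only [Z_dirac]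
  simp only [e1]
  rw [integral_integral_swap, integral_PA h0 h1]
  · congr 1
    funext x
    rw [integral_const_mul]
    rfl
  · have hm : Measurable fun p : (V → Bool) × (V × ℕ → I01) => φ p.2 * W δ A p.1 p.2 :=
      (hφ.comp measurable_snd).mul (measurable_W δ A)
    apply integrable_of_bdd hm (B := D * (3 / 2) ^ A.card)
    intro p
    rw [abs_mul, abs_of_pos (W_pos h0 h1 A p.1 p.2)]
    exact mul_le_mul (hD _) (W_le h0 h1 A _ _) (W_pos h0 h1 A _ _).le hD0

/-- law of the sampler -/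
lemma integral_XX [Countable V] (h0 : 0 ≤ δ) (h1 : δ ≤ 1 / 2) (A : Finset (V × ℕ))
    {φ : (V × ℕ → I01) → ℝ} (hφ : Measurable φ) {D : ℝ} (hD : ∀ x, |φ x| ≤ D) :
    ∫ ω, φ (XX μ δ A ω) ∂(Pr V) = ∫ x, φ x ∂(PA μ δ A) := by
  unfold Pr
  rw [integral_prod (fun ω => φ (XX μ δ A ω))
    (integrable_of_bdd (hφ.comp (measurable_XX μ δ A)) fun _ => hD _)]
  have : ∀ᵐ U ∂(iidLaw V), ∫ y, φ (XX μ δ A (U, y)) ∂(lam V) = ∫ x, φ x ∂(PA μ δ A) := by
    filter_upwards [ae_ky_injective (V := V)] with U hU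
    have hmp := mp_Ps (μ := μ) h0 h1 hU A
    rw [← hmp.map_eq, integral_map hmp.measurable.aemeasurable hφ.aestronglyMeasurable]
    rfl
  rw [integral_congr_ae this]
  simp

theorem law_limit [Countable V] (h0 : 0 ≤ δ) (h1 : δ ≤ 1 / 2)
    {Xi : (V → I01) × (V × ℕ → I01) → (V × ℕ → I01)} (hXi : Measurable Xi)
    {As : ℕ → Finset (V × ℕ)} (hmono : Monotone As) (hex : ∀ k, ∃ n, k ∈ As n)
    (hlim : ∀ᵐ ω ∂(Pr V), ∀ l, Tendsto (fun n => XX μ δ (As n) ω l) atTop (𝓝 (Xi ω l))) :
    (Pr V).map Xi = (μ.prod (lam V)).map (RR δ) := by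
  have p1 : IsProbabilityMeasure ((Pr V).map Xi) :=
    Measure.isProbabilityMeasure_map hXi.aemeasurable
  have p2 : IsProbabilityMeasure ((μ.prod (lam V)).map (RR δ)) :=
    Measure.isProbabilityMeasure_map (measurable_RR δ).aemeasurable
  apply ext_of_forall_integral_eq_of_IsFiniteMeasure
  intro f
  have hfm : Measurable f := f.continuous.measurable
  have hfb : ∀ x, |f x| ≤ ‖f‖ := fun x => f.norm_coe_le_norm x
  rw [integral_map hXi.aemeasurable hfm.aestronglyMeasurable,
    integral_map (measurable_RR δ).aemeasurable hfm.aestronglyMeasurable]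
  have t1 : Tendsto (fun n => ∫ ω, f (XX μ δ (As n) ω) ∂(Pr V)) atTop
      (𝓝 (∫ ω, f (Xi ω) ∂(Pr V))) := by
    apply tendsto_integral_of_dominated_convergence (fun _ => ‖f‖)
    · intro n
      exact (hfm.comp (measurable_XX μ δ (As n))).aestronglyMeasurable
    · exact integrable_const _
    · intro n
      exact Filter.Eventually.of_forall fun ω => f.norm_coe_le_norm _
    · filter_upwards [hlim] with ω hω
      exact (f.continuous.tendsto _).comp (tendsto_pi_nhds.2 hω)
  have t2 : Tendsto (fun n => ∫ ω, f (RA δ (As n) ω) ∂(μ.prod (lam V))) atTop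
      (𝓝 (∫ ω, f (RR δ ω) ∂(μ.prod (lam V)))) := by
    apply tendsto_integral_of_dominated_convergence (fun _ => ‖f‖)
    · intro n
      exact (hfm.comp (measurable_RA δ (As n))).aestronglyMeasurable
    · exact integrable_const _
    · intro n
      exact Filter.Eventually.of_forall fun ω => f.norm_coe_le_norm _
    · refine Filter.Eventually.of_forall fun ω => ?_
      refine (f.continuous.tendsto _).comp (tendsto_pi_nhds.2 fun k => ?_)
      obtain ⟨N, hN⟩ := hex k
      apply tendsto_const_nhds.congr'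
      filter_upwards [eventually_ge_atTop N] with n hn
      have : k ∈ As n := hmono hn hN
      unfold RA RR
      simp [this]
  have heq : ∀ n, ∫ ω, f (XX μ δ (As n) ω) ∂(Pr V)
      = ∫ ω, f (RA δ (As n) ω) ∂(μ.prod (lam V)) := by
    intro n
    rw [integral_XX h0 h1 (As n) hfm hfb, integral_RA h0 h1 (As n) hfm hfb]
  simp only [heq] at t1
  exact tendsto_nhds_unique t1 t2

end Vale.Agent.P161
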