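import Vale.Agent.P161.Cauchy

/-!
# The samplers form a Cauchy net
-/

namespace Vale.Agent.P161

open MeasureTheory Filter Topology

variable {V : Type*}

instance : IsProbabilityMeasure (iidLaw V) := by unfold iidLaw; infer_instance

lemma iidLaw_eq : iidLaw V = lamI V := rfl

/-- the law of the labels and the noise -/
noncomputable def Pr (V : Type*) : Measure ((V → I01) × (V × ℕ → I01)) := (iidLaw V).prod (lam V)

instance : IsProbabilityMeasure (Pr V) := by unfold Pr; infer_instance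

lemma ky_le {U : V → I01} {k l : V × ℕ} (h : ky U k < ky U l) : k.2 ≤ l.2 := by
  unfold ky at h
  have h1 := (U k.1).2.1
  have h2 := (U l.1).2.2
  have : (k.2 : ℝ) < l.2 + 1 := by linarith
  have : k.2 < l.2 + 1 := by exact_mod_cast this
  omega

lemma measurable_ky (k : V × ℕ) : Measurable fun U : V → I01 => ky U k := by
  unfold ky
  fun_prop

/-- almost surely no two keys agree -/
lemma ae_ky_injective [Countable V] : ∀ᵐ U ∂(iidLaw V), Function.Injective (ky U) := by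
  classical
  have h1 : ∀ v w : V, v ≠ w → ∀ c : ℤ, ∀ᵐ U ∂(iidLaw V), (U v : ℝ) ≠ U w + c := by
    intro v w hvw c
    have hmp := (mp_upd (ι := V) v)
    rw [iidLaw_eq, ← hmp.map_eq]
    have hms : MeasurableSet {U : V → I01 | ¬ ((U v : ℝ) ≠ U w + c)} := by
      simp only [ne_eq, not_not]
      apply measurableSet_eq_fun
      · fun_prop
      · fun_prop
    rw [ae_iff, Measure.map_apply hmp.measurable hms]
    have : (fun p : (V → I01) × I01 => Function.update p.1 v p.2) ⁻¹'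
        {U : V → I01 | ¬ ((U v : ℝ) ≠ U w + c)} = {p | (p.2 : ℝ) = p.1 w + c} := by
      ext p
      simp [Function.update_of_ne hvw.symm]
    rw [this, Measure.prod_apply]
    · apply lintegral_eq_zero_of_ae_eq_zero
      refine Filter.Eventually.of_forall fun x => ?_
      have hs : (Prod.mk x ⁻¹' {p : (V → I01) × I01 | (p.2 : ℝ) = p.1 w + c}).Subsingleton := by
        intro a ha b hb
        simp only [Set.mem_preimage, Set.mem_ofPred_eq] at ha hb
        exact Subtype.ext (ha.trans hb.symm)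
      exact hs.measure_zero _
    · apply measurableSet_eq_fun
      · fun_prop
      · fun_prop
  have h2 : ∀ᵐ U ∂(iidLaw V), ∀ v w : V, v ≠ w → ∀ c : ℤ, (U v : ℝ) ≠ U w + c := by
    rw [ae_all_iff]; intro v
    rw [ae_all_iff]; intro w
    by_cases hvw : v = w
    · exact Filter.Eventually.of_forall fun U h => absurd hvw h
    · have := ae_all_iff.2 (fun c : ℤ => h1 v w hvw c)
      filter_upwards [this] with U hU _ using hU
  filter_upwards [h2] with U hU
  intro k l hkl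
  unfold ky at hkl
  by_cases h : k.1 = l.1
  · rw [h] at hkl
    have : (k.2 : ℝ) = l.2 := by linarith
    exact Prod.ext h (by exact_mod_cast this)
  · exfalso
    apply hU k.1 l.1 h ((l.2 : ℤ) - k.2)
    push_cast
    linarith

variable {μ : Measure (V → Bool)} [IsProbabilityMeasure μ] {δ : ℝ}
  {K E : V → V → ℝ} {C : ℝ}

/-- the sampler as a function of labels and noise -/
noncomputable def XX (μ : Measure (V → Bool)) (δ : ℝ) (A : Finset (V × ℕ))
    (ω : (V → I01) × (V × ℕ → I01)) : V × ℕ → I01 := Ps μ δ (ky ω.1) A ω.2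

lemma measurable_XX (μ : Measure (V → Bool)) [IsProbabilityMeasure μ] (δ : ℝ)
    (A : Finset (V × ℕ)) : Measurable (XX μ δ A) := by
  unfold XX
  exact measurable_Ps_pre μ δ (P := (V → I01) × (V × ℕ → I01)) (κ := fun p => ky p.1)
    (fun k => (measurable_ky k).comp measurable_fst) (x := fun p => p.2) measurable_snd A

lemma measurable_XXr (μ : Measure (V → Bool)) [IsProbabilityMeasure μ] (δ : ℝ)
    (A : Finset (V × ℕ)) (l : V × ℕ) : Measurable fun ω => (XX μ δ A ω l : ℝ) :=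
  measurable_subtype_coe.comp ((measurable_pi_apply l).comp (measurable_XX μ δ A))

/-- averaged second moment of posterior means -/
noncomputable def eb (μ : Measure (V → Bool)) (δ : ℝ) (A : Finset (V × ℕ)) (k : V × ℕ) : ℝ :=
  ∫ U, ee μ δ k.1 (pre (ky U) A k) ∂(iidLaw V)

lemma measurable_ee (μ : Measure (V → Bool)) [IsProbabilityMeasure μ] (δ : ℝ)
    (A : Finset (V × ℕ)) (k : V × ℕ) :
    Measurable fun U => ee μ δ k.1 (pre (ky U) A k) := by
  unfold ee
  have m1 : Measurable fun p : (V → I01) × (V × ℕ → I01) =>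
      pm μ δ (pre (ky p.1) A k) k.1 p.2 :=
    measurable_pm_pre μ δ (κ := fun p : (V → I01) × (V × ℕ → I01) => ky p.1)
      (fun k => (measurable_ky k).comp measurable_fst) (x := fun p => p.2) measurable_snd k.1 A k
  have m2 : Measurable fun p : (V → I01) × (V × ℕ → I01) =>
      Z μ δ (pre (ky p.1) A k) p.2 := by
    simp only [Z_eq]
    exact measurable_Ih_pre μ δ (κ := fun p : (V → I01) × (V × ℕ → I01) => ky p.1)
      (fun k => (measurable_ky k).comp measurable_fst) (x := fun p => p.2) measurable_snd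
      measurable_const A k
  exact ((m1.pow_const 2).mul m2).stronglyMeasurable.integral_prod_right'.measurable

lemma integrable_ee (h0 : 0 ≤ δ) (h1 : δ ≤ 1 / 2) (A : Finset (V × ℕ)) (k : V × ℕ) :
    Integrable (fun U => ee μ δ k.1 (pre (ky U) A k)) (iidLaw V) := by
  apply integrable_of_bdd (measurable_ee μ δ A k) (B := 1)
  intro U
  rw [abs_of_nonneg (ee_nonneg h0 h1 _ _)]
  exact ee_le_one h0 h1 _ _

lemma pre_mono {κ : V × ℕ → ℝ} {A A' : Finset (V × ℕ)} (h : A ⊆ A') (k : V × ℕ) :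
    pre κ A k ⊆ pre κ A' k := by
  intro j hj
  rw [mem_pre] at *
  exact ⟨h hj.1, hj.2⟩

lemma eb_mono (h0 : 0 ≤ δ) (h1 : δ ≤ 1 / 2) {A A' : Finset (V × ℕ)} (h : A ⊆ A') (k : V × ℕ) :
    eb μ δ A k ≤ eb μ δ A' k :=
  integral_mono (integrable_ee h0 h1 A k) (integrable_ee h0 h1 A' k)
    fun _ => ee_mono h0 h1 _ (pre_mono h k)

lemma eb_le_one (h0 : 0 ≤ δ) (h1 : δ ≤ 1 / 2) (A : Finset (V × ℕ)) (k : V × ℕ) :
    eb μ δ A k ≤ 1 := by
  have := integral_mono (μ := iidLaw V) (integrable_ee (μ := μ) h0 h1 A k)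
    (integrable_const (1 : ℝ)) fun U => ee_le_one h0 h1 _ _
  simpa [eb] using this

lemma integrable_sq_XX (μ : Measure (V → Bool)) [IsProbabilityMeasure μ] (δ : ℝ)
    (A A' : Finset (V × ℕ)) (l : V × ℕ) :
    Integrable (fun ω => ((XX μ δ A ω l : ℝ) - XX μ δ A' ω l) ^ 2) (Pr V) :=
  integrable_of_bdd (((measurable_XXr μ δ A l).sub (measurable_XXr μ δ A' l)).pow_const 2)
    fun _ => sq_sub_le_one _ _

/-- comparison of nested samplers, averaged over the labels -/
lemma compare_avg [Countable V] (hg : Good μ δ K E C) {A A' W : Finset (V × ℕ)} (hA : A ⊆ A')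
    (hW : W ⊆ A) {l : V × ℕ} (hl : l ∈ A) [DecidableEq (V × ℕ)] :
    ∫ ω, ((XX μ δ A ω l : ℝ) - XX μ δ A' ω l) ^ 2 ∂(Pr V)
      ≤ 12 * ∑ k ∈ A \ W, Lc E l k ^ 2 + W.card * ∑ k ∈ W, Lc E l k ^ 2 *
          (eb μ δ A' k - eb μ δ A k) := by
  have h0 := hg.h0
  have h1 := hg.h1
  have hint := integrable_sq_XX μ δ A A' l
  unfold Pr at hint ⊢
  rw [integral_prod _ hint]
  have hii : ∀ A k, Integrable (fun U => ee μ δ k.1 (pre (ky U) A k)) (iidLaw V) :=
    fun A k => integrable_ee h0 h1 A k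
  have i1 : Integrable (fun U => 12 * ∑ k ∈ A \ W, Lc E l k ^ 2 + W.card * ∑ k ∈ W, Lc E l k ^ 2 *
          (ee μ δ k.1 (pre (ky U) A' k) - ee μ δ k.1 (pre (ky U) A k))) (iidLaw V) := by
    apply (integrable_const _).add
    apply Integrable.const_mul
    refine integrable_finsetSum _ fun k _ => ?_
    exact ((hii A' k).sub (hii A k)).const_mul _
  have hle : ∫ U, ∫ y, ((XX μ δ A (U, y) l : ℝ) - XX μ δ A' (U, y) l) ^ 2 ∂(lam V) ∂(iidLaw V)
      ≤ ∫ U, (12 * ∑ k ∈ A \ W, Lc E l k ^ 2 + W.card * ∑ k ∈ W, Lc E l k ^ 2 *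
          (ee μ δ k.1 (pre (ky U) A' k) - ee μ δ k.1 (pre (ky U) A k))) ∂(iidLaw V) := by
    apply integral_mono_ae hint.integral_prod_left i1
    filter_upwards [ae_ky_injective (V := V)] with U hU
    exact compare hg hU (fun k l h => ky_le h) hA hW hl
  refine hle.trans (le_of_eq ?_)
  have i2 : Integrable (fun U => (W.card : ℝ) * ∑ k ∈ W, Lc E l k ^ 2 *
          (ee μ δ k.1 (pre (ky U) A' k) - ee μ δ k.1 (pre (ky U) A k))) (iidLaw V) := by
    apply Integrable.const_mul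
    refine integrable_finsetSum _ fun k _ => ?_
    exact ((hii A' k).sub (hii A k)).const_mul _
  have e2 : ∫ U, (W.card : ℝ) * ∑ k ∈ W, Lc E l k ^ 2 *
          (ee μ δ k.1 (pre (ky U) A' k) - ee μ δ k.1 (pre (ky U) A k)) ∂(iidLaw V)
      = W.card * ∑ k ∈ W, Lc E l k ^ 2 * (eb μ δ A' k - eb μ δ A k) := by
    rw [integral_const_mul, integral_finsetSum]
    · congr 1
      apply Finset.sum_congr rfl
      intro k _
      rw [integral_const_mul, integral_sub (hii A' k) (hii A k)]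
      rfl
    · intro k _
      exact ((hii A' k).sub (hii A k)).const_mul _
  rw [integral_add (integrable_const _) i2, e2]
  congr 1
  simp

lemma summable_Lc (hE2 : ∀ v, Summable fun u => (E v u) ^ 2) (l : V × ℕ) :
    Summable fun k => Lc E l k ^ 2 := by
  have s1 : Summable fun i : ℕ => if i ≤ l.2 then ((2 : ℝ) ^ (l.2 + 2)) ^ 2 else 0 := by
    apply summable_of_hasFiniteSupport
    apply (Set.finite_Iic l.2).subset
    intro i hi
    by_contra h
    simp only [Set.mem_Iic] at h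
    simp [h] at hi
  have s2 := (hE2 l.1).mul_of_nonneg s1 (fun _ => sq_nonneg _) (fun i => by
    simp only [Pi.zero_apply]; split_ifs <;> positivity)
  refine s2.congr fun k => ?_
  unfold Lc
  split_ifs <;> ring

/-- the net of samplers is Cauchy (nested form) -/
lemma cauchy_nested [Countable V] (hg : Good μ δ K E C)
    (hE2 : ∀ v, Summable fun u => (E v u) ^ 2) (l : V × ℕ) {ε : ℝ} (hε : 0 < ε) :
    ∃ A₀ : Finset (V × ℕ), l ∈ A₀ ∧ ∀ A, A₀ ⊆ A → ∀ A', A ⊆ A' →
      ∫ ω, ((XX μ δ A ω l : ℝ) - XX μ δ A' ω l) ^ 2 ∂(Pr V) ≤ ε := by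
  classical
  have h0 := hg.h0
  have h1 := hg.h1
  obtain ⟨W, hWt⟩ := summable_iff_vanishing_norm.1 (summable_Lc hE2 l) (ε / 24) (by positivity)
  set S := (W.card : ℝ) * ∑ k ∈ W, Lc E l k ^ 2 with hS
  have hS0 : 0 ≤ S := by positivity
  set η := ε / (2 * (S + 1)) with hη
  have hη0 : 0 < η := by positivity
  -- stabilisation of `eb`
  have hstab : ∀ k, ∃ B : Finset (V × ℕ), ∀ A, B ⊆ A → ∀ A', A ⊆ A' →
      eb μ δ A' k - eb μ δ A k ≤ η := by
    intro k
    have hbdd : BddAbove (Set.range fun A => eb μ δ A k) :=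
      ⟨1, by rintro _ ⟨A, rfl⟩; exact eb_le_one h0 h1 A k⟩
    obtain ⟨B, hB⟩ := exists_lt_of_lt_ciSup (sub_lt_self (⨆ A, eb μ δ A k) hη0)
    refine ⟨B, fun A hA A' _ => ?_⟩
    have h3 := eb_mono (μ := μ) h0 h1 hA k
    have h4 := le_ciSup hbdd A'
    linarith
  choose B hB using hstab
  refine ⟨insert l (W ∪ W.biUnion B), Finset.mem_insert_self _ _, fun A hA A' hA' => ?_⟩
  have hl : l ∈ A := hA (Finset.mem_insert_self _ _)
  have hWA : W ⊆ A := fun k hk => hA (Finset.mem_insert_of_mem (Finset.mem_union_left _ hk))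
  have hBA : ∀ k ∈ W, B k ⊆ A := fun k hk j hj =>
    hA (Finset.mem_insert_of_mem (Finset.mem_union_right _ (Finset.mem_biUnion.2 ⟨k, hk, hj⟩)))
  refine (compare_avg hg hA' hWA hl).trans ?_
  have e1 : 12 * ∑ k ∈ A \ W, Lc E l k ^ 2 ≤ ε / 2 := by
    have := hWt (A \ W) Finset.sdiff_disjoint
    rw [Real.norm_of_nonneg (Finset.sum_nonneg fun k _ => sq_nonneg _)] at this
    linarith
  have e2 : (W.card : ℝ) * ∑ k ∈ W, Lc E l k ^ 2 * (eb μ δ A' k - eb μ δ A k) ≤ ε / 2 := by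
    have h5 : ∑ k ∈ W, Lc E l k ^ 2 * (eb μ δ A' k - eb μ δ A k)
        ≤ ∑ k ∈ W, Lc E l k ^ 2 * η := by
      apply Finset.sum_le_sum
      intro k hk
      exact mul_le_mul_of_nonneg_left (hB k A (hBA k hk) A' hA') (sq_nonneg _)
    calc (W.card : ℝ) * ∑ k ∈ W, Lc E l k ^ 2 * (eb μ δ A' k - eb μ δ A k)
        ≤ (W.card : ℝ) * ∑ k ∈ W, Lc E l k ^ 2 * η :=
          mul_le_mul_of_nonneg_left h5 (Nat.cast_nonneg _)
      _ = S * η := by rw [← Finset.sum_mul]; ring
      _ ≤ (S + 1) * η := by nlinarith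
      _ = ε / 2 := by rw [hη]; field_simp
  linarith

lemma sq_triangle (a b c : ℝ) : (a - b) ^ 2 ≤ 2 * (a - c) ^ 2 + 2 * (b - c) ^ 2 := by
  nlinarith [sq_nonneg ((a - c) + (b - c))]

/-- the net of samplers is Cauchy -/
lemma cauchy_net [Countable V] (hg : Good μ δ K E C)
    (hE2 : ∀ v, Summable fun u => (E v u) ^ 2) (l : V × ℕ) {ε : ℝ} (hε : 0 < ε) :
    ∃ A₀ : Finset (V × ℕ), ∀ A, A₀ ⊆ A → ∀ A', A₀ ⊆ A' →
      ∫ ω, ((XX μ δ A ω l : ℝ) - XX μ δ A' ω l) ^ 2 ∂(Pr V) ≤ ε := by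
  classical
  obtain ⟨A₀, _, h⟩ := cauchy_nested (μ := μ) hg hE2 l (ε := ε / 4) (by positivity)
  refine ⟨A₀, fun A hA A' hA' => ?_⟩
  have h1 := h A hA (A ∪ A') Finset.subset_union_left
  have h2 := h A' hA' (A ∪ A') Finset.subset_union_right
  have i1 := integrable_sq_XX μ δ A (A ∪ A') l
  have i2 := integrable_sq_XX μ δ A' (A ∪ A') l
  have i3 : Integrable (fun ω => 2 * ((XX μ δ A ω l : ℝ) - XX μ δ (A ∪ A') ω l) ^ 2
      + 2 * ((XX μ δ A' ω l : ℝ) - XX μ δ (A ∪ A') ω l) ^ 2) (Pr V) :=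
    (i1.const_mul 2).add (i2.const_mul 2)
  have h3 := integral_mono (integrable_sq_XX μ δ A A' l) i3
    fun ω => sq_triangle _ _ (XX μ δ (A ∪ A') ω l : ℝ)
  have h4 : ∫ ω, (2 * ((XX μ δ A ω l : ℝ) - XX μ δ (A ∪ A') ω l) ^ 2
      + 2 * ((XX μ δ A' ω l : ℝ) - XX μ δ (A ∪ A') ω l) ^ 2) ∂(Pr V)
      = 2 * ∫ ω, ((XX μ δ A ω l : ℝ) - XX μ δ (A ∪ A') ω l) ^ 2 ∂(Pr V)
        + 2 * ∫ ω, ((XX μ δ A' ω l : ℝ) - XX μ δ (A ∪ A') ω l) ^ 2 ∂(Pr V) := by
    rw [integral_add (i1.const_mul 2) (i2.const_mul 2), integral_const_mul, integral_const_mul]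
  rw [h4] at h3
  linarith

end Vale.Agent.P161
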