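import Vale.Agent.P161.Mart

/-!
# Lipschitz bounds for posterior means and for the sampler
-/

namespace Vale.Agent.P161

open MeasureTheory

/-- telescoping: a function which depends on the coordinates in `B` and is `c k`-Lipschitz in the
`k`-th one. -/
lemma telescope {ι : Type*} [DecidableEq ι] (f : (ι → I01) → ℝ) (B : Finset ι) (c : ι → ℝ)
    (hdep : ∀ x y, (∀ k ∈ B, x k = y k) → f x = f y)
    (hc : ∀ x, ∀ k ∈ B, ∀ t, |f x - f (Function.update x k t)| ≤ c k * |(x k : ℝ) - t|)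
    (x y : ι → I01) : |f x - f y| ≤ ∑ k ∈ B, c k * |(x k : ℝ) - y k| := by
  suffices H : ∀ D : Finset ι, D ⊆ B → |f x - f (D.piecewise y x)| ≤
      ∑ k ∈ D, c k * |(x k : ℝ) - y k| by
    have h1 := H B subset_rfl
    rwa [hdep (B.piecewise y x) y] at h1
    intro k hk
    simp [hk]
  intro D
  induction D using Finset.induction_on with
  | empty => intro _; simp
  | insert k D hk ih =>
    intro hD
    have hkB : k ∈ B := hD (Finset.mem_insert_self _ _)
    have hDB : D ⊆ B := fun j hj => hD (Finset.mem_insert_of_mem hj)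
    rw [Finset.sum_insert hk, Finset.piecewise_insert]
    have h1 := ih hDB
    have h2 := hc (D.piecewise y x) k hkB (y k)
    have h3 : (D.piecewise y x) k = x k := by simp [hk]
    rw [h3] at h2
    have := abs_sub_le (f x) (f (D.piecewise y x)) (f (Function.update (D.piecewise y x) k (y k)))
    linarith

variable {V : Type*} {μ : Measure (V → Bool)} [IsProbabilityMeasure μ] {δ : ℝ}

lemma ind_add (b : Bool) : ind true b + ind false b = 1 := by cases b <;> simp [ind]

lemma ind_bound (b b' : Bool) : |ind b b'| ≤ 1 := by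
  unfold ind; split_ifs <;> simp

lemma measurable_ind (b : Bool) : Measurable (ind b) := measurable_of_countable _

lemma fac_split (δ : ℝ) (b : Bool) (x : I01) :
    fac δ b x = fac δ true x * ind true b + fac δ false x * ind false b := by
  cases b <;> simp [ind]

open Classical in
lemma Ih_split (h0 : 0 ≤ δ) (h1 : δ ≤ 1 / 2) {h : (V → Bool) → ℝ} (hh : Measurable h)
    {C : ℝ} (hC : ∀ σ, |h σ| ≤ C) {B : Finset (V × ℕ)} {k : V × ℕ} (hk : k ∉ B)
    (x : V × ℕ → I01) :
    Ih μ δ h (insert k B) x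
      = fac δ true (x k) * Ih μ δ (fun σ => h σ * ind true (σ k.1)) B x
        + fac δ false (x k) * Ih μ δ (fun σ => h σ * ind false (σ k.1)) B x := by
  have i : ∀ b, Integrable (fun σ => (h σ * ind b (σ k.1)) * W δ B σ x) μ := by
    intro b
    apply integrable_hW h0 h1 (h := fun σ => h σ * ind b (σ k.1)) (B := C)
    · exact hh.mul ((measurable_ind b).comp (measurable_pi_apply _))
    · intro σ
      rw [abs_mul]
      have hC0 : 0 ≤ C := (abs_nonneg _).trans (hC σ)
      nlinarith [hC σ, ind_bound b (σ k.1), abs_nonneg (h σ), abs_nonneg (ind b (σ k.1))]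
  unfold Ih
  rw [← integral_const_mul, ← integral_const_mul, ← integral_add ((i _).const_mul _)
    ((i _).const_mul _)]
  congr 1
  funext σ
  rw [W_insert δ hk, fac_split]
  ring

open Classical in
/-- the likelihood is a product of single-site factors -/
lemma W_eq_tilt (δ : ℝ) (B : Finset (V × ℕ)) (x : V × ℕ → I01) (σ : V → Bool) :
    W δ B σ x = tilt (B.image Prod.fst)
      (fun u b => ∏ k ∈ B with k.1 = u, fac δ b (x k)) σ := by
  unfold W tilt
  rw [← Finset.prod_fiberwise_of_maps_to (s := B) (t := B.image Prod.fst) (g := Prod.fst)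
    (fun k hk => Finset.mem_image_of_mem _ hk)]
  refine Finset.prod_congr rfl fun u _ => ?_
  refine Finset.prod_congr rfl fun k hk => ?_
  rw [(Finset.mem_filter.1 hk).2]

omit [IsProbabilityMeasure μ] in
open Classical in
/-- the influence bound applied to likelihoods -/
lemma inf_W (h0 : 0 ≤ δ) (h1 : δ ≤ 1 / 2) {K : V → V → ℝ} (hinf : InfBound μ K)
    (B : Finset (V × ℕ)) (x : V × ℕ → I01) (v w : V) :
    |Ih μ δ (fun σ => sp (σ v) * ind true (σ w)) B x * Ih μ δ (fun σ => ind false (σ w)) B x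
      - Ih μ δ (fun σ => sp (σ v) * ind false (σ w)) B x * Ih μ δ (fun σ => ind true (σ w)) B x|
    ≤ 2 * K v w * (Ih μ δ (fun σ => ind true (σ w)) B x
      * Ih μ δ (fun σ => ind false (σ w)) B x) := by
  have h := hinf (B.image Prod.fst) (fun u b => ∏ k ∈ B with k.1 = u, fac δ b (x k))
    (fun u b => Finset.prod_pos fun k _ => by linarith [(fac_bounds h0 h1 b (x k)).1]) v w
  simp only [← W_eq_tilt] at h
  have e1 : ∀ b, ∫ σ, sp (σ v) * W δ B σ x * ind b (σ w) ∂μ
      = Ih μ δ (fun σ => sp (σ v) * ind b (σ w)) B x := by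
    intro b; unfold Ih; congr 1; funext σ; ring
  have e2 : ∀ b, ∫ σ, W δ B σ x * ind b (σ w) ∂μ
      = Ih μ δ (fun σ => ind b (σ w)) B x := by
    intro b; unfold Ih; congr 1; funext σ; ring
  rw [e1, e1, e2, e2] at h
  exact h

omit [IsProbabilityMeasure μ] in
lemma Ih_nonneg (h0 : 0 ≤ δ) (h1 : δ ≤ 1 / 2) {h : (V → Bool) → ℝ} (hh : ∀ σ, 0 ≤ h σ)
    (B : Finset (V × ℕ)) (x : V × ℕ → I01) : 0 ≤ Ih μ δ h B x :=
  integral_nonneg fun σ => mul_nonneg (hh σ) (W_pos h0 h1 B σ x).le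

lemma ind_nonneg (b b' : Bool) : 0 ≤ ind b b' := by unfold ind; split_ifs <;> norm_num

open Classical in
/-- one-coordinate Lipschitz bound for posterior means -/
lemma pm_lip_one (h0 : 0 ≤ δ) (h1 : δ ≤ 1 / 2) {K : V → V → ℝ} (hK : ∀ v w, 0 ≤ K v w)
    (hinf : InfBound μ K) (B : Finset (V × ℕ)) (v : V) (x : V × ℕ → I01) (k : V × ℕ) (hk : k ∈ B)
    (t : I01) :
    |pm μ δ B v x - pm μ δ B v (Function.update x k t)|
      ≤ 8 * δ * K v k.1 * |(x k : ℝ) - t| := by
  set B₀ := B.erase k with hB₀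
  have hkB₀ : k ∉ B₀ := Finset.notMem_erase _ _
  have hB : B = insert k B₀ := (Finset.insert_erase hk).symm
  set x' := Function.update x k t with hx'
  have hx'k : x' k = t := Function.update_self _ _ _
  have hagree : ∀ j ∈ B₀, x' j = x j := fun j hj =>
    Function.update_of_ne (fun h : j = k => hkB₀ (h ▸ hj)) _ _
  have hs := measurable_sp_comp (measurable_pi_apply (X := fun _ : V => Bool) v)
  set Np := Ih μ δ (fun σ => sp (σ v) * ind true (σ k.1)) B₀ x with hNp
  set Nm := Ih μ δ (fun σ => sp (σ v) * ind false (σ k.1)) B₀ x with hNm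
  set Zp := Ih μ δ (fun σ => ind true (σ k.1)) B₀ x with hZp
  set Zm := Ih μ δ (fun σ => ind false (σ k.1)) B₀ x with hZm
  have eN : Nn μ δ B v x = fac δ true (x k) * Np + fac δ false (x k) * Nm := by
    rw [Nn_eq, hB, Ih_split h0 h1 hs (C := 1) (fun σ => (abs_sp _).le) hkB₀]
  have eN' : Nn μ δ B v x' = fac δ true t * Np + fac δ false t * Nm := by
    rw [Nn_eq, hB, Ih_split h0 h1 hs (C := 1) (fun σ => (abs_sp _).le) hkB₀, hx'k,
      Ih_congr μ δ _ hagree, Ih_congr μ δ _ hagree]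
  have eZ : Z μ δ B x = fac δ true (x k) * Zp + fac δ false (x k) * Zm := by
    rw [Z_eq, hB, Ih_split h0 h1 measurable_const (C := 1) (by simp) hkB₀]
    simp only [one_mul]
    rfl
  have eZ' : Z μ δ B x' = fac δ true t * Zp + fac δ false t * Zm := by
    rw [Z_eq, hB, Ih_split h0 h1 measurable_const (C := 1) (by simp) hkB₀, hx'k,
      Ih_congr μ δ _ hagree, Ih_congr μ δ _ hagree]
    simp only [one_mul]
    rfl
  have hZp0 : 0 ≤ Zp := Ih_nonneg h0 h1 (fun σ => ind_nonneg _ _) _ _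
  have hZm0 : 0 ≤ Zm := Ih_nonneg h0 h1 (fun σ => ind_nonneg _ _) _ _
  have hinf' : |Np * Zm - Nm * Zp| ≤ 2 * K v k.1 * (Zp * Zm) := inf_W h0 h1 hinf B₀ x v k.1
  have hZ := Z_pos (μ := μ) h0 h1 B x
  have hZ' := Z_pos (μ := μ) h0 h1 B x'
  have fb := fac_bounds h0 h1
  have hZlow : 1 / 2 * (Zp + Zm) ≤ Z μ δ B x := by
    rw [eZ]
    nlinarith [(fb true (x k)).1, (fb false (x k)).1]
  have hZlow' : 1 / 2 * (Zp + Zm) ≤ Z μ δ B x' := by
    rw [eZ']
    nlinarith [(fb true t).1, (fb false t).1]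
  have hprod : Zp * Zm ≤ Z μ δ B x * Z μ δ B x' := by
    have : 1 / 2 * (Zp + Zm) * (1 / 2 * (Zp + Zm)) ≤ Z μ δ B x * Z μ δ B x' :=
      mul_le_mul hZlow hZlow' (by positivity) hZ.le
    nlinarith [sq_nonneg (Zp - Zm)]
  have key : pm μ δ B v x - pm μ δ B v x'
      = (4 * δ * ((x k : ℝ) - t) * (Np * Zm - Nm * Zp)) / (Z μ δ B x * Z μ δ B x') := by
    unfold pm
    rw [div_sub_div _ _ hZ.ne' hZ'.ne']
    congr 1
    rw [eN, eN', eZ, eZ']
    simp only [fac_eq, sp]
    simp only [if_true, Bool.false_eq_true, if_false]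
    ring
  rw [key, abs_div, abs_of_pos (mul_pos hZ hZ'), div_le_iff₀ (mul_pos hZ hZ'), abs_mul, abs_mul,
    abs_of_nonneg (by linarith : (0:ℝ) ≤ 4 * δ)]
  have hK' := hK v k.1
  calc 4 * δ * |(x k : ℝ) - t| * |Np * Zm - Nm * Zp|
      ≤ 4 * δ * |(x k : ℝ) - t| * (2 * K v k.1 * (Zp * Zm)) := by
        apply mul_le_mul_of_nonneg_left hinf'
        positivity
    _ = 8 * δ * K v k.1 * |(x k : ℝ) - t| * (Zp * Zm) := by ring
    _ ≤ 8 * δ * K v k.1 * |(x k : ℝ) - t| * (Z μ δ B x * Z μ δ B x') := by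
        apply mul_le_mul_of_nonneg_left hprod
        positivity

lemma pm_lip (h0 : 0 ≤ δ) (h1 : δ ≤ 1 / 2) {K : V → V → ℝ} (hK : ∀ v w, 0 ≤ K v w)
    (hinf : InfBound μ K) (B : Finset (V × ℕ)) (v : V) (x y : V × ℕ → I01) :
    |pm μ δ B v x - pm μ δ B v y| ≤ ∑ k ∈ B, 8 * δ * K v k.1 * |(x k : ℝ) - y k| := by
  classical
  apply telescope (fun x => pm μ δ B v x) B (fun k => 8 * δ * K v k.1)
  · intro x y h
    exact pm_congr μ δ v h
  · intro x k hk t
    exact pm_lip_one h0 h1 hK hinf B v x k hk t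

end Vale.Agent.P161
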