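import Vale.Agent.P161.Post

/-!
# Consistency of the likelihoods and the martingale property of posterior means
-/

namespace Vale.Agent.P161

open MeasureTheory

open Classical in
lemma W_insert {V : Type*} (δ : ℝ) {B : Finset (V × ℕ)} {k : V × ℕ} (hk : k ∉ B)
    (σ : V → Bool) (x : V × ℕ → I01) :
    W δ (insert k B) σ x = fac δ (σ k.1) (x k) * W δ B σ x := by
  unfold W
  rw [Finset.prod_insert hk]

open Classical in
lemma W_upd {V : Type*} (δ : ℝ) {B : Finset (V × ℕ)} {k : V × ℕ} (hk : k ∉ B)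
    (σ : V → Bool) (x : V × ℕ → I01) (t : I01) :
    W δ (insert k B) σ (Function.update x k t)
      = W δ B σ x + δ * (2 * (t : ℝ) - 1) * (sp (σ k.1) * W δ B σ x) := by
  rw [W_insert δ hk, Function.update_self, W_congr δ (x := Function.update x k t) (y := x), fac_eq]
  · ring
  · intro j hj
    exact Function.update_of_ne (fun h : j = k => hk (h ▸ hj)) _ _

variable {V : Type*} {μ : Measure (V → Bool)} [IsProbabilityMeasure μ] {δ : ℝ}

open Classical in
lemma Ih_upd (h0 : 0 ≤ δ) (h1 : δ ≤ 1 / 2) {h : (V → Bool) → ℝ} (hh : Measurable h)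
    {C : ℝ} (hC : ∀ σ, |h σ| ≤ C) {B : Finset (V × ℕ)} {k : V × ℕ} (hk : k ∉ B)
    (x : V × ℕ → I01) (t : I01) :
    Ih μ δ h (insert k B) (Function.update x k t)
      = Ih μ δ h B x + δ * (2 * (t : ℝ) - 1) * Ih μ δ (fun σ => h σ * sp (σ k.1)) B x := by
  unfold Ih
  have i1 := integrable_hW (μ := μ) h0 h1 hh hC B x
  have i2 : Integrable (fun σ => (h σ * sp (σ k.1)) * W δ B σ x) μ := by
    apply integrable_hW h0 h1 (h := fun σ => h σ * sp (σ k.1)) (B := C)
    · exact hh.mul (measurable_sp_comp (by fun_prop))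
    · intro σ
      rw [abs_mul, abs_sp, mul_one]
      exact hC σ
  rw [← integral_const_mul, ← integral_add i1 (i2.const_mul _)]
  congr 1
  funext σ
  rw [W_upd δ hk]
  ring

open Classical in
lemma Z_upd (h0 : 0 ≤ δ) (h1 : δ ≤ 1 / 2) {B : Finset (V × ℕ)} {k : V × ℕ} (hk : k ∉ B)
    (x : V × ℕ → I01) (t : I01) :
    Z μ δ (insert k B) (Function.update x k t)
      = Z μ δ B x * (1 + δ * pm μ δ B k.1 x * (2 * (t : ℝ) - 1)) := by
  rw [Z_eq, Ih_upd h0 h1 measurable_const (C := 1) (by simp) hk, ← Z_eq]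
  have : Ih μ δ (fun σ => 1 * sp (σ k.1)) B x = Nn μ δ B k.1 x := by
    rw [Nn_eq]; simp
  rw [this, ← pm_mul_Z h0 h1 B k.1 x]
  ring

lemma integral_two_mul_sub : ∫ t : I01, (2 * (t : ℝ) - 1) = 0 := by
  have h := integral_lin 1
  have i : Integrable (fun t : I01 => (2 * (t : ℝ) - 1)) (volume : Measure I01) := by
    apply Continuous.integrable_of_hasCompactSupport
    · fun_prop
    · exact HasCompactSupport.of_compactSpace _
  rw [integral_add (integrable_const _) (by simpa using i)] at h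
  simp only [one_mul] at h
  simpa using h

lemma abs_le_of_bdd (h0 : 0 ≤ δ) (h1 : δ ≤ 1 / 2) {h : (V → Bool) → ℝ}
    {C : ℝ} (hC : ∀ σ, |h σ| ≤ C) (A : Finset (V × ℕ)) (x : V × ℕ → I01) :
    |Ih μ δ h A x| ≤ C * (3 / 2) ^ A.card := by
  have hC0 : 0 ≤ C := (abs_nonneg _).trans (hC fun _ => true)
  exact (abs_Ih_le h0 h1 hC A x).trans (mul_le_mul_of_nonneg_left (Z_le h0 h1 A x) hC0)

open Classical in
/-- one extra observation integrates out -/
lemma integral_insert (h0 : 0 ≤ δ) (h1 : δ ≤ 1 / 2) {h : (V → Bool) → ℝ} (hh : Measurable h)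
    {C : ℝ} (hC : ∀ σ, |h σ| ≤ C) {B : Finset (V × ℕ)} {k : V × ℕ} (hk : k ∉ B)
    {φ : (V × ℕ → I01) → ℝ} (hφ : Measurable φ) {D : ℝ} (hD : ∀ x, |φ x| ≤ D)
    (hφk : ∀ x t, φ (Function.update x k t) = φ x) :
    ∫ x, φ x * Ih μ δ h (insert k B) x ∂(lam V) = ∫ x, φ x * Ih μ δ h B x ∂(lam V) := by
  have hD0 : 0 ≤ D := (abs_nonneg _).trans (hD fun _ => 0)
  have hm : Measurable fun x => φ x * Ih μ δ h (insert k B) x := hφ.mul (measurable_Ih μ δ hh _)
  rw [lam_eq, integral_upd k _ hm (B := D * (C * (3 / 2) ^ (insert k B).card))]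
  · congr 1
    funext x
    simp only [hφk, Ih_upd h0 h1 hh hC hk, mul_add]
    rw [integral_add]
    · have : ∀ t : I01, φ x * (δ * (2 * (t : ℝ) - 1) * Ih μ δ (fun σ => h σ * sp (σ k.1)) B x)
          = (φ x * δ * Ih μ δ (fun σ => h σ * sp (σ k.1)) B x) * (2 * (t : ℝ) - 1) := by
        intro t; ring
      simp only [this]
      rw [integral_const_mul (φ x * δ * Ih μ δ (fun σ => h σ * sp (σ k.1)) B x),
        integral_two_mul_sub]
      simp
    · exact integrable_const _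
    · apply Continuous.integrable_of_hasCompactSupport
      · fun_prop
      · exact HasCompactSupport.of_compactSpace _
  · intro x
    simp only [abs_mul]
    exact mul_le_mul (hD x) (abs_le_of_bdd h0 h1 hC _ _) (abs_nonneg _) hD0

open Classical in
/-- extra observations integrate out -/
lemma integral_subset (h0 : 0 ≤ δ) (h1 : δ ≤ 1 / 2) {h : (V → Bool) → ℝ} (hh : Measurable h)
    {C : ℝ} (hC : ∀ σ, |h σ| ≤ C) {B B' : Finset (V × ℕ)} (hB : B ⊆ B')
    {φ : (V × ℕ → I01) → ℝ} (hφ : Measurable φ) {D : ℝ} (hD : ∀ x, |φ x| ≤ D)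
    (hφk : ∀ k ∈ B', k ∉ B → ∀ x t, φ (Function.update x k t) = φ x) :
    ∫ x, φ x * Ih μ δ h B' x ∂(lam V) = ∫ x, φ x * Ih μ δ h B x ∂(lam V) := by
  suffices H : ∀ E : Finset (V × ℕ), E ⊆ B' \ B →
      ∫ x, φ x * Ih μ δ h (B ∪ E) x ∂(lam V) = ∫ x, φ x * Ih μ δ h B x ∂(lam V) by
    have := H (B' \ B) subset_rfl
    rwa [Finset.union_sdiff_of_subset hB] at this
  intro E
  induction E using Finset.induction_on with
  | empty => intro _; simp
  | insert k E hk ih =>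
    intro hE
    have hkE : k ∈ B' \ B := hE (Finset.mem_insert_self _ _)
    have hE' : E ⊆ B' \ B := fun j hj => hE (Finset.mem_insert_of_mem hj)
    rw [Finset.mem_sdiff] at hkE
    rw [Finset.union_insert, integral_insert h0 h1 hh hC (by simp [hkE.2, hk]) hφ hD
      (hφk k hkE.1 hkE.2), ih hE']

/-- second moment of the posterior mean -/
noncomputable def ee (μ : Measure (V → Bool)) (δ : ℝ) (v : V) (B : Finset (V × ℕ)) : ℝ :=
  ∫ x, pm μ δ B v x ^ 2 * Z μ δ B x ∂(lam V)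

omit [IsProbabilityMeasure μ] in
lemma pm_upd_of_notMem [DecidableEq (V × ℕ)] (v : V) {B : Finset (V × ℕ)} {k : V × ℕ} (hk : k ∉ B)
    (x : V × ℕ → I01) (t : I01) : pm μ δ B v (Function.update x k t) = pm μ δ B v x :=
  pm_congr μ δ v fun j hj => Function.update_of_ne (fun h : j = k => hk (h ▸ hj)) _ _

lemma integrable_of_bdd_mul_Ih (h0 : 0 ≤ δ) (h1 : δ ≤ 1 / 2) {h : (V → Bool) → ℝ}
    (hh : Measurable h) {C : ℝ} (hC : ∀ σ, |h σ| ≤ C) (A : Finset (V × ℕ))
    {φ : (V × ℕ → I01) → ℝ} (hφ : Measurable φ) {D : ℝ} (hD : ∀ x, |φ x| ≤ D) :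
    Integrable (fun x => φ x * Ih μ δ h A x) (lam V) := by
  have hD0 : 0 ≤ D := (abs_nonneg _).trans (hD fun _ => 0)
  apply integrable_of_bdd (hφ.mul (measurable_Ih μ δ hh _)) (B := D * (C * (3 / 2) ^ A.card))
  intro x
  simp only [Pi.mul_apply, abs_mul]
  exact mul_le_mul (hD x) (abs_le_of_bdd h0 h1 hC _ _) (abs_nonneg _) hD0

lemma integrable_of_bdd_mul_Z (h0 : 0 ≤ δ) (h1 : δ ≤ 1 / 2) (A : Finset (V × ℕ))
    {φ : (V × ℕ → I01) → ℝ} (hφ : Measurable φ) {D : ℝ} (hD : ∀ x, |φ x| ≤ D) :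
    Integrable (fun x => φ x * Z μ δ A x) (lam V) := by
  simp only [Z_eq]
  exact integrable_of_bdd_mul_Ih h0 h1 measurable_const (C := 1) (by simp) A hφ hD

lemma integral_Z_subset (h0 : 0 ≤ δ) (h1 : δ ≤ 1 / 2) {B B' : Finset (V × ℕ)} (hB : B ⊆ B')
    {φ : (V × ℕ → I01) → ℝ} (hφ : Measurable φ) {D : ℝ} (hD : ∀ x, |φ x| ≤ D)
    (hφk : ∀ x y, (∀ k, (k ∈ B ∨ k ∉ B') → x k = y k) → φ x = φ y) :
    ∫ x, φ x * Z μ δ B' x ∂(lam V) = ∫ x, φ x * Z μ δ B x ∂(lam V) := by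
  classical
  simp only [Z_eq]
  apply integral_subset h0 h1 measurable_const (C := 1) (by simp) hB hφ hD
  intro k hk' hk x t
  apply hφk
  intro j hj
  apply Function.update_of_ne
  rintro rfl
  tauto

lemma integral_Z (h0 : 0 ≤ δ) (h1 : δ ≤ 1 / 2) (A : Finset (V × ℕ)) :
    ∫ x, Z μ δ A x ∂(lam V) = 1 := by
  have := integral_Z_subset (μ := μ) h0 h1 (Finset.empty_subset A) (φ := fun _ => 1)
    measurable_const (D := 1) (by simp) (by simp)
  simp only [one_mul] at this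
  rw [this]
  unfold Z W
  simp

lemma ee_le_one (h0 : 0 ≤ δ) (h1 : δ ≤ 1 / 2) (v : V) (B : Finset (V × ℕ)) :
    ee μ δ v B ≤ 1 := by
  rw [← integral_Z (μ := μ) h0 h1 B]
  unfold ee
  apply integral_mono
  · apply integrable_of_bdd_mul_Z h0 h1 B ((measurable_pm μ δ B v).pow_const 2) (D := 1)
    intro x
    rw [abs_of_nonneg (sq_nonneg _), sq_le_one_iff_abs_le_one]
    exact abs_pm_le h0 h1 B v x
  · have := integrable_of_bdd_mul_Z (μ := μ) h0 h1 B (φ := fun _ => 1) measurable_const (D := 1)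
      (by simp)
    simpa using this
  · intro x
    have h2 : pm μ δ B v x ^ 2 ≤ 1 := by
      rw [sq_le_one_iff_abs_le_one]
      exact abs_pm_le h0 h1 B v x
    have := Z_pos (μ := μ) h0 h1 B x
    nlinarith

/-- the martingale identity -/
lemma integral_pm_diff (h0 : 0 ≤ δ) (h1 : δ ≤ 1 / 2) (v : V) {B B' A : Finset (V × ℕ)}
    (hB : B ⊆ B') (hA : B' ⊆ A) :
    ∫ x, (pm μ δ B' v x - pm μ δ B v x) ^ 2 * Z μ δ A x ∂(lam V) = ee μ δ v B' - ee μ δ v B := by
  have hpm : ∀ (B : Finset (V × ℕ)) (x : V × ℕ → I01), pm μ δ B v x ^ 2 ≤ 1 := by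
    intro B x
    rw [sq_le_one_iff_abs_le_one]
    exact abs_pm_le h0 h1 B v x
  have m1 := measurable_pm μ δ B v
  have m2 := measurable_pm μ δ B' v
  -- reduce to `B'`
  have m3 : Measurable fun x => (pm μ δ B' v x - pm μ δ B v x) ^ 2 := (m2.sub m1).pow_const 2
  rw [integral_Z_subset h0 h1 hA m3 (D := 4)]
  rotate_left
  · intro x
    have a1 := abs_le.1 (abs_pm_le (μ := μ) h0 h1 B v x)
    have a2 := abs_le.1 (abs_pm_le (μ := μ) h0 h1 B' v x)
    rw [abs_of_nonneg (sq_nonneg _)]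
    nlinarith [a1.1, a1.2, a2.1, a2.2]
  · intro x y hxy
    rw [pm_congr μ δ v (A := B') (x := x) (y := y) (fun k hk => hxy k (Or.inl hk)),
      pm_congr μ δ v (A := B) (x := x) (y := y) (fun k hk => hxy k (Or.inl (hB hk)))]
  have key : ∀ x, (pm μ δ B' v x - pm μ δ B v x) ^ 2 * Z μ δ B' x
      = pm μ δ B' v x ^ 2 * Z μ δ B' x
        + ((-2 * pm μ δ B v x) * Ih μ δ (fun σ => sp (σ v)) B' x
          + pm μ δ B v x ^ 2 * Z μ δ B' x) := by
    intro x
    rw [← Nn_eq, ← pm_mul_Z h0 h1 B' v x]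
    ring
  simp only [key]
  have hs := measurable_sp_comp (measurable_pi_apply (X := fun _ : V => Bool) v)
  have i1 : Integrable (fun x => pm μ δ B' v x ^ 2 * Z μ δ B' x) (lam V) := by
    apply integrable_of_bdd_mul_Z h0 h1 B' (m2.pow_const 2) (D := 1)
    intro x
    rw [abs_of_nonneg (sq_nonneg _)]; exact hpm B' x
  have i2 : Integrable (fun x => (-2 * pm μ δ B v x) * Ih μ δ (fun σ => sp (σ v)) B' x)
      (lam V) := by
    apply integrable_of_bdd_mul_Ih h0 h1 hs (C := 1) (fun σ => (abs_sp _).le) B'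
      (m1.const_mul _) (D := 2)
    intro x
    rw [abs_mul]
    have := abs_pm_le (μ := μ) h0 h1 B v x
    norm_num
    linarith
  have i3 : Integrable (fun x => pm μ δ B v x ^ 2 * Z μ δ B' x) (lam V) := by
    apply integrable_of_bdd_mul_Z h0 h1 B' (m1.pow_const 2) (D := 1)
    intro x
    rw [abs_of_nonneg (sq_nonneg _)]; exact hpm B x
  have i23 : Integrable (fun x => (-2 * pm μ δ B v x) * Ih μ δ (fun σ => sp (σ v)) B' x
      + pm μ δ B v x ^ 2 * Z μ δ B' x) (lam V) := i2.add i3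
  rw [integral_add i1 i23, integral_add i2 i3]
  have e2 : ∫ x, (-2 * pm μ δ B v x) * Ih μ δ (fun σ => sp (σ v)) B' x ∂(lam V)
      = -2 * ee μ δ v B := by
    classical
    rw [integral_subset h0 h1 hs (C := 1) (fun σ => (abs_sp _).le) hB
      (m1.const_mul _) (D := 2)]
    · unfold ee
      rw [← integral_const_mul]
      congr 1
      funext x
      rw [← Nn_eq, ← pm_mul_Z h0 h1 B v x]
      ring
    · intro x
      rw [abs_mul]
      have := abs_pm_le (μ := μ) h0 h1 B v x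
      norm_num
      linarith
    · intro k _ hk x t
      rw [pm_upd_of_notMem v hk]
  have e3 : ∫ x, pm μ δ B v x ^ 2 * Z μ δ B' x ∂(lam V) = ee μ δ v B := by
    rw [integral_Z_subset h0 h1 hB (m1.pow_const 2) (D := 1)]
    · rfl
    · intro x
      rw [abs_of_nonneg (sq_nonneg _)]; exact hpm B x
    · intro x y hxy
      rw [pm_congr μ δ v (A := B) (x := x) (y := y) (fun k hk => hxy k (Or.inl hk))]
  rw [e2, e3]
  unfold ee
  ring

lemma ee_mono (h0 : 0 ≤ δ) (h1 : δ ≤ 1 / 2) (v : V) {B B' : Finset (V × ℕ)}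
    (hB : B ⊆ B') : ee μ δ v B ≤ ee μ δ v B' := by
  have h := integral_pm_diff (μ := μ) h0 h1 v hB subset_rfl
  have : 0 ≤ ∫ x, (pm μ δ B' v x - pm μ δ B v x) ^ 2 * Z μ δ B' x ∂(lam V) :=
    integral_nonneg fun x => mul_nonneg (sq_nonneg _) (Z_pos h0 h1 B' x).le
  linarith

lemma ee_nonneg (h0 : 0 ≤ δ) (h1 : δ ≤ 1 / 2) (v : V) (B : Finset (V × ℕ)) :
    0 ≤ ee μ δ v B :=
  integral_nonneg fun x => mul_nonneg (sq_nonneg _) (Z_pos h0 h1 B x).le

end Vale.Agent.P161
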