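import Vale.Agent.P161.CoreDefs

/-!
# One-dimensional facts about the distribution function `Fc` and the quantile function `Qc`
-/

namespace Vale.Agent.P161

open MeasureTheory

lemma Fr_nonneg {a x : ℝ} (ha : |a| ≤ 1) (h0 : 0 ≤ x) (h1 : x ≤ 1) :
    0 ≤ x + a * (x ^ 2 - x) := by
  have h := abs_le.1 ha
  have : x + a * (x ^ 2 - x) = x * (1 - a * (1 - x)) := by ring
  rw [this]
  apply mul_nonneg h0
  nlinarith [h.1, h.2]

lemma Fr_le_one {a x : ℝ} (ha : |a| ≤ 1) (h0 : 0 ≤ x) (h1 : x ≤ 1) :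
    x + a * (x ^ 2 - x) ≤ 1 := by
  have h := abs_le.1 ha
  have : x + a * (x ^ 2 - x) = 1 - (1 - x) * (1 + a * x) := by ring
  rw [this]
  have h2 : 0 ≤ 1 + a * x := by nlinarith [h.1, h.2]
  nlinarith [mul_nonneg (sub_nonneg.2 h1) h2]

lemma Fc_coe {δ m : ℝ} (ha : |δ * m| ≤ 1) (x : I01) :
    ((Fc δ m x : I01) : ℝ) = x + δ * m * ((x : ℝ) ^ 2 - x) := by
  unfold Fc
  rw [Set.coe_projIcc]
  rw [min_eq_right (Fr_le_one ha x.2.1 x.2.2), max_eq_right (Fr_nonneg ha x.2.1 x.2.2)]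

lemma disc_pos {a y : ℝ} (ha : |a| ≤ 1 / 2) (h0 : 0 ≤ y) (h1 : y ≤ 1) :
    1 / 4 ≤ (1 - a) ^ 2 + 4 * a * y := by
  have h := abs_le.1 ha
  rcases le_total 0 a with h2 | h2
  · nlinarith [mul_nonneg h2 h0]
  · nlinarith [mul_nonneg (neg_nonneg.2 h2) (sub_nonneg.2 h1)]

lemma Qr_nonneg {a y : ℝ} (ha : |a| ≤ 1 / 2) (h0 : 0 ≤ y) :
    0 ≤ 2 * y / ((1 - a) + √((1 - a) ^ 2 + 4 * a * y)) := by
  have h := abs_le.1 ha
  have := Real.sqrt_nonneg ((1 - a) ^ 2 + 4 * a * y)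
  apply div_nonneg <;> linarith

lemma Qr_le_one {a y : ℝ} (ha : |a| ≤ 1 / 2) (h0 : 0 ≤ y) (h1 : y ≤ 1) :
    2 * y / ((1 - a) + √((1 - a) ^ 2 + 4 * a * y)) ≤ 1 := by
  have h := abs_le.1 ha
  have hs := Real.sqrt_nonneg ((1 - a) ^ 2 + 4 * a * y)
  have hD := disc_pos ha h0 h1
  rw [div_le_one (by linarith)]
  rcases le_total (2 * y - 1 + a) 0 with h2 | h2
  · linarith
  · have : 2 * y - 1 + a ≤ √((1 - a) ^ 2 + 4 * a * y) := by
      apply Real.le_sqrt_of_sq_le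
      nlinarith [mul_nonneg h0 (sub_nonneg.2 h1)]
    linarith

lemma Qc_coe {δ m : ℝ} (ha : |δ * m| ≤ 1 / 2) (y : I01) :
    ((Qc δ m y : I01) : ℝ)
      = 2 * (y : ℝ) / ((1 - δ * m) + √((1 - δ * m) ^ 2 + 4 * (δ * m) * y)) := by
  unfold Qc
  rw [Set.coe_projIcc]
  have e : 4 * δ * m * (y : ℝ) = 4 * (δ * m) * y := by ring
  rw [e, min_eq_right (Qr_le_one ha y.2.1 y.2.2), max_eq_right (Qr_nonneg ha y.2.1)]

lemma Fc_Qc {δ m : ℝ} (ha : |δ * m| ≤ 1 / 2) (y : I01) : Fc δ m (Qc δ m y) = y := by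
  apply Subtype.ext
  rw [Fc_coe (by linarith), Qc_coe ha]
  set a := δ * m with hadef
  have h := abs_le.1 ha
  have hD := disc_pos ha y.2.1 y.2.2
  have hs := Real.sqrt_nonneg ((1 - a) ^ 2 + 4 * a * y)
  have hss := Real.sq_sqrt (show 0 ≤ (1 - a) ^ 2 + 4 * a * (y : ℝ) by linarith)
  set s := √((1 - a) ^ 2 + 4 * a * (y : ℝ)) with hsdef
  have hp : 0 < (1 - a) + s := by linarith
  have hp' : (1 - a) + s ≠ 0 := hp.ne'
  have e : 4 * a * (y : ℝ) = (s - (1 - a)) * (s + (1 - a)) := by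
    nlinarith
  set q := 2 * (y : ℝ) / ((1 - a) + s) with hq
  have hq1 : q * ((1 - a) + s) = 2 * y := by rw [hq]; field_simp
  have hq2 : a * q = (s - (1 - a)) / 2 := by
    have : (a * q - (s - (1 - a)) / 2) * ((1 - a) + s) = 0 := by
      have : a * q * ((1 - a) + s) = 2 * (a * y) := by rw [mul_assoc, hq1]; ring
      nlinarith
    rcases mul_eq_zero.1 this with h3 | h3
    · linarith
    · exact absurd h3 hp'
  have : q + a * (q ^ 2 - q) = q * (1 - a + a * q) := by ring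
  rw [this, hq2]
  nlinarith [hq1]

lemma Qc_Fc {δ m : ℝ} (ha : |δ * m| ≤ 1 / 2) (x : I01) : Qc δ m (Fc δ m x) = x := by
  apply Subtype.ext
  rw [Qc_coe ha, Fc_coe (by linarith)]
  set a := δ * m with hadef
  have h := abs_le.1 ha
  have h0 := x.2.1
  have h1 := x.2.2
  have hpos : 0 ≤ 1 - a + 2 * a * (x : ℝ) := by
    rcases le_total 0 a with h2 | h2
    · nlinarith [mul_nonneg h2 h0]
    · nlinarith [mul_nonneg (neg_nonneg.2 h2) (sub_nonneg.2 h1)]
  have e : (1 - a) ^ 2 + 4 * a * ((x : ℝ) + a * ((x : ℝ) ^ 2 - x)) = (1 - a + 2 * a * x) ^ 2 := by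
    ring
  rw [e, Real.sqrt_sq hpos]
  have hp : 0 < 1 - a + a * (x : ℝ) := by
    rcases le_total 0 a with h2 | h2
    · nlinarith [mul_nonneg h2 h0]
    · nlinarith [mul_nonneg (neg_nonneg.2 h2) (sub_nonneg.2 h1)]
  have e3 : 1 - a + (1 - a + 2 * a * (x : ℝ)) = 2 * (1 - a + a * x) := by ring
  rw [e3, div_eq_iff (by positivity)]
  ring

lemma Qc_lip {δ m m' : ℝ} (ha : |δ * m| ≤ 1 / 2) (ha' : |δ * m'| ≤ 1 / 2) (y y' : I01) :
    |((Qc δ m y : I01) : ℝ) - Qc δ m' y'| ≤ 2 * (|(y : ℝ) - y'| + |δ| / 4 * |m - m'|) := by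
  have h1 := congrArg (Subtype.val) (Fc_Qc ha y)
  have h2 := congrArg (Subtype.val) (Fc_Qc ha' y')
  rw [Fc_coe (by linarith)] at h1 h2
  set x := Qc δ m y
  set x' := Qc δ m' y'
  have hx0 := x.2.1
  have hx1 := x.2.2
  have hx0' := x'.2.1
  have hx1' := x'.2.2
  have key : ((x : ℝ) - x') * (1 + δ * m * ((x : ℝ) + x' - 1))
      = ((y : ℝ) - y') - (δ * (m - m')) * ((x' : ℝ) ^ 2 - x') := by
    rw [← h1, ← h2]; ring
  have hlow : 1 / 2 ≤ 1 + δ * m * ((x : ℝ) + x' - 1) := by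
    have hh := abs_le.1 ha
    have : |δ * m * ((x : ℝ) + x' - 1)| ≤ 1 / 2 := by
      rw [abs_mul]
      have : |(x : ℝ) + x' - 1| ≤ 1 := by
        rw [abs_le]; constructor <;> linarith
      nlinarith [abs_nonneg (δ * m), abs_nonneg ((x : ℝ) + x' - 1)]
    linarith [(abs_le.1 this).1]
  have hq : |(x' : ℝ) ^ 2 - x'| ≤ 1 / 4 := by
    rw [abs_le]; constructor <;> nlinarith [sq_nonneg ((x' : ℝ) - 1 / 2), mul_nonneg hx0' (sub_nonneg.2 hx1')]
  have hr : |((y : ℝ) - y') - (δ * (m - m')) * ((x' : ℝ) ^ 2 - x')|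
      ≤ |(y : ℝ) - y'| + |δ| / 4 * |m - m'| := by
    refine (abs_sub _ _).trans ?_
    rw [abs_mul (δ * (m - m')), abs_mul δ]
    have : |δ| * |m - m'| * |(x' : ℝ) ^ 2 - x'| ≤ |δ| * |m - m'| * (1 / 4) := by
      apply mul_le_mul_of_nonneg_left hq
      positivity
    linarith
  rw [← key, abs_mul] at hr
  have h3 : |(x : ℝ) - x'| * (1 / 2) ≤ |(x : ℝ) - x'| * |1 + δ * m * ((x : ℝ) + x' - 1)| := by
    apply mul_le_mul_of_nonneg_left _ (abs_nonneg _)
    exact hlow.trans (le_abs_self _)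
  linarith

lemma Fc_lip {δ m m' : ℝ} (ha : |δ * m| ≤ 1) (ha' : |δ * m'| ≤ 1) (x : I01) :
    |((Fc δ m x : I01) : ℝ) - Fc δ m' x| ≤ |δ| / 4 * |m - m'| := by
  rw [Fc_coe ha, Fc_coe ha']
  have hx0 := x.2.1
  have hx1 := x.2.2
  have hq : |(x : ℝ) ^ 2 - x| ≤ 1 / 4 := by
    rw [abs_le]; constructor <;> nlinarith [sq_nonneg ((x : ℝ) - 1 / 2), mul_nonneg hx0 (sub_nonneg.2 hx1)]
  have e : ((x : ℝ) + δ * m * ((x : ℝ) ^ 2 - x)) - ((x : ℝ) + δ * m' * ((x : ℝ) ^ 2 - x))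
      = (δ * (m - m')) * ((x : ℝ) ^ 2 - x) := by ring
  rw [e, abs_mul, abs_mul]
  have : |δ| * |m - m'| * |(x : ℝ) ^ 2 - x| ≤ |δ| * |m - m'| * (1 / 4) := by
    apply mul_le_mul_of_nonneg_left hq
    positivity
  linarith

lemma measurable_Qc (δ : ℝ) : Measurable fun p : ℝ × I01 => Qc δ p.1 p.2 := by
  unfold Qc
  refine continuous_projIcc.measurable.comp ?_
  fun_prop

lemma measurable_Fc (δ : ℝ) : Measurable fun p : ℝ × I01 => Fc δ p.1 p.2 := by
  unfold Fc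
  refine continuous_projIcc.measurable.comp ?_
  fun_prop

lemma Fc_le_iff {δ m : ℝ} (ha : |δ * m| ≤ 1 / 2) (t y : I01) :
    Fc δ m t ≤ y ↔ t ≤ Qc δ m y := by
  have h1 := Fc_Qc ha y
  set q := Qc δ m y
  have key : ((Fc δ m t : I01) : ℝ) - (Fc δ m q : I01)
      = ((t : ℝ) - q) * (1 + δ * m * ((t : ℝ) + q - 1)) := by
    rw [Fc_coe (by linarith), Fc_coe (by linarith)]; ring
  have hlow : 0 < 1 + δ * m * ((t : ℝ) + q - 1) := by
    have : |δ * m * ((t : ℝ) + q - 1)| ≤ 1 / 2 := by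
      rw [abs_mul]
      have : |(t : ℝ) + q - 1| ≤ 1 := by
        rw [abs_le]; constructor <;> linarith [t.2.1, t.2.2, q.2.1, q.2.2]
      nlinarith [abs_nonneg (δ * m), abs_nonneg ((t : ℝ) + q - 1)]
    linarith [(abs_le.1 this).1]
  rw [← h1]
  rw [← Subtype.coe_le_coe, ← Subtype.coe_le_coe, ← sub_nonpos, key, ← sub_nonpos (a := (t : ℝ))]
  constructor
  · intro h
    by_contra h3
    push Not at h3
    exact absurd h (not_le.2 (mul_pos h3 hlow))
  · intro h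
    exact mul_nonpos_of_nonpos_of_nonneg h hlow.le

lemma dens_nonneg {a : ℝ} (ha : |a| ≤ 1 / 2) {t : ℝ} (h0 : 0 ≤ t) (h1 : t ≤ 1) :
    0 ≤ 1 + a * (2 * t - 1) := by
  have : |a * (2 * t - 1)| ≤ 1 / 2 := by
    rw [abs_mul]
    have : |2 * t - 1| ≤ 1 := by rw [abs_le]; constructor <;> linarith
    nlinarith [abs_nonneg a, abs_nonneg (2 * t - 1)]
  linarith [(abs_le.1 this).1]

lemma lintegral_dens {a : ℝ} (ha : |a| ≤ 1 / 2) (q : I01) :
    ∫⁻ t in Set.Iic q, ENNReal.ofReal (1 + a * (2 * (t : ℝ) - 1))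
      = ENNReal.ofReal ((q : ℝ) + a * ((q : ℝ) ^ 2 - q)) := by
  have h := unitInterval.measurePreserving_coe.setLIntegral_comp_preimage_emb
    unitInterval.measurableEmbedding_coe (fun b : ℝ => ENNReal.ofReal (1 + a * (2 * b - 1)))
    (Set.Iic (q : ℝ))
  have e1 : (Subtype.val : I01 → ℝ) ⁻¹' (Set.Iic (q : ℝ)) = Set.Iic q := by
    ext t; simp
  rw [e1] at h
  rw [h, Measure.restrict_restrict measurableSet_Iic]
  have e2 : Set.Iic (q : ℝ) ∩ unitInterval = Set.Icc 0 (q : ℝ) := by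
    ext t
    simp only [Set.mem_inter_iff, Set.mem_Iic, Set.mem_Icc]
    constructor
    · rintro ⟨h1, h2, h3⟩; exact ⟨h2, h1⟩
    · rintro ⟨h1, h2⟩; exact ⟨h2, h1, h2.trans q.2.2⟩
  rw [e2, ← ofReal_integral_eq_lintegral_ofReal]
  · congr 1
    rw [integral_Icc_eq_integral_Ioc, ← intervalIntegral.integral_of_le q.2.1]
    have : ∀ t : ℝ, HasDerivAt (fun t : ℝ => t + a * (t ^ 2 - t)) (1 + a * (2 * t - 1)) t := by
      intro t
      have h1 := (hasDerivAt_id t).add (((hasDerivAt_pow 2 t).sub (hasDerivAt_id t)).const_mul a)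
      exact h1.congr_deriv (by norm_num)
    rw [intervalIntegral.integral_eq_sub_of_hasDerivAt (fun t _ => this t)]
    · simp
    · apply Continuous.intervalIntegrable; fun_prop
  · apply Continuous.integrableOn_Icc; fun_prop
  · refine (ae_restrict_iff' measurableSet_Icc).2 (Filter.Eventually.of_forall ?_)
    intro t ht
    exact dens_nonneg ha ht.1 (ht.2.trans q.2.2)

lemma map_Fc {δ m : ℝ} (ha : |δ * m| ≤ 1 / 2) :
    ((volume : Measure I01).withDensity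
      fun t => ENNReal.ofReal (1 + δ * m * (2 * (t : ℝ) - 1))).map (Fc δ m) = volume := by
  have hm : Measurable (Fc δ m) := (measurable_Fc δ).comp (measurable_const.prodMk measurable_id)
  have hone : (1 : I01) = ⊤ := rfl
  have hfin : IsFiniteMeasure ((volume : Measure I01).withDensity
      fun t => ENNReal.ofReal (1 + δ * m * (2 * (t : ℝ) - 1))) := by
    apply isFiniteMeasure_withDensity_ofReal
    have : Integrable (fun t : I01 => 1 + δ * m * (2 * (t : ℝ) - 1)) volume := by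
      apply Continuous.integrable_of_hasCompactSupport
      · fun_prop
      · exact HasCompactSupport.of_compactSpace _
    exact this.2
  have : IsFiniteMeasure (((volume : Measure I01).withDensity
      fun t => ENNReal.ofReal (1 + δ * m * (2 * (t : ℝ) - 1))).map (Fc δ m)) :=
    Measure.isFiniteMeasure_map _ _
  refine Measure.ext_of_Iic _ _ fun y => ?_
  rw [Measure.map_apply hm measurableSet_Iic]
  have e : Fc δ m ⁻¹' Set.Iic y = Set.Iic (Qc δ m y) := by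
    ext t
    exact Fc_le_iff ha t y
  rw [e, withDensity_apply _ measurableSet_Iic, lintegral_dens ha, unitInterval.volume_Iic]
  congr 1
  rw [← Fc_coe (by linarith), Fc_Qc ha]

lemma lintegral_Fc {δ m : ℝ} (ha : |δ * m| ≤ 1 / 2) (f : I01 → ENNReal) (hf : Measurable f) :
    ∫⁻ t : I01, ENNReal.ofReal (1 + δ * m * (2 * (t : ℝ) - 1)) * f (Fc δ m t) = ∫⁻ s : I01, f s := by
  have hm : Measurable (Fc δ m) := (measurable_Fc δ).comp (measurable_const.prodMk measurable_id)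
  conv_rhs => rw [← map_Fc ha]
  rw [lintegral_map hf hm, lintegral_withDensity_eq_lintegral_mul]
  · rfl
  · fun_prop
  · exact hf.comp hm

lemma integral_lin (a : ℝ) : ∫ t : I01, (1 + a * (2 * (t : ℝ) - 1)) = 1 := by
  have h := unitInterval.measurePreserving_coe.integral_comp
    unitInterval.measurableEmbedding_coe (fun b : ℝ => (1 + a * (2 * b - 1)))
  rw [h, show unitInterval = Set.Icc (0:ℝ) 1 from rfl, integral_Icc_eq_integral_Ioc,
    ← intervalIntegral.integral_of_le zero_le_one]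
  have : ∀ t : ℝ, HasDerivAt (fun t : ℝ => t + a * (t ^ 2 - t)) (1 + a * (2 * t - 1)) t := by
    intro t
    have h1 := (hasDerivAt_id t).add (((hasDerivAt_pow 2 t).sub (hasDerivAt_id t)).const_mul a)
    exact h1.congr_deriv (by norm_num)
  rw [intervalIntegral.integral_eq_sub_of_hasDerivAt (fun t _ => this t)]
  · simp
  · apply Continuous.intervalIntegrable; fun_prop

end Vale.Agent.P161
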