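import Vale.Agent.P161.CoreDefs

/-!
# The infinite product of uniform laws: resampling one coordinate
-/

namespace Vale.Agent.P161

open MeasureTheory

variable {ι : Type*}

/-- the law of iid uniform variables indexed by `ι` -/
noncomputable def lamI (ι : Type*) : Measure (ι → I01) :=
  Measure.infinitePi fun _ : ι => (volume : Measure I01)

instance : IsProbabilityMeasure (lamI ι) := by unfold lamI; infer_instance

lemma measurable_upd [DecidableEq ι] (k : ι) :
    Measurable fun p : (ι → I01) × I01 => Function.update p.1 k p.2 := by
  rw [measurable_pi_iff]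
  intro j
  by_cases h : j = k
  · subst h
    simpa using measurable_snd
  · simp only [Function.update_of_ne h]
    fun_prop

/-- resampling one coordinate preserves the product law -/
lemma mp_upd [DecidableEq ι] (k : ι) :
    MeasurePreserving (fun p : (ι → I01) × I01 => Function.update p.1 k p.2)
      ((lamI ι).prod volume) (lamI ι) where
  measurable := measurable_upd k
  map_eq := by
    unfold lamI
    refine Measure.eq_infinitePi _ fun s t ht => ?_
    rw [Measure.map_apply (measurable_upd k)
      (.pi (Finset.countable_toSet _) fun _ _ => ht _)]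
    by_cases hk : k ∈ s
    · have e : (fun p : (ι → I01) × I01 => Function.update p.1 k p.2) ⁻¹' ((s : Set ι).pi t)
          = (((s.erase k : Finset ι) : Set ι).pi t) ×ˢ (t k) := by
        ext p
        simp only [Set.mem_preimage, Set.mem_pi, Finset.mem_coe, Set.mem_prod, Finset.mem_erase]
        constructor
        · intro h
          refine ⟨fun i hi => ?_, ?_⟩
          · have := h i hi.2
            rwa [Function.update_of_ne hi.1] at this
          · simpa using h k hk
        · rintro ⟨h1, h2⟩ i hi
          by_cases hik : i = k
          · subst hik; simpa using h2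
          · rw [Function.update_of_ne hik]; exact h1 i ⟨hik, hi⟩
      rw [e, Measure.prod_prod, Measure.infinitePi_pi _ (fun i _ => ht i),
        Finset.prod_erase_mul s (fun i => (volume : Measure I01) (t i)) hk]
    · have e : (fun p : (ι → I01) × I01 => Function.update p.1 k p.2) ⁻¹' ((s : Set ι).pi t)
          = ((s : Set ι).pi t) ×ˢ (Set.univ : Set I01) := by
        ext p
        simp only [Set.mem_preimage, Set.mem_pi, Finset.mem_coe, Set.mem_prod, Set.mem_univ,
          and_true]
        constructor
        · intro h i hi
          have := h i hi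
          rwa [Function.update_of_ne (fun h : i = k => hk (h ▸ hi))] at this
        · intro h i hi
          rw [Function.update_of_ne (fun h : i = k => hk (h ▸ hi))]
          exact h i hi
      rw [e, Measure.prod_prod, Measure.infinitePi_pi _ (fun i _ => ht i), measure_univ, mul_one]

lemma lintegral_upd [DecidableEq ι] (k : ι) (f : (ι → I01) → ENNReal) (hf : Measurable f) :
    ∫⁻ x, f x ∂(lamI ι) = ∫⁻ x, (∫⁻ t : I01, f (Function.update x k t)) ∂(lamI ι) := by
  rw [← (mp_upd k).lintegral_comp hf, lintegral_prod]
  exact (hf.comp (measurable_upd k)).aemeasurable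

lemma integrable_of_bdd {α : Type*} {mα : MeasurableSpace α} {μ : Measure α} [IsFiniteMeasure μ]
    {f : α → ℝ} (hf : Measurable f) {B : ℝ} (hB : ∀ x, |f x| ≤ B) : Integrable f μ :=
  Integrable.of_bound hf.aestronglyMeasurable B (Filter.Eventually.of_forall hB)

lemma integral_upd [DecidableEq ι] (k : ι) (f : (ι → I01) → ℝ) (hf : Measurable f) {B : ℝ}
    (hB : ∀ x, |f x| ≤ B) :
    ∫ x, f x ∂(lamI ι) = ∫ x, (∫ t : I01, f (Function.update x k t)) ∂(lamI ι) := by
  rw [← integral_prod (fun p : (ι → I01) × I01 => f (Function.update p.1 k p.2)),
    ← (mp_upd k).map_eq, integral_map (measurable_upd k).aemeasurable hf.aestronglyMeasurable,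
    (mp_upd k).map_eq]
  exact integrable_of_bdd (hf.comp (measurable_upd k)) (fun p => hB _)

end Vale.Agent.P161
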