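import Vale.Agent.P161.OneD
import Vale.Agent.P161.Prod

/-!
# Likelihoods and posterior means
-/

namespace Vale.Agent.P161

open MeasureTheory

variable {V : Type*}

lemma lam_eq : lam V = lamI (V × ℕ) := rfl

instance : IsProbabilityMeasure (lam V) := by rw [lam_eq]; infer_instance

lemma abs_sp (b : Bool) : |sp b| = 1 := by cases b <;> simp [sp]

lemma fac_eq (δ : ℝ) (b : Bool) (x : I01) : fac δ b x = 1 + δ * sp b * (2 * (x : ℝ) - 1) := rfl

lemma fac_bounds {δ : ℝ} (h0 : 0 ≤ δ) (h1 : δ ≤ 1 / 2) (b : Bool) (x : I01) :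
    1 / 2 ≤ fac δ b x ∧ fac δ b x ≤ 3 / 2 := by
  have : |δ * sp b * (2 * (x : ℝ) - 1)| ≤ 1 / 2 := by
    rw [abs_mul, abs_mul, abs_sp, abs_of_nonneg h0]
    have : |2 * (x : ℝ) - 1| ≤ 1 := by
      rw [abs_le]; constructor <;> linarith [x.2.1, x.2.2]
    nlinarith [abs_nonneg (2 * (x : ℝ) - 1)]
  have h := abs_le.1 this
  rw [fac_eq]
  constructor <;> linarith [h.1, h.2]

lemma W_ge {δ : ℝ} (h0 : 0 ≤ δ) (h1 : δ ≤ 1 / 2) (A : Finset (V × ℕ)) (σ : V → Bool)
    (x : V × ℕ → I01) : (1 / 2) ^ A.card ≤ W δ A σ x := by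
  unfold W
  rw [← Finset.prod_const]
  apply Finset.prod_le_prod
  · intros; norm_num
  · intro k _; exact (fac_bounds h0 h1 _ _).1

lemma W_pos {δ : ℝ} (h0 : 0 ≤ δ) (h1 : δ ≤ 1 / 2) (A : Finset (V × ℕ)) (σ : V → Bool)
    (x : V × ℕ → I01) : 0 < W δ A σ x := lt_of_lt_of_le (by positivity) (W_ge h0 h1 A σ x)

lemma W_le {δ : ℝ} (h0 : 0 ≤ δ) (h1 : δ ≤ 1 / 2) (A : Finset (V × ℕ)) (σ : V → Bool)
    (x : V × ℕ → I01) : W δ A σ x ≤ (3 / 2) ^ A.card := by
  unfold W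
  rw [← Finset.prod_const]
  apply Finset.prod_le_prod
  · intro k _; linarith [(fac_bounds h0 h1 (σ k.1) (x k)).1]
  · intro k _; exact (fac_bounds h0 h1 _ _).2

lemma measurable_sp : Measurable sp := measurable_of_countable _

lemma measurable_sp_comp {α : Type*} [MeasurableSpace α] {f : α → Bool} (hf : Measurable f) :
    Measurable fun a => sp (f a) := measurable_sp.comp hf

lemma measurable_fac (δ : ℝ) : Measurable fun p : Bool × I01 => fac δ p.1 p.2 := by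
  unfold fac
  have h2 : Measurable fun p : Bool × I01 => sp p.1 := measurable_sp_comp measurable_fst
  fun_prop

lemma measurable_W (δ : ℝ) (A : Finset (V × ℕ)) :
    Measurable fun p : (V → Bool) × (V × ℕ → I01) => W δ A p.1 p.2 := by
  unfold W
  refine Finset.measurable_fun_prod _ fun k _ => ?_
  refine (measurable_fac δ).comp (Measurable.prodMk ?_ ?_)
  · fun_prop
  · fun_prop

lemma measurable_W_left (δ : ℝ) (A : Finset (V × ℕ)) (x : V × ℕ → I01) :
    Measurable fun σ : V → Bool => W δ A σ x :=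
  (measurable_W δ A).comp (measurable_id.prodMk measurable_const)

/-- integral of `h` against the likelihood -/
noncomputable def Ih (μ : Measure (V → Bool)) (δ : ℝ) (h : (V → Bool) → ℝ) (A : Finset (V × ℕ))
    (x : V × ℕ → I01) : ℝ := ∫ σ, h σ * W δ A σ x ∂μ

lemma Nn_eq (μ : Measure (V → Bool)) (δ : ℝ) (A : Finset (V × ℕ)) (v : V) (x : V × ℕ → I01) :
    Nn μ δ A v x = Ih μ δ (fun σ => sp (σ v)) A x := rfl

lemma Z_eq (μ : Measure (V → Bool)) (δ : ℝ) (A : Finset (V × ℕ)) (x : V × ℕ → I01) :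
    Z μ δ A x = Ih μ δ (fun _ => 1) A x := by
  unfold Z Ih; simp

section bounds

variable {μ : Measure (V → Bool)} [IsProbabilityMeasure μ] {δ : ℝ}

lemma integrable_hW (h0 : 0 ≤ δ) (h1 : δ ≤ 1 / 2) {h : (V → Bool) → ℝ} (hh : Measurable h)
    {B : ℝ} (hB : ∀ σ, |h σ| ≤ B) (A : Finset (V × ℕ)) (x : V × ℕ → I01) :
    Integrable (fun σ => h σ * W δ A σ x) μ := by
  apply integrable_of_bdd (hh.mul (measurable_W_left δ A x)) (B := B * (3 / 2) ^ A.card)
  intro σ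
  simp only [Pi.mul_apply]
  rw [abs_mul, abs_of_pos (W_pos h0 h1 A σ x)]
  exact mul_le_mul (hB σ) (W_le h0 h1 A σ x) (W_pos h0 h1 A σ x).le ((abs_nonneg _).trans (hB σ))

lemma integrable_W (h0 : 0 ≤ δ) (h1 : δ ≤ 1 / 2) (A : Finset (V × ℕ)) (x : V × ℕ → I01) :
    Integrable (fun σ => W δ A σ x) μ := by
  have := integrable_hW (μ := μ) h0 h1 (h := fun _ => 1) measurable_const (B := 1) (by simp) A x
  simpa using this

lemma abs_Ih_le (h0 : 0 ≤ δ) (h1 : δ ≤ 1 / 2) {h : (V → Bool) → ℝ}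
    {B : ℝ} (hB : ∀ σ, |h σ| ≤ B) (A : Finset (V × ℕ)) (x : V × ℕ → I01) :
    |Ih μ δ h A x| ≤ B * Z μ δ A x := by
  unfold Ih Z
  rw [← integral_const_mul]
  refine (abs_integral_le_integral_abs).trans ?_
  apply integral_mono_of_nonneg
  · exact Filter.Eventually.of_forall fun σ => abs_nonneg _
  · exact (integrable_W h0 h1 A x).const_mul B
  · refine Filter.Eventually.of_forall fun σ => ?_
    simp only [abs_mul, abs_of_pos (W_pos h0 h1 A σ x)]
    exact mul_le_mul_of_nonneg_right (hB σ) (W_pos h0 h1 A σ x).le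

lemma Z_ge (h0 : 0 ≤ δ) (h1 : δ ≤ 1 / 2) (A : Finset (V × ℕ)) (x : V × ℕ → I01) :
    (1 / 2) ^ A.card ≤ Z μ δ A x := by
  have : ∫ _σ : V → Bool, ((1 / 2 : ℝ)) ^ A.card ∂μ ≤ Z μ δ A x := by
    unfold Z
    exact integral_mono (integrable_const _) (integrable_W h0 h1 A x) fun σ => W_ge h0 h1 A σ x
  simpa using this

lemma Z_pos (h0 : 0 ≤ δ) (h1 : δ ≤ 1 / 2) (A : Finset (V × ℕ)) (x : V × ℕ → I01) :
    0 < Z μ δ A x := lt_of_lt_of_le (by positivity) (Z_ge h0 h1 A x)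

lemma Z_le (h0 : 0 ≤ δ) (h1 : δ ≤ 1 / 2) (A : Finset (V × ℕ)) (x : V × ℕ → I01) :
    Z μ δ A x ≤ (3 / 2) ^ A.card := by
  have : Z μ δ A x ≤ ∫ _σ : V → Bool, ((3 / 2 : ℝ)) ^ A.card ∂μ := by
    unfold Z
    exact integral_mono (integrable_W h0 h1 A x) (integrable_const _) fun σ => W_le h0 h1 A σ x
  simpa using this

lemma abs_Nn_le (h0 : 0 ≤ δ) (h1 : δ ≤ 1 / 2) (A : Finset (V × ℕ)) (v : V) (x : V × ℕ → I01) :
    |Nn μ δ A v x| ≤ Z μ δ A x := by
  have := abs_Ih_le (μ := μ) h0 h1 (h := fun σ => sp (σ v))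
    (B := 1) (fun σ => (abs_sp _).le) A x
  rwa [one_mul] at this

lemma abs_pm_le (h0 : 0 ≤ δ) (h1 : δ ≤ 1 / 2) (A : Finset (V × ℕ)) (v : V) (x : V × ℕ → I01) :
    |pm μ δ A v x| ≤ 1 := by
  unfold pm
  rw [abs_div, abs_of_pos (Z_pos h0 h1 A x), div_le_one (Z_pos h0 h1 A x)]
  exact abs_Nn_le h0 h1 A v x

lemma abs_dpm_le (h0 : 0 ≤ δ) (h1 : δ ≤ 1 / 2) (A : Finset (V × ℕ)) (v : V) (x : V × ℕ → I01) :
    |δ * pm μ δ A v x| ≤ 1 / 2 := by
  rw [abs_mul, abs_of_nonneg h0]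
  have := abs_pm_le (μ := μ) h0 h1 A v x
  nlinarith [abs_nonneg (pm μ δ A v x)]

lemma pm_mul_Z (h0 : 0 ≤ δ) (h1 : δ ≤ 1 / 2) (A : Finset (V × ℕ)) (v : V) (x : V × ℕ → I01) :
    pm μ δ A v x * Z μ δ A x = Nn μ δ A v x := by
  unfold pm
  exact div_mul_cancel₀ _ (Z_pos h0 h1 A x).ne'

end bounds

section meas

variable (μ : Measure (V → Bool)) [IsProbabilityMeasure μ] (δ : ℝ)

lemma measurable_Ih {h : (V → Bool) → ℝ} (hh : Measurable h) (A : Finset (V × ℕ)) :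
    Measurable fun x => Ih μ δ h A x := by
  unfold Ih
  have : StronglyMeasurable fun p : (V × ℕ → I01) × (V → Bool) => h p.2 * W δ A p.2 p.1 := by
    apply Measurable.stronglyMeasurable
    exact (hh.comp measurable_snd).mul
      ((measurable_W δ A).comp (measurable_snd.prodMk measurable_fst))
  exact this.integral_prod_right.measurable

lemma measurable_Z (A : Finset (V × ℕ)) : Measurable fun x => Z μ δ A x := by
  simp only [Z_eq]
  exact measurable_Ih μ δ measurable_const A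

lemma measurable_Nn (A : Finset (V × ℕ)) (v : V) : Measurable fun x => Nn μ δ A v x := by
  simp only [Nn_eq]
  exact measurable_Ih μ δ (measurable_sp_comp (by fun_prop)) A

lemma measurable_pm (A : Finset (V × ℕ)) (v : V) : Measurable fun x => pm μ δ A v x :=
  (measurable_Nn μ δ A v).div (measurable_Z μ δ A)

end meas

section dep

variable (μ : Measure (V → Bool)) (δ : ℝ)

lemma W_congr {A : Finset (V × ℕ)} {x y : V × ℕ → I01} (h : ∀ k ∈ A, x k = y k) (σ : V → Bool) :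
    W δ A σ x = W δ A σ y := by
  unfold W
  exact Finset.prod_congr rfl fun k hk => by rw [h k hk]

lemma Ih_congr (h : (V → Bool) → ℝ) {A : Finset (V × ℕ)} {x y : V × ℕ → I01}
    (hxy : ∀ k ∈ A, x k = y k) : Ih μ δ h A x = Ih μ δ h A y := by
  unfold Ih
  simp only [W_congr δ hxy]

lemma Z_congr {A : Finset (V × ℕ)} {x y : V × ℕ → I01}
    (hxy : ∀ k ∈ A, x k = y k) : Z μ δ A x = Z μ δ A y := by
  unfold Z
  simp only [W_congr δ hxy]

lemma Nn_congr (v : V) {A : Finset (V × ℕ)} {x y : V × ℕ → I01}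
    (hxy : ∀ k ∈ A, x k = y k) : Nn μ δ A v x = Nn μ δ A v y := by
  unfold Nn
  simp only [W_congr δ hxy]

lemma pm_congr (v : V) {A : Finset (V × ℕ)} {x y : V × ℕ → I01}
    (hxy : ∀ k ∈ A, x k = y k) : pm μ δ A v x = pm μ δ A v y := by
  unfold pm
  rw [Z_congr μ δ hxy, Nn_congr μ δ v hxy]

end dep

end Vale.Agent.P161
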