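import Vale.Agent.P161.Lip

/-!
# The sampler: inverse of `Th`, Lipschitz bound
-/

namespace Vale.Agent.P161

open MeasureTheory

section comb

variable {V : Type*} (κ : V × ℕ → ℝ) (A : Finset (V × ℕ))

lemma mem_pre {κ : V × ℕ → ℝ} {A : Finset (V × ℕ)} {k l : V × ℕ} :
    k ∈ pre κ A l ↔ k ∈ A ∧ κ k < κ l := by
  classical
  unfold pre; simp

lemma pre_subset (l : V × ℕ) : pre κ A l ⊆ A := fun _ h => (mem_pre.1 h).1

lemma card_pre_lt {l : V × ℕ} (hl : l ∈ A) : (pre κ A l).card < A.card := by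
  apply Finset.card_lt_card
  rw [Finset.ssubset_iff_of_subset (pre_subset κ A l)]
  exact ⟨l, hl, fun h => lt_irrefl _ (mem_pre.1 h).2⟩

lemma card_pre_lt_of_mem {k l : V × ℕ} (hk : k ∈ pre κ A l) :
    (pre κ A k).card < (pre κ A l).card := by
  apply Finset.card_lt_card
  have : pre κ A k ⊆ pre κ A l := by
    intro j hj
    rw [mem_pre] at *
    exact ⟨hj.1, hj.2.trans hk.2⟩
  rw [Finset.ssubset_iff_of_subset this]
  exact ⟨k, hk, fun h => lt_irrefl _ (mem_pre.1 h).2⟩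

end comb

variable {V : Type*} {μ : Measure (V → Bool)} [IsProbabilityMeasure μ] {δ : ℝ}

omit [IsProbabilityMeasure μ] in
lemma Tn_mem {κ : V × ℕ → ℝ} {A : Finset (V × ℕ)} {l : V × ℕ} (hl : l ∈ A) (y x : V × ℕ → I01) :
    Tn μ δ κ A y x l = Qc δ (pm μ δ (pre κ A l) l.1 x) (y l) := by
  unfold Tn; rw [if_pos hl]

omit [IsProbabilityMeasure μ] in
lemma Tn_notMem {κ : V × ℕ → ℝ} {A : Finset (V × ℕ)} {l : V × ℕ} (hl : l ∉ A)
    (y x : V × ℕ → I01) : Tn μ δ κ A y x l = y l := by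
  unfold Tn; rw [if_neg hl]

omit [IsProbabilityMeasure μ] in
lemma Th_mem {κ : V × ℕ → ℝ} {A : Finset (V × ℕ)} {l : V × ℕ} (hl : l ∈ A) (x : V × ℕ → I01) :
    Th μ δ κ A x l = Fc δ (pm μ δ (pre κ A l) l.1 x) (x l) := by
  unfold Th; rw [if_pos hl]

omit [IsProbabilityMeasure μ] in
lemma Th_notMem {κ : V × ℕ → ℝ} {A : Finset (V × ℕ)} {l : V × ℕ} (hl : l ∉ A)
    (x : V × ℕ → I01) : Th μ δ κ A x l = x l := by
  unfold Th; rw [if_neg hl]

omit [IsProbabilityMeasure μ] in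
lemma iterate_agree (κ : V × ℕ → ℝ) (A : Finset (V × ℕ)) (y : V × ℕ → I01) (n : ℕ) :
    ∀ z z' : V × ℕ → I01, ∀ l ∈ A, (pre κ A l).card < n →
      (Tn μ δ κ A y)^[n] z l = (Tn μ δ κ A y)^[n] z' l := by
  induction n with
  | zero => intro z z' l _ h; exact absurd h (Nat.not_lt_zero _)
  | succ n ih =>
    intro z z' l hl hc
    rw [Function.iterate_succ_apply', Function.iterate_succ_apply', Tn_mem hl, Tn_mem hl]
    congr 1
    apply pm_congr
    intro k hk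
    exact ih z z' k (pre_subset κ A l hk)
      (lt_of_lt_of_le (card_pre_lt_of_mem κ A hk) (Nat.lt_succ_iff.1 hc))

omit [IsProbabilityMeasure μ] in
lemma iterate_notMem (κ : V × ℕ → ℝ) (A : Finset (V × ℕ)) (y : V × ℕ → I01) (n : ℕ)
    {l : V × ℕ} (hl : l ∉ A) : (Tn μ δ κ A y)^[n] y l = y l := by
  cases n with
  | zero => rfl
  | succ n => rw [Function.iterate_succ_apply', Tn_notMem hl]

omit [IsProbabilityMeasure μ] in
lemma Tn_Ps (κ : V × ℕ → ℝ) (A : Finset (V × ℕ)) (y : V × ℕ → I01) :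
    Tn μ δ κ A y (Ps μ δ κ A y) = Ps μ δ κ A y := by
  funext l
  by_cases hl : l ∈ A
  · unfold Ps
    rw [← Function.iterate_succ_apply' (Tn μ δ κ A y), Function.iterate_succ_apply]
    exact iterate_agree κ A y A.card _ _ l hl (card_pre_lt κ A hl)
  · rw [Tn_notMem hl]
    unfold Ps
    rw [iterate_notMem κ A y _ hl]

omit [IsProbabilityMeasure μ] in
lemma Ps_mem {κ : V × ℕ → ℝ} {A : Finset (V × ℕ)} {l : V × ℕ} (hl : l ∈ A) (y : V × ℕ → I01) :
    Ps μ δ κ A y l = Qc δ (pm μ δ (pre κ A l) l.1 (Ps μ δ κ A y)) (y l) := by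
  conv_lhs => rw [← Tn_Ps κ A y]
  rw [Tn_mem hl]

omit [IsProbabilityMeasure μ] in
lemma Ps_notMem {κ : V × ℕ → ℝ} {A : Finset (V × ℕ)} {l : V × ℕ} (hl : l ∉ A)
    (y : V × ℕ → I01) : Ps μ δ κ A y l = y l := by
  unfold Ps
  rw [iterate_notMem κ A y _ hl]

omit [IsProbabilityMeasure μ] in
lemma Ps_unique {κ : V × ℕ → ℝ} {A : Finset (V × ℕ)} {x y : V × ℕ → I01}
    (h : Tn μ δ κ A y x = x) : Ps μ δ κ A y = x := by
  funext l
  by_cases hl : l ∈ A
  · unfold Ps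
    rw [iterate_agree κ A y A.card y x l hl (card_pre_lt κ A hl)]
    rw [Function.iterate_fixed h]
  · rw [Ps_notMem hl, ← h, Tn_notMem hl]

lemma Ps_Th (h0 : 0 ≤ δ) (h1 : δ ≤ 1 / 2) (κ : V × ℕ → ℝ) (A : Finset (V × ℕ))
    (x : V × ℕ → I01) : Ps μ δ κ A (Th μ δ κ A x) = x := by
  apply Ps_unique
  funext l
  by_cases hl : l ∈ A
  · rw [Tn_mem hl, Th_mem hl, Qc_Fc (abs_dpm_le h0 h1 _ _ _)]
  · rw [Tn_notMem hl, Th_notMem hl]

lemma Th_Ps (h0 : 0 ≤ δ) (h1 : δ ≤ 1 / 2) (κ : V × ℕ → ℝ) (A : Finset (V × ℕ))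
    (y : V × ℕ → I01) : Th μ δ κ A (Ps μ δ κ A y) = y := by
  funext l
  by_cases hl : l ∈ A
  · rw [Th_mem hl]
    conv_lhs => rw [Ps_mem hl y]
    rw [Fc_Qc (abs_dpm_le h0 h1 _ _ _)]
  · rw [Th_notMem hl, Ps_notMem hl]

/-- Lipschitz constants of the sampler -/
noncomputable def Lc (E : V → V → ℝ) (l k : V × ℕ) : ℝ :=
  if k.2 ≤ l.2 then 2 ^ (l.2 + 2) * E l.1 k.1 else 0

lemma Lc_nonneg {E : V → V → ℝ} (hE : ∀ v w, 0 ≤ E v w) (l k : V × ℕ) : 0 ≤ Lc E l k := by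
  unfold Lc
  split_ifs
  · exact mul_nonneg (by positivity) (hE _ _)
  · exact le_rfl

lemma sum_pow_two_le (n : ℕ) : ∑ i ∈ Finset.range (n + 1), (2 : ℝ) ^ (i + 2) ≤ 2 ^ (n + 3) := by
  induction n with
  | zero => norm_num
  | succ n ih =>
    rw [Finset.sum_range_succ]
    have : (2 : ℝ) ^ (n + 1 + 3) = 2 ^ (n + 3) + 2 ^ (n + 3) := by ring
    rw [this]
    have h2 : (2 : ℝ) ^ (n + 1 + 2) = 2 ^ (n + 3) := by ring
    rw [h2]
    linarith

lemma conv_Lc {K E : V → V → ℝ} {C : ℝ} (hK : ∀ v w, 0 ≤ K v w) (hE : ∀ v w, 0 ≤ E v w)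
    (hC : 0 ≤ C)
    (hKE : ∀ (S : Finset V) (v u : V), ∑ w ∈ S, K v w * E w u ≤ C * E v u)
    {κ : V × ℕ → ℝ} (hκ : ∀ k l, κ k < κ l → k.2 ≤ l.2) (A : Finset (V × ℕ)) (l j : V × ℕ) :
    ∑ k ∈ pre κ A l, K l.1 k.1 * Lc E k j ≤ 2 * C * Lc E l j := by
  classical
  by_cases hj : j.2 ≤ l.2
  · have e1 : Lc E l j = 2 ^ (l.2 + 2) * E l.1 j.1 := by unfold Lc; rw [if_pos hj]
    rw [e1]
    calc ∑ k ∈ pre κ A l, K l.1 k.1 * Lc E k j
        ≤ ∑ k ∈ pre κ A l, K l.1 k.1 * (2 ^ (k.2 + 2) * E k.1 j.1) := by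
          apply Finset.sum_le_sum
          intro k _
          apply mul_le_mul_of_nonneg_left _ (hK _ _)
          unfold Lc
          split_ifs
          · exact le_rfl
          · exact mul_nonneg (by positivity) (hE _ _)
      _ ≤ ∑ k ∈ (A.image Prod.fst) ×ˢ (Finset.range (l.2 + 1)),
            K l.1 k.1 * (2 ^ (k.2 + 2) * E k.1 j.1) := by
          apply Finset.sum_le_sum_of_subset_of_nonneg
          · intro k hk
            rw [Finset.mem_product]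
            refine ⟨Finset.mem_image_of_mem _ (mem_pre.1 hk).1, ?_⟩
            rw [Finset.mem_range]
            exact Nat.lt_succ_of_le (hκ k l (mem_pre.1 hk).2)
          · intro k _ _
            exact mul_nonneg (hK _ _) (mul_nonneg (by positivity) (hE _ _))
      _ = ∑ i ∈ Finset.range (l.2 + 1), 2 ^ (i + 2) *
            ∑ w ∈ A.image Prod.fst, K l.1 w * E w j.1 := by
          rw [Finset.sum_product_right]
          apply Finset.sum_congr rfl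
          intro i _
          rw [Finset.mul_sum]
          apply Finset.sum_congr rfl
          intro w _
          ring
      _ ≤ ∑ i ∈ Finset.range (l.2 + 1), 2 ^ (i + 2) * (C * E l.1 j.1) := by
          apply Finset.sum_le_sum
          intro i _
          exact mul_le_mul_of_nonneg_left (hKE _ _ _) (by positivity)
      _ = (∑ i ∈ Finset.range (l.2 + 1), 2 ^ (i + 2)) * (C * E l.1 j.1) := by
          rw [Finset.sum_mul]
      _ ≤ 2 ^ (l.2 + 3) * (C * E l.1 j.1) :=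
          mul_le_mul_of_nonneg_right (sum_pow_two_le _) (mul_nonneg hC (hE _ _))
      _ = 2 * C * (2 ^ (l.2 + 2) * E l.1 j.1) := by ring
  · have e1 : Lc E l j = 0 := by unfold Lc; rw [if_neg hj]
    rw [e1, mul_zero]
    apply le_of_eq
    apply Finset.sum_eq_zero
    intro k hk
    have h2 : k.2 ≤ l.2 := hκ k l (mem_pre.1 hk).2
    have : ¬ j.2 ≤ k.2 := fun h => hj (h.trans h2)
    unfold Lc
    rw [if_neg this, mul_zero]

/-- The sampler is Lipschitz. -/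
lemma Ps_lip (h0 : 0 ≤ δ) (h1 : δ ≤ 1 / 2) {K E : V → V → ℝ} {C : ℝ}
    (hK : ∀ v w, 0 ≤ K v w) (hE : ∀ v w, 0 ≤ E v w) (hE1 : ∀ v, 1 ≤ E v v) (hC : 0 ≤ C)
    (hKE : ∀ (S : Finset V) (v u : V), ∑ w ∈ S, K v w * E w u ≤ C * E v u)
    (hinf : InfBound μ K) (hδ : 16 * δ ^ 2 * C ≤ 1)
    {κ : V × ℕ → ℝ} (hκ : ∀ k l, κ k < κ l → k.2 ≤ l.2) (A : Finset (V × ℕ))
    (y y' : V × ℕ → I01) : ∀ l ∈ A,
    |(Ps μ δ κ A y l : ℝ) - Ps μ δ κ A y' l| ≤ ∑ k ∈ A, Lc E l k * |(y k : ℝ) - y' k| := by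
  suffices H : ∀ n : ℕ, ∀ l ∈ A, (pre κ A l).card < n →
      |(Ps μ δ κ A y l : ℝ) - Ps μ δ κ A y' l| ≤ ∑ k ∈ A, Lc E l k * |(y k : ℝ) - y' k| from
    fun l hl => H _ l hl (Nat.lt_succ_self _)
  intro n
  induction n with
  | zero => intro l _ h; exact absurd h (Nat.not_lt_zero _)
  | succ n ih =>
    intro l hl hc
    have hstep : |(Ps μ δ κ A y l : ℝ) - Ps μ δ κ A y' l|
        ≤ 2 * (|(y l : ℝ) - y' l| + δ / 4 * ∑ k ∈ pre κ A l, 8 * δ * K l.1 k.1 *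
            ∑ j ∈ A, Lc E k j * |(y j : ℝ) - y' j|) := by
      rw [Ps_mem hl y, Ps_mem hl y']
      refine (Qc_lip (abs_dpm_le h0 h1 _ _ _) (abs_dpm_le h0 h1 _ _ _) _ _).trans ?_
      rw [abs_of_nonneg h0]
      have h3 := pm_lip h0 h1 hK hinf (pre κ A l) l.1 (Ps μ δ κ A y) (Ps μ δ κ A y')
      have h4 : ∑ k ∈ pre κ A l, 8 * δ * K l.1 k.1 *
          |(Ps μ δ κ A y k : ℝ) - Ps μ δ κ A y' k| ≤
          ∑ k ∈ pre κ A l, 8 * δ * K l.1 k.1 * ∑ j ∈ A, Lc E k j * |(y j : ℝ) - y' j| := by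
        apply Finset.sum_le_sum
        intro k hk
        apply mul_le_mul_of_nonneg_left
        · exact ih k (pre_subset κ A l hk)
            (lt_of_lt_of_le (card_pre_lt_of_mem κ A hk) (Nat.lt_succ_iff.1 hc))
        · have := hK l.1 k.1
          positivity
      have h5 := h3.trans h4
      have : δ / 4 * |pm μ δ (pre κ A l) l.1 (Ps μ δ κ A y)
          - pm μ δ (pre κ A l) l.1 (Ps μ δ κ A y')| ≤ δ / 4 * ∑ k ∈ pre κ A l, 8 * δ * K l.1 k.1 *
            ∑ j ∈ A, Lc E k j * |(y j : ℝ) - y' j| :=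
        mul_le_mul_of_nonneg_left h5 (by linarith)
      linarith
    refine hstep.trans ?_
    have e1 : δ / 4 * ∑ k ∈ pre κ A l, 8 * δ * K l.1 k.1 * ∑ j ∈ A, Lc E k j * |(y j : ℝ) - y' j|
        = ∑ j ∈ A, (2 * δ ^ 2 * ∑ k ∈ pre κ A l, K l.1 k.1 * Lc E k j) * |(y j : ℝ) - y' j| := by
      simp only [Finset.mul_sum, Finset.sum_mul]
      rw [Finset.sum_comm]
      apply Finset.sum_congr rfl
      intro j _
      apply Finset.sum_congr rfl
      intro k _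
      ring
    rw [e1]
    have h6 : ∑ j ∈ A, (2 * δ ^ 2 * ∑ k ∈ pre κ A l, K l.1 k.1 * Lc E k j) * |(y j : ℝ) - y' j|
        ≤ ∑ j ∈ A, (1 / 4 * Lc E l j) * |(y j : ℝ) - y' j| := by
      apply Finset.sum_le_sum
      intro j _
      apply mul_le_mul_of_nonneg_right _ (abs_nonneg _)
      have h7 := conv_Lc hK hE hC hKE hκ A l j
      have h8 := Lc_nonneg hE l j
      calc 2 * δ ^ 2 * ∑ k ∈ pre κ A l, K l.1 k.1 * Lc E k j
          ≤ 2 * δ ^ 2 * (2 * C * Lc E l j) := mul_le_mul_of_nonneg_left h7 (by positivity)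
        _ = (16 * δ ^ 2 * C) * (1 / 4 * Lc E l j) := by ring
        _ ≤ 1 * (1 / 4 * Lc E l j) := mul_le_mul_of_nonneg_right hδ (by positivity)
        _ = 1 / 4 * Lc E l j := one_mul _
    have h9 : |(y l : ℝ) - y' l| ≤ ∑ j ∈ A, (1 / 4 * Lc E l j) * |(y j : ℝ) - y' j| := by
      have h10 : (1 / 4 * Lc E l l) * |(y l : ℝ) - y' l|
          ≤ ∑ j ∈ A, (1 / 4 * Lc E l j) * |(y j : ℝ) - y' j| :=
        Finset.single_le_sum (f := fun j => (1 / 4 * Lc E l j) * |(y j : ℝ) - y' j|)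
          (fun j _ => mul_nonneg (by have := Lc_nonneg hE l j; positivity) (abs_nonneg _)) hl
      have h11 : 1 ≤ 1 / 4 * Lc E l l := by
        unfold Lc
        rw [if_pos le_rfl]
        have h12 : (4 : ℝ) ≤ 2 ^ (l.2 + 2) := by
          have : (1 : ℝ) ≤ 2 ^ l.2 := one_le_pow₀ (by norm_num)
          rw [pow_add]; linarith
        nlinarith [hE1 l.1]
      nlinarith [abs_nonneg ((y l : ℝ) - y' l)]
    calc 2 * (|(y l : ℝ) - y' l| + ∑ j ∈ A, (2 * δ ^ 2 * ∑ k ∈ pre κ A l,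
            K l.1 k.1 * Lc E k j) * |(y j : ℝ) - y' j|)
        ≤ 2 * (∑ j ∈ A, (1 / 4 * Lc E l j) * |(y j : ℝ) - y' j|
            + ∑ j ∈ A, (1 / 4 * Lc E l j) * |(y j : ℝ) - y' j|) := by linarith
      _ = ∑ j ∈ A, Lc E l j * |(y j : ℝ) - y' j| := by
          rw [← Finset.sum_add_distrib, Finset.mul_sum]
          apply Finset.sum_congr rfl
          intro j _
          ring

end Vale.Agent.P161
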